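import Vale.Agent.P088.R2.H710.LX.Lim
import Vale.Agent.P088.R2.H509.S3.Re

/-!
# P088, stage 4: solution coordinates at the limit points, all ranks, any connection
-/

open Bundle Manifold MeasureTheory Set Filter Topology
open scoped ContDiff

noncomputable section

set_option linter.all false

namespace Vale.Agent.P088.R2.H710

open Vale.Agent.P088 Vale.Agent.P088.EYM Vale.Agent.P088.R2.H509.S3

universe u

theorem sq_pos_of_ne_zero' {x : ℝ} (h : x ≠ 0) : 0 < x ^ 2 := by positivity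

section

variable {n N : ℕ} [NeZero n]

/-- the Jacobian at a point where `S = 1` and `dS = 0` -/
theorem jac_gen {D : Set (E n)} (hD : RelOpen D) (j0 : Fin N) {S : E n → EndF N}
    {T : Fin n → E n → Fib N} (hS : ContDiffOn ℝ ∞ S D) (hT : ∀ a, ContDiffOn ℝ ∞ (T a) D)
    (hu : ∀ x ∈ D, IsUnit (S x)) {z : E n} (hz : z ∈ D) (h1 : S z = 1)
    (h0 : ∀ i, pd i S z = 0) {B : Matrix (Fin n) (Fin n) ℝ}
    (hJ : ∀ a i, pd i (T a) z = (B a i : ℂ) • EuclideanSpace.single j0 1) :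
    Jac (Xco j0 S T) z = B := by
  have hR : ContDiffOn ℝ ∞ (fun x => Ring.inverse (S x)) D := smooth_ringInverse hS hu
  have hdR : ∀ i, pd i (fun x => Ring.inverse (S x)) z = 0 := by
    intro i
    have e1 : pd i (fun y => Ring.inverse (S y) * S y) z = 0 := by
      rw [hD.pd_congr (g := fun _ => (1 : EndF N))
        (fun y hy => Ring.inverse_mul_cancel _ (hu y hy)) hz i, pd_const]
    rw [hD.pd_mul hR hS hz i, h0 i, mul_zero, zero_add, h1, mul_one] at e1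
    exact e1
  ext a i
  have e2 : pd i (fun y => Xco j0 S T y a) z =
      cCoord_re j0 (pd i (fun y => Ring.inverse (S y) (T a y)) z) :=
    hD.pd_clm (cCoord_re j0) (smooth_eval hR (hT a)) hz i
  show pd i (fun y => Xco j0 S T y a) z = B a i
  rw [e2, hD.pd_eval hR (hT a) (by simp) (by simp) hz i, hdR i, h1, Ring.inverse_one, hJ a i,
    cCoord_re_apply]
  simp

end

section

variable {n N : ℕ} [NeZero n] {M₁ M₂ : Type u}
  [TopologicalSpace M₁] [ChartedSpace (EuclideanHalfSpace n) M₁] [IsManifold (𝓡∂ n) ∞ M₁]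
  [T2Space M₁] [CompactSpace M₁] [ConnectedSpace M₁] [MeasurableSpace M₁] [BorelSpace M₁]
  [TopologicalSpace M₂] [ChartedSpace (EuclideanHalfSpace n) M₂] [IsManifold (𝓡∂ n) ∞ M₂]
  [T2Space M₂] [CompactSpace M₂] [ConnectedSpace M₂] [MeasurableSpace M₂] [BorelSpace M₂]

/-- Solution coordinates at a limit of matched points, normalised at the point. -/
theorem coordP (P : One n N M₁) (Q : One n N M₂) (G : TM.Gl M₁ M₂)
    (x₀ : M₂) (x₀' : M₁) (V₀ : EndF N) (x : ℕ → M₂)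
    (O : ℕ → Set M₂) (φ : ℕ → M₂ → M₁) (V : ℕ → M₂ → EndF N) (hn : 3 ≤ n) (hN : 0 < N)
    (hG : G.Ok n N) (hSame : TM.SameD P Q G) (hx₀ : x₀ ∈ Mi n M₂) (hx₀' : x₀' ∈ Mi n M₁)
    (hV₀ : V₀ ∈ unitary (EndF N))
    (hm : ∀ k, TM.LMatch P Q G (O k) (φ k) (V k) ∧ x k ∈ O k) (hx : Tendsto x atTop (𝓝 x₀))
    (hφ : Tendsto (fun k => φ k (x k)) atTop (𝓝 x₀'))
    (hV : Tendsto (fun k => V k (x k)) atTop (𝓝 V₀))
    (hlim : ∀ u ∈ TM.PP P Q G, u.2 x₀ = V₀ (u.1 x₀')) :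
    ∃ (j0 : Fin N) (s : Fin N → (M₁ → Fib N) × (M₂ → Fib N))
      (t : Fin n → Fin N → (M₁ → Fib N) × (M₂ → Fib N)), (∀ j, s j ∈ TM.PP P Q G) ∧
      (∀ a j, t a j ∈ TM.PP P Q G) ∧
      frm n x₀' (fun j => (s j).1) (xc n x₀' x₀') = 1 ∧
      (∀ i, pd i (frm n x₀' (fun j => (s j).1)) (xc n x₀' x₀') = 0) ∧
      (∃ B : Matrix (Fin n) (Fin n) ℝ, (P.loc x₀').g (xc n x₀' x₀') = B.transpose * B ∧
        Jac (Xco j0 (frm n x₀' fun j => (s j).1) (fun a => lu (𝓡∂ n) x₀' (t a j0).1))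
          (xc n x₀' x₀') = B ∧
        (∀ a j, (t a j).1 x₀' = if a = 0 then EuclideanSpace.single j 1 else 0) ∧
        ∀ a j i, pd i (lu (𝓡∂ n) x₀' (t a j).1) (xc n x₀' x₀') =
          (B a i : ℂ) • EuclideanSpace.single j 1) ∧
      IsUnit (frm n x₀' (fun j => (s j).1) (xc n x₀' x₀')) ∧
      IsUnit (frm n x₀ (fun j => (s j).2) (xc n x₀ x₀)) ∧
      (Jac (Xco j0 (frm n x₀' fun j => (s j).1) (fun a => lu (𝓡∂ n) x₀' (t a j0).1))
        (xc n x₀' x₀')).det ≠ 0 ∧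
      (Jac (Xco j0 (frm n x₀ fun j => (s j).2) (fun a => lu (𝓡∂ n) x₀ (t a j0).2))
        (xc n x₀ x₀)).det ≠ 0 ∧
      0 < Xco j0 (frm n x₀' fun j => (s j).1) (fun a => lu (𝓡∂ n) x₀' (t a j0).1)
        (xc n x₀' x₀') 0 ∧
      Xco j0 (frm n x₀' fun j => (s j).1) (fun a => lu (𝓡∂ n) x₀' (t a j0).1) (xc n x₀' x₀') =
        Xco j0 (frm n x₀ fun j => (s j).2) (fun a => lu (𝓡∂ n) x₀ (t a j0).2) (xc n x₀ x₀) := by
  have hLoc := @TM.fLoc.{u}
  have hRunge := @TM.fRunge.{u}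
  have hData := @TM.gData.{u}
  have hUnm := @TM.gUnm.{u}
  obtain ⟨hrel₁, hok₁, hbd₁, hsm₁'⟩ := hLoc n N M₁
  obtain ⟨hrel₂, hok₂, hbd₂, hsm₂'⟩ := hLoc n N M₂
  obtain ⟨⟨hPs, hQs, -⟩, -⟩ := hData n N M₁ M₂ P Q G hG hSame
  obtain ⟨x', hx', hne⟩ := cCoord_second hrel₁ hbd₁ hx₀'
  have key : ∀ (a : Fib N) (b : Fin n → Fib N), ∃ u ∈ TM.PP P Q G, HasJet u.1 x₀' a b := by
    intro a b
    obtain ⟨u, ⟨f, hf, hu⟩, hj, -⟩ := hRunge n N M₁ P G.Γ₁ x₀' x' a 0 b (fun _ => 0) (by omega)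
      hG.rel₁ hG.ne₁ hPs hx₀' hx' hne
    obtain ⟨f₂, hf₂, hff⟩ := hG.ext f hf
    obtain ⟨u', hu'⟩ := hQs f₂ hf₂
    exact ⟨(u, u'), ⟨f, f₂, ⟨hf, hf₂, hff⟩, hu, hu'⟩, hj⟩
  set j0 : Fin N := ⟨0, hN⟩ with hj0
  have hgpos : ((P.loc x₀').g (xc n x₀' x₀')).PosDef :=
    (hok₁ P x₀').g_pos _ (mem_extChartAt_target x₀')
  obtain ⟨B, hB0⟩ := AHardy_factor hgpos
  have hB : (P.loc x₀').g (xc n x₀' x₀') = B.transpose * B := by
    rw [hB0, Matrix.conjTranspose_eq_transpose_of_trivial]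
  have hBd : B.det ≠ 0 := by
    intro h0
    have h1 := hgpos.det_pos
    rw [hB, Matrix.det_mul, h0, mul_zero] at h1
    exact lt_irrefl _ h1
  choose s hs hsj using fun j : Fin N => key (EuclideanSpace.single j 1) (fun _ => 0)
  choose t' ht' htj' using fun p : Fin n × Fin N => key (if p.1 = 0 then
    EuclideanSpace.single p.2 1 else 0) (fun i => (B p.1 i : ℂ) • EuclideanSpace.single p.2 1)
  set t : Fin n → Fin N → (M₁ → Fib N) × (M₂ → Fib N) := fun a j => t' (a, j) with htd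
  have ht : ∀ a j, t a j ∈ TM.PP P Q G := fun a j => ht' (a, j)
  have htj : ∀ a j, HasJet (t a j).1 x₀' (if a = 0 then EuclideanSpace.single j 1 else 0)
    (fun i => (B a i : ℂ) • EuclideanSpace.single j 1) := fun a j => htj' (a, j)
  have hPPs : ∀ u ∈ TM.PP P Q G, SmS n u.1 ∧ SmS n u.2 := by
    rintro u ⟨f₁, f₂, -, h1, h2⟩
    exact ⟨h1.smooth, h2.smooth⟩
  set z' := xc n x₀' x₀' with hz'
  set z := xc n x₀ x₀ with hz
  set S₁ : E n → EndF N := frm n x₀' (fun j => (s j).1) with hS₁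
  set S₂ : E n → EndF N := frm n x₀ (fun j => (s j).2) with hS₂
  set T₁ : Fin n → E n → Fib N := fun a => lu (𝓡∂ n) x₀' (t a j0).1 with hT₁
  set T₂ : Fin n → E n → Fib N := fun a => lu (𝓡∂ n) x₀ (t a j0).2 with hT₂
  have symm' : (xc n x₀').symm z' = x₀' := extChartAt_to_inv x₀'
  have symm₀ : (xc n x₀).symm z = x₀ := extChartAt_to_inv x₀
  have hS₁z : S₁ z' = 1 := by
    refine endF_ext fun j => ?_
    rw [hS₁, cCoord_frm_eN, symm', (hsj j).1]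
    rfl
  have hS₂z : S₂ z = V₀ := by
    refine endF_ext fun j => ?_
    rw [hS₂, cCoord_frm_eN, symm₀, hlim _ (hs j), (hsj j).1]
    rfl
  have hV₀u : IsUnit V₀ := ⟨Unitary.toUnits ⟨V₀, hV₀⟩, rfl⟩
  have hXX : Xco j0 S₁ T₁ z' = Xco j0 S₂ T₂ z := by
    ext a
    rw [cCoord_xco_apply, cCoord_xco_apply, hS₁z, hS₂z, Ring.inverse_one]
    have e : T₂ a z = V₀ (T₁ a z') := by
      show (t a j0).2 ((xc n x₀).symm z) = V₀ ((t a j0).1 ((xc n x₀').symm z'))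
      rw [symm₀, symm', hlim _ (ht a j0)]
    have e2 : (Ring.inverse V₀) (V₀ (T₁ a z')) = T₁ a z' := by
      have := congrArg (fun W : EndF N => W (T₁ a z')) (Ring.inverse_mul_cancel _ hV₀u)
      exact this
    rw [e, e2]
    rfl
  -- open sets
  have hsm₁ : ∀ j, ContDiffOn ℝ ∞ (lu (𝓡∂ n) x₀' (s j).1) (tg n x₀') :=
    fun j => hsm₁' _ (hPPs _ (hs j)).1 _
  have hsm₂ : ∀ j, ContDiffOn ℝ ∞ (lu (𝓡∂ n) x₀ (s j).2) (tg n x₀) :=
    fun j => hsm₂' _ (hPPs _ (hs j)).2 _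
  have hSc₁ : ContDiffOn ℝ ∞ S₁ (tg n x₀') := cCoord_frm_smooth x₀' hsm₁
  have hSc₂ : ContDiffOn ℝ ∞ S₂ (tg n x₀) := cCoord_frm_smooth x₀ hsm₂
  have hTc₁ : ∀ a, ContDiffOn ℝ ∞ (T₁ a) (tg n x₀') := fun a => hsm₁' _ (hPPs _ (ht a j0)).1 _
  have hTc₂ : ∀ a, ContDiffOn ℝ ∞ (T₂ a) (tg n x₀) := fun a => hsm₂' _ (hPPs _ (ht a j0)).2 _
  set D₁ : Set (E n) := (tg n x₀' ∩ {y | 0 < y 0}) ∩ S₁ ⁻¹' {W | IsUnit W} with hD₁
  set D₂ : Set (E n) := (tg n x₀ ∩ {y | 0 < y 0}) ∩ S₂ ⁻¹' {W | IsUnit W} with hD₂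
  have hD₁o : IsOpen D₁ := (hSc₁.continuousOn.mono inter_subset_left).isOpen_inter_preimage
    (cCoord_isOpen (hrel₁ x₀')) Units.isOpen
  have hD₂o : IsOpen D₂ := (hSc₂.continuousOn.mono inter_subset_left).isOpen_inter_preimage
    (cCoord_isOpen (hrel₂ x₀)) Units.isOpen
  have hD₁s : D₁ ⊆ tg n x₀' := fun y hy => hy.1.1
  have hD₂s : D₂ ⊆ tg n x₀ := fun y hy => hy.1.1
  have hD₁h : D₁ ⊆ Hs n := fun y hy => le_of_lt (show 0 < y 0 from hy.1.2)
  have hD₂h : D₂ ⊆ Hs n := fun y hy => le_of_lt (show 0 < y 0 from hy.1.2)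
  have hz'D : z' ∈ D₁ := ⟨⟨mem_extChartAt_target x₀',
    cCoord_pos hrel₁ hbd₁ (mem_extChartAt_source x₀') hx₀'⟩, by
      show IsUnit (S₁ z')
      rw [hS₁z]
      exact isUnit_one⟩
  have hzD : z ∈ D₂ := ⟨⟨mem_extChartAt_target x₀,
    cCoord_pos hrel₂ hbd₂ (mem_extChartAt_source x₀) hx₀⟩, by
      show IsUnit (S₂ z)
      rw [hS₂z]
      exact hV₀u⟩
  have hX₁ : ∀ a, ContDiffOn ℝ ∞ (fun y => Xco j0 S₁ T₁ y a) D₁ := fun a =>
    cCoord_xco_smooth j0 (hSc₁.mono hD₁s) (fun a => (hTc₁ a).mono hD₁s) (fun y hy => hy.2) a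
  have hX₂ : ∀ a, ContDiffOn ℝ ∞ (fun y => Xco j0 S₂ T₂ y a) D₂ := fun a =>
    cCoord_xco_smooth j0 (hSc₂.mono hD₂s) (fun a => (hTc₂ a).mono hD₂s) (fun y hy => hy.2) a
  have hdS : ∀ i, pd i S₁ z' = 0 := by
    intro i
    rw [hS₁, cCoord_frm_pd (hrel₁ x₀') x₀' hsm₁ (hD₁s hz'D) i]
    refine Finset.sum_eq_zero fun j _ => ?_
    rw [(hsj j).2 i, map_zero]
  have hJ₁ : Jac (Xco j0 S₁ T₁) z' = B := by
    refine jac_gen (cCoord_relOpen hD₁o hD₁h) j0 (hSc₁.mono hD₁s)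
      (fun a => (hTc₁ a).mono hD₁s) (fun y hy => hy.2) hz'D hS₁z hdS (fun a i => ?_)
    exact (htj a j0).2 i
  refine ⟨j0, s, t, hs, ht, hS₁z, hdS, ⟨B, hB, hJ₁, fun a j => (htj a j).1,
    fun a j i => (htj a j).2 i⟩, ?_, ?_, ?_, ?_, ?_, hXX⟩
  · show IsUnit (S₁ z')
    rw [hS₁z]
    exact isUnit_one
  · show IsUnit (S₂ z)
    rw [hS₂z]
    exact hV₀u
  · show (Jac (Xco j0 S₁ T₁) z').det ≠ 0
    rw [hJ₁]
    exact hBd
  · -- the limit argument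
    have hy : Tendsto (fun k => xc n x₀ (x k)) atTop (𝓝 z) :=
      (continuousAt_extChartAt (I := 𝓡∂ n) x₀).tendsto.comp hx
    have hw : Tendsto (fun k => xc n x₀' (φ k (x k))) atTop (𝓝 z') :=
      (continuousAt_extChartAt (I := 𝓡∂ n) x₀').tendsto.comp hφ
    have hev : ∀ᶠ k in atTop, (Jac (Xco j0 S₂ T₂) (xc n x₀ (x k))).det ^ 2 *
        ((P.loc x₀').g (xc n x₀' (φ k (x k)))).det =
        (Jac (Xco j0 S₁ T₁) (xc n x₀' (φ k (x k)))).det ^ 2 *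
          ((Q.loc x₀).g (xc n x₀ (x k))).det := by
      filter_upwards [hx.eventually (extChartAt_source_mem_nhds (I := 𝓡∂ n) x₀),
        hφ.eventually (extChartAt_source_mem_nhds (I := 𝓡∂ n) x₀'),
        hw.eventually (hD₁o.mem_nhds hz'D)] with k hk1 hk2 hk3
      obtain ⟨hmk, hxk⟩ := hm k
      obtain ⟨r, hr, hball, hball2, hτ, hVs, hg, -⟩ :=
        hUnm n N M₁ M₂ P Q G (O k) (φ k) (V k) hmk x₀' x₀ (x k) hxk hk1 hk2
      set τ : E n → E n := fun y => xc n x₀' (φ k ((xc n x₀).symm y)) with hτd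
      have hτk : τ (xc n x₀ (x k)) = xc n x₀' (φ k (x k)) := by
        simp only [hτd]
        rw [(xc n x₀).left_inv hk1]
      set B' : Set (E n) := Metric.ball (xc n x₀ (x k)) r ∩ τ ⁻¹' D₁ with hB'
      have hB'o : IsOpen B' := hτ.continuousOn.isOpen_inter_preimage Metric.isOpen_ball hD₁o
      have hB'h : B' ⊆ Hs n := fun y hy => le_of_lt (show 0 < y 0 from (hball hy.1).2)
      have hyk : xc n x₀ (x k) ∈ B' := ⟨Metric.mem_ball_self hr, by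
        show τ (xc n x₀ (x k)) ∈ D₁
        rw [hτk]
        exact hk3⟩
      have hXX' : ∀ y ∈ B', Xco j0 S₂ T₂ y = Xco j0 S₁ T₁ (τ y) := by
        intro y hy
        have hyO := (hball2 y hy.1).1
        have hys := (hball2 y hy.1).2.1
        have hinv : (xc n x₀').symm (τ y) = φ k ((xc n x₀).symm y) := (xc n x₀').left_inv hys
        have hSS : S₂ y = V k ((xc n x₀).symm y) * S₁ (τ y) := by
          refine endF_ext fun j => ?_
          show S₂ y (eN N j) = V k ((xc n x₀).symm y) (S₁ (τ y) (eN N j))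
          rw [hS₂, hS₁, cCoord_frm_eN, cCoord_frm_eN, hinv]
          exact hmk.sol _ (hs j) _ hyO
        have hTT : ∀ a, T₂ a y = V k ((xc n x₀).symm y) (T₁ a (τ y)) := by
          intro a
          show (t a j0).2 ((xc n x₀).symm y) =
            V k ((xc n x₀).symm y) ((t a j0).1 ((xc n x₀').symm (τ y)))
          rw [hinv]
          exact hmk.sol _ (ht a j0) _ hyO
        have hVu : IsUnit (V k ((xc n x₀).symm y)) :=
          ⟨Unitary.toUnits ⟨_, hmk.unit _ hyO⟩, rfl⟩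
        ext a
        rw [cCoord_xco_apply, cCoord_xco_apply, hSS, hTT a, cCoord_inv hy.2.2 hVu]
      have hfin := cCoord_det (cCoord_relOpen hD₁o hD₁h) (cCoord_relOpen hB'o hB'h)
        (hτ.mono inter_subset_left) (fun y hy => hy.2) hX₁ hXX' hyk
        (g₁ := (P.loc x₀').g) (g₂ := (Q.loc x₀).g) (by
          have := hg (xc n x₀ (x k)) hyk.1
          exact this)
      rw [hτk] at hfin
      exact hfin
    have hlhs : Tendsto (fun k => (Jac (Xco j0 S₂ T₂) (xc n x₀ (x k))).det ^ 2 *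
        ((P.loc x₀').g (xc n x₀' (φ k (x k)))).det) atTop
        (𝓝 ((Jac (Xco j0 S₂ T₂) z).det ^ 2 * ((P.loc x₀').g z').det)) :=
      (((cCoord_jac_cont hD₂o hD₂h hX₂ hzD).tendsto.comp hy).pow 2).mul
        ((cCoord_met_cont hD₁o (fun i j => ((hok₁ P x₀').g_smooth i j).mono hD₁s)
          hz'D).tendsto.comp hw)
    have hrhs : Tendsto (fun k => (Jac (Xco j0 S₁ T₁) (xc n x₀' (φ k (x k)))).det ^ 2 *
        ((Q.loc x₀).g (xc n x₀ (x k))).det) atTop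
        (𝓝 ((Jac (Xco j0 S₁ T₁) z').det ^ 2 * ((Q.loc x₀).g z).det)) :=
      (((cCoord_jac_cont hD₁o hD₁h hX₁ hz'D).tendsto.comp hw).pow 2).mul
        ((cCoord_met_cont hD₂o (fun i j => ((hok₂ Q x₀).g_smooth i j).mono hD₂s)
          hzD).tendsto.comp hy)
    have heq := tendsto_nhds_unique_of_eventuallyEq hlhs hrhs hev
    rw [hJ₁] at heq
    have hpos : 0 < ((Q.loc x₀).g z).det := ((hok₂ Q x₀).g_pos z (hD₂s hzD)).det_pos
    intro h0
    have h0' : (Jac (Xco j0 S₂ T₂) z).det = 0 := h0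
    have hp2 : 0 < B.det ^ 2 * ((Q.loc x₀).g z).det := by
      have := sq_pos_of_ne_zero' hBd
      positivity
    rw [h0'] at heq
    simp only [ne_eq, OfNat.ofNat_ne_zero, not_false_eq_true, zero_pow, zero_mul] at heq
    exact hp2.ne heq
  · show 0 < Xco j0 S₁ T₁ z' 0
    rw [cCoord_xco_apply, hS₁z, Ring.inverse_one]
    have e : T₁ 0 z' = EuclideanSpace.single j0 1 := by
      show (t 0 j0).1 ((xc n x₀').symm z') = _
      rw [symm', (htj 0 j0).1, if_pos rfl]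
    rw [e, cCoord_re_apply]
    simp only [one_apply_eq_self, PiLp.single_eq_same, Complex.one_re, zero_lt_one]

end

end Vale.Agent.P088.R2.H710
end
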