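import Vale.Agent.P088.R2.H710.S4.Lp
import Vale.Agent.P088.R2.H455.S4.Main4

/-!
# P088, stage 4: the interior step for pairs
-/

open Bundle Manifold MeasureTheory Set Filter Topology
open scoped ContDiff Matrix

noncomputable section

set_option linter.all false

namespace Vale.Agent.P088.R2.H710

open Vale.Agent.P088 Vale.Agent.P088.EYM
open Vale.Agent.P088.LR (V MF pdm)
open Vale.Agent.P088.LR.U (MC)
open Vale.Agent.P088.PJ (TP kp)
open Vale.Agent.P088.HY.T3 (Eb)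
open Vale.Agent.P088.S4 (pdv MoV nv StpN L1 LP)
open Vale.Agent.P088.R2.H509.S3 (em me em_me me_em em_mp em_emb em_ball continuous_em Eb_open
  Eb_meas Eb_fin contDiff_me contDiff_em norm_toLp_sq)
open Vale.Agent.P088.R2.H509 (HB_rel HB_meas)
open Vale.Agent.P088.R2.H850 (FW Tr TrV gE cpt ofE_app ofE_inj ofE_add ofE_sub ofE_one ofE_zero
  gE_smooth gg_sm)

universe u

/-- **LX4**, the interior step for pairs, from the local theorem. -/
theorem rowLX4 (hC : S4.RowCORE4) : S4.RowLX4.{u} := by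
  intro n N _ M₁ M₂ _ _ _ _ _ _ _ _ _ _ _ _ _ _ _ _ P Q G hn hN hG hS
  intro Vs F H hV hVc hVΓ hm x hx hcl hxV
  obtain ⟨p, p', j0, s, t, z, r, W₁, W₂, D₁, D₂, Y₁, Y₂, hpV, hL, c, ρ, hρ, hcz, hcU⟩ :=
    exists_touch hn hN hG hS hV hm hx hcl hxV
  obtain ⟨hHB, hpos⟩ := hL.hb
  have hr := hL.r0
  obtain ⟨R, hR, hRr⟩ : ∃ R, 0 < R ∧ R < r := ⟨r / 2, by linarith, by linarith⟩
  have hlp := hL.lp hG hN hR hRr.le
  have hU : IsOpen (mp Vs p Y₂ z r) := hL.mp_open hV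
  have hUo : IsOpen (em z ⁻¹' mp Vs p Y₂ z r) := hU.preimage (continuous_em z)
  have ok₁ := hL.i₁.mod.ok
  have ok₂ := hL.i₂.mod.ok
  have hst : StpN (Eb (0 : V n) R) (em z ⁻¹' mp Vs p Y₂ z r)
      (TP (sE W₂.toLD z) (mE W₂.h z)) (kp (sE W₂.toLD z) fun i => mE (gE W₂.toLD i) z)
      (TP (sE W₁.toLD z) (mE W₁.h z)) (kp (sE W₁.toLD z) fun i => mE (gE W₁.toLD i) z) :=
    stpI hL.rz hR hRr ok₂ ok₁ hL.i₂.mod.frame hL.i₁.mod.frame hU (fun y hy => hy.1)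
      (fun y hy => (hL.eq.g y hy).symm) (fun y hy j => (hL.eq.B y hy j).symm)
      (fun y hy => (hL.eq.h y hy).symm) (hL.rlx hG hS hV hVc hVΓ hm hR hRr)
      (fwE hr hL.rz ok₂) (fwE hr hL.rz ok₁)
  obtain ⟨-, hn2, hn3⟩ := hL.norm₂ hV
  have hsq : HY.sq (me z c) = ρ ^ 2 := by
    rw [← norm_toLp_sq, ← hcz, dist_eq_norm]
    rfl
  have hball : Eb (me z c) ρ ∩ Eb 0 R ⊆ em z ⁻¹' mp Vs p Y₂ z r := by
    intro y hy
    have h1 : HY.sq (y - me z c) < ρ ^ 2 := hy.1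
    refine hcU ?_
    rw [Metric.mem_ball, dist_eq_norm]
    have h2 : em z y - c = WithLp.toLp 2 (y - me z c) := by
      have h3 : c = em z (me z c) := (em_me z c).symm
      conv_lhs => rw [h3]
      show z + WithLp.toLp 2 y - (z + WithLp.toLp 2 (me z c)) = _
      rw [add_sub_add_left_eq_sub]
      rfl
    rw [h2]
    rw [← norm_toLp_sq] at h1
    exact (sq_lt_sq₀ (norm_nonneg _) hρ.le).1 h1
  have h0 : (0 : V n) ∈ Eb (0 : V n) R := by
    rw [← em_ball hR (z := z), em0]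
    exact Metric.mem_ball_self hR
  have hm0 : em z (0 : V n) ∈ HB z R := mapsE hR (hRr.le.trans hL.rz) h0
  have hP1 : mE W₂.h z 0 = 1 := by
    show S.ofE (W₂.h (em z 0)) = 1
    rw [em0, hn2]
    exact ofE_one
  have hY1 : ∀ a i, pdm i (mE (yE p Y₂ (fun j => (s j).2) fun k => (t a k).2) z) 0 =
      if a = i then 1 else 0 := by
    intro a i
    have e1 := ((hL.tr₂ hR hRr.le a).pdm (Eb_open R) (HB_rel z R) i).eq 0 h0 hm0
    rw [em0] at e1 hm0
    have e2 : EYM.pd i (yE p Y₂ (fun j => (s j).2) fun k => (t a k).2) z =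
        if a = i then (1 : EndF N) else 0 := by
      refine endF_ext fun k => ?_
      have e3 := hn3 a k i
      have e4 : EYM.pd i (fun y => yE p Y₂ (fun j => (s j).2) (fun k => (t a k).2) y (eN N k)) z =
          EYM.pd i (yE p Y₂ (fun j => (s j).2) fun k => (t a k).2) z (eN N k) := by
        rw [(HB_rel z R).pd_eval (hL.tr₂ hR hRr.le a).sf
          (contDiffOn_const (n := ∞)) (by simp) (by simp)
          hm0 i]
        simp [pd_const]
      have e5 : (fun y => yE p Y₂ (fun j => (s j).2) (fun k => (t a k).2) y (eN N k)) =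
          cu p Y₂ (fun j => (s j).2) (t a k).2 := funext fun y => yE_eN _ _ _ _ _ _
      rw [e5, e3] at e4
      show EYM.pd i (yE p Y₂ (fun j => (s j).2) fun k => (t a k).2) z (eN N k) = _
      rw [← e4]
      split_ifs <;> rfl
    rw [e1, e2]
    split_ifs
    · exact ofE_one
    · exact ofE_zero
  obtain ⟨δ₀, hδ₀, hδe⟩ := hC n N hn hN R ρ (me z c) (em z ⁻¹' mp Vs p Y₂ z r) j0 _ _ _ _ _ _ _ _
    hR hρ hsq hUo hball hlp hP1 hY1 hst
  obtain ⟨δ, hδ, hδδ, hδR⟩ : ∃ δ : ℝ, 0 < δ ∧ δ ≤ δ₀ ∧ δ ≤ r :=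
    ⟨min δ₀ r, lt_min hδ₀ hr, min_le_left _ _, min_le_right _ _⟩
  have hEE : ∀ y ∈ Eb (0 : V n) δ, y ∈ Eb (0 : V n) δ₀ := fun y hy => by
    rw [← em_ball hδ₀ (z := z)]
    exact Metric.ball_subset_ball hδδ ((em_ball hδ y).2 hy)
  have hbb : Metric.ball z δ ⊆ Metric.ball z r := Metric.ball_subset_ball hδR
  have heq : EqOnM W₁ W₂ (Metric.ball z δ) := by
    have key : ∀ y ∈ Metric.ball z δ, W₁.g y = W₂.g y ∧ W₁.h y = W₂.h y ∧
        ∀ j, W₁.B j y = W₂.B j y := fun y hy =>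
      eq_of_fields hn hδ hδR hL.rz ok₁ ok₂ (fun x hx => by
        obtain ⟨h1, h2, h3, -⟩ := hδe x (hEE x hx)
        exact ⟨h1, h2, h3⟩) hy
    refine ⟨fun y hy => (key y hy).1, fun y hy => (key y hy).2.2, fun y hy => (key y hy).2.1,
      fun y hy a => ?_⟩
    rw [hL.i₁.c_cu hL.rz (hbb hy) a, hL.i₂.c_cu hL.rz (hbb hy) a]
    have h1 : me z y ∈ Eb (0 : V n) δ := (em_ball hδ _).1 (by rw [em_me]; exact hy)
    obtain ⟨-, -, -, h2⟩ := hδe _ (hEE _ h1)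
    have h3 := ofE_inj (sub_eq_zero.1 (h2 a))
    rw [em_me] at h3
    rw [← yE_eN p' Y₁ (fun j => (s j).1) (fun k => (t a k).1) y j0,
      ← yE_eN p Y₂ (fun j => (s j).2) (fun k => (t a k).2) y j0, h3]
  have hne : (Metric.ball z δ ∩ mp Vs p Y₂ z r).Nonempty :=
    mem_closure_iff_nhds.1 (hL.mp_closure hL.cl) _ (Metric.ball_mem_nhds z hδ)
  obtain ⟨hpc, hGd⟩ := hL.good hV hδ hbb hne heq
  refine ⟨Th p Y₂ '' Metric.ball z δ, hpc, hGd, ?_, fun hsub => ?_⟩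
  · obtain ⟨y, hy1, hy2⟩ := hne
    exact ⟨Th p Y₂ y, hy2.2, mem_image_of_mem _ hy1⟩
  · have h1 := hsub (mem_image_of_mem _ (Metric.mem_ball_self hδ))
    rw [hL.thz] at h1
    exact hpV h1

end Vale.Agent.P088.R2.H710
end
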