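import Vale.Agent.P088.R2.H710.S4.StpJ

/-!
# P088, stage 4: the fields of the models at a limit point
-/

open Bundle Manifold MeasureTheory Set Filter Topology
open scoped ContDiff Matrix

noncomputable section

set_option linter.all false

namespace Vale.Agent.P088.R2.H710

open Vale.Agent.P088 Vale.Agent.P088.EYM
open Vale.Agent.P088.LR (V MF pdm)
open Vale.Agent.P088.LR.U (MC)
open Vale.Agent.P088.PJ (TP kp)
open Vale.Agent.P088.HY.T3 (Eb)
open Vale.Agent.P088.S4 (pdv MoV nv StpN L1 LP)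
open Vale.Agent.P088.R2.H509.S3 (em me em_me me_em em_mp em_emb em_ball continuous_em Eb_open
  Eb_meas Eb_fin contDiff_me contDiff_em)
open Vale.Agent.P088.R2.H509 (HB_rel HB_meas)
open Vale.Agent.P088.R2.H850 (FW Tr TrV gE cpt ofE_app ofE_inj ofE_add ofE_sub ofE_one ofE_zero
  gE_smooth gg_sm)

universe u

section fields

variable {n N : ℕ} [NeZero n]

/-- `√g g⁻¹` on `V n`. -/
def sE (L : LD n N) (z : E n) : MF n := fun x => Matrix.of fun i j => gg L.g i j (em z x)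

/-- The matrix of an endomorphism, on `V n`. -/
def mE (F : E n → EndF N) (z : E n) : MC n N := fun x => S.ofE (F (em z x))

variable {L : LD n N} {z : E n} {r₀ : ℝ}

theorem mapsE (hr₀ : 0 < r₀) (hz : r₀ ≤ z 0) : MapsTo (em z) (Eb (0 : V n) r₀) (HB z r₀) := by
  obtain ⟨hHB, -⟩ := cClosed_HB (n := n) hz
  intro x hx
  rw [hHB]
  exact (em_ball hr₀ x).2 hx

theorem trE' (hr₀ : 0 < r₀) (hz : r₀ ≤ z 0) {F : E n → EndF N} (hF : ContDiffOn ℝ ∞ F (HB z r₀)) :
    Tr z (Eb (0 : V n) r₀) (HB z r₀) (mE F z) F := by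
  refine ⟨fun a b => ?_, hF, fun x _ _ => rfl⟩
  have h1 : ContDiffOn ℝ ∞ (fun y => S.ent a b (F y)) (HB z r₀) :=
    (S.ent a b).contDiff.comp_contDiffOn hF
  exact h1.comp (contDiff_em z).contDiffOn (mapsE hr₀ hz)

theorem fwE (hr₀ : 0 < r₀) (hz : r₀ ≤ z 0) (ok : L.Ok (HB z r₀)) :
    FW L z (Eb (0 : V n) r₀) (HB z r₀) (sE L z) (mE L.h z) (fun i => mE (gE L i) z) := by
  refine ⟨fun i j => ?_, (trE' hr₀ hz ok.h_smooth).sm, fun i => (trE' hr₀ hz (gE_smooth ok i)).sm,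
    fun x _ _ i j => rfl, fun x _ _ => rfl, fun i x _ _ => rfl⟩
  exact (gg_sm (HB_rel z r₀) ok i j).comp (contDiff_em z).contDiffOn (mapsE hr₀ hz)

/-- `√(det A) A⁻¹` determines `A`, `n ≥ 3`. -/
theorem sg_inj7 (hn : 3 ≤ n) {A B : Matrix (Fin n) (Fin n) ℝ} (hA : A.PosDef) (hB : B.PosDef)
    (h : √A.det • A⁻¹ = √B.det • B⁻¹) : A = B := by
  set a : ℝ := √A.det with ha
  set b : ℝ := √B.det with hb
  have ha0 : 0 < a := Real.sqrt_pos.2 hA.det_pos
  have hb0 : 0 < b := Real.sqrt_pos.2 hB.det_pos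
  have ha2 : a ^ 2 = A.det := Real.sq_sqrt hA.det_pos.le
  have hb2 : b ^ 2 = B.det := Real.sq_sqrt hB.det_pos.le
  have hAu : IsUnit A.det := hA.det_pos.ne'.isUnit
  have hBu : IsUnit B.det := hB.det_pos.ne'.isUnit
  have h1 : a • B = b • A := by
    have e1 : A * (a • A⁻¹) * B = a • B := by
      rw [Matrix.mul_smul, Matrix.mul_nonsing_inv A hAu, Matrix.smul_mul, Matrix.one_mul]
    have e2 : A * (b • B⁻¹) * B = b • A := by
      rw [Matrix.mul_smul, Matrix.smul_mul, Matrix.mul_assoc, Matrix.nonsing_inv_mul B hBu,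
        Matrix.mul_one]
    rw [← e1, ← e2, h]
  have h2 : a ^ n * b ^ 2 = b ^ n * a ^ 2 := by
    have := congrArg Matrix.det h1
    rw [Matrix.det_smul, Matrix.det_smul, Fintype.card_fin, ← ha2, ← hb2] at this
    exact this
  obtain ⟨k, rfl⟩ : ∃ k, n = k + 1 + 2 := ⟨n - 3, by omega⟩
  have h3 : a ^ (k + 1) = b ^ (k + 1) := by
    have h4 : (a ^ 2 * b ^ 2) * a ^ (k + 1) = (a ^ 2 * b ^ 2) * b ^ (k + 1) := by
      rw [pow_add a (k + 1) 2, pow_add b (k + 1) 2] at h2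
      linear_combination h2
    exact mul_left_cancel₀ (by positivity) h4
  have h5 : a = b := (pow_left_inj₀ ha0.le hb0.le (Nat.succ_ne_zero k)).1 h3
  rw [h5] at h1
  have h6 := congrArg (fun M => b⁻¹ • M) h1
  simp only [smul_smul, inv_mul_cancel₀ hb0.ne', one_smul] at h6
  exact h6.symm

/-- Local data with equal fields. -/
theorem eq_of_fields (hn : 3 ≤ n) {L₁ L₂ : LD n N} {z : E n} {r₀ δ : ℝ} (hδ : 0 < δ) (hδr : δ ≤ r₀)
    (hz : r₀ ≤ z 0) (ok₁ : L₁.Ok (HB z r₀)) (ok₂ : L₂.Ok (HB z r₀))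
    (h : ∀ x ∈ Eb (0 : V n) δ, sE L₁ z x = sE L₂ z x ∧ mE L₁.h z x = mE L₂.h z x ∧
      ∀ i, mE (gE L₁ i) z x = mE (gE L₂ i) z x) {y : E n} (hy : y ∈ Metric.ball z δ) :
    L₁.g y = L₂.g y ∧ L₁.h y = L₂.h y ∧ ∀ j, L₁.B j y = L₂.B j y := by
  have hHB : HB z r₀ = Metric.ball z r₀ := (cClosed_HB (n := n) hz).1
  have hHBδ : HB z δ = Metric.ball z δ := (cClosed_HB (n := n) (hδr.trans hz)).1
  have hsub : Metric.ball z δ ⊆ HB z r₀ := by
    rw [hHB]
    exact Metric.ball_subset_ball hδr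
  have hv : ∀ y ∈ Metric.ball z δ, me z y ∈ Eb (0 : V n) δ := fun y hy =>
    (em_ball hδ _).1 (by rw [em_me]; exact hy)
  have key : ∀ y ∈ Metric.ball z δ, (∀ i j, gg L₁.g i j y = gg L₂.g i j y) ∧ L₁.h y = L₂.h y ∧
      ∀ i, gE L₁ i y = gE L₂ i y := by
    intro y hy
    obtain ⟨a, b, c⟩ := h _ (hv y hy)
    refine ⟨fun i j => ?_, ?_, fun i => ?_⟩
    · have := congrFun (congrFun a i) j
      simp only [sE, Matrix.of_apply, em_me] at this
      exact this
    · have h1 := ofE_inj b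
      rw [em_me] at h1
      exact h1
    · have h1 := ofE_inj (c i)
      rw [em_me] at h1
      exact h1
  obtain ⟨a, b, c⟩ := key y hy
  have hrel := HB_rel z δ
  refine ⟨?_, b, fun j => ?_⟩
  · refine sg_inj7 hn (ok₁.g_pos y (hsub hy)) (ok₂.g_pos y (hsub hy)) ?_
    ext i j
    exact a i j
  · have hyH : y ∈ HB z δ := by rw [hHBδ]; exact hy
    have h1 : pd j L₁.h y = pd j L₂.h y := hrel.pd_congr
      (fun y hy => (key y (by rw [← hHBδ]; exact hy)).2.1) hyH j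
    have h2 := ok₁.compat y (hsub hy) j
    have h3 := ok₂.compat y (hsub hy) j
    have h4 : (2 : ℂ) • (L₁.h y * L₁.B j y) = (2 : ℂ) • (L₂.h y * L₂.B j y) := by
      have e1 : (2 : ℂ) • (L₁.h y * L₁.B j y) = pd j L₁.h y + gE L₁ j y := by
        rw [h2]
        unfold gE
        rw [two_smul]
        abel
      have e2 : (2 : ℂ) • (L₂.h y * L₂.B j y) = pd j L₂.h y + gE L₂ j y := by
        rw [h3]
        unfold gE
        rw [two_smul]
        abel
      rw [e1, e2, h1, c j]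
    have h5 : L₁.h y * L₁.B j y = L₁.h y * L₂.B j y := by
      have h6 := smul_right_injective (EndF N) (two_ne_zero (α := ℂ)) h4
      rw [h6, b]
    have h6 : IsUnit (L₁.h y) := R2.H850.h_unit ok₁ (hsub hy)
    exact h6.mul_left_cancel h5

end fields

section

variable {n N : ℕ} [NeZero n] {M : Type u} [TopologicalSpace M]
  [ChartedSpace (EuclideanHalfSpace n) M] [IsManifold (𝓡∂ n) ∞ M]

/-- The matrix of `N` sections in a model. -/
def yE (q : M) (Y : E n → E n) (s t : Fin N → M → Fib N) (y : E n) : EndF N :=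
  Ring.inverse (frm n q s (Y y)) * frm n q t (Y y)

theorem yE_apply (q : M) (Y : E n → E n) (s t : Fin N → M → Fib N) (y : E n) (v : Fib N) :
    yE q Y s t y v = cu q Y s (∑ j, v j • t j) y := by
  have e : frm n q t (Y y) v = lu (𝓡∂ n) q (∑ j, v j • t j) (Y y) := by
    unfold frm lu fr
    rw [_root_.sum_apply]
    simp only [rk_apply, inner_eN, Finset.sum_apply, Pi.smul_apply]
  show Ring.inverse (frm n q s (Y y)) (frm n q t (Y y) v) = _
  rw [e]
  rfl

theorem yE_eN (q : M) (Y : E n → E n) (s t : Fin N → M → Fib N) (y : E n) (k : Fin N) :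
    yE q Y s t y (eN N k) = cu q Y s (t k) y := by
  show Ring.inverse (frm n q s (Y y)) (frm n q t (Y y) (eN N k)) = _
  rw [cCoord_frm_eN]
  rfl

variable [MeasurableSpace M] {P : One n N M} {q : M} {z : E n} {r : ℝ} {j0 : Fin N}
  {W : Model n N} {D : Set (E n)} {Y : E n → E n} {s : Fin N → M → Fib N} {t : Fin n → M → Fib N}

theorem InM.yE_smooth (h : InM P q z r j0 W D Y s t) (hz : r ≤ z 0) {t' : Fin N → M → Fib N}
    (ht : ∀ k, SmS n (t' k)) : ContDiffOn ℝ ∞ (yE q Y s t') (Metric.ball z r) := by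
  obtain ⟨hHB, -⟩ := cClosed_HB (n := n) hz
  refine smooth_mul (smooth_ringInverse (h.frm_smooth hz) fun y hy => h.unitY hz hy) ?_
  rw [← hHB]
  exact (cCoord_frm_smooth q fun k => (((TM.fLoc n N M).2.2.2 _ (ht k) q).mono h.sub)).comp
    h.pull.diffeo.smY h.pull.diffeo.mapsY

theorem InM.c_cu (h : InM P q z r j0 W D Y s t) (hz : r ≤ z 0) {y : E n}
    (hy : y ∈ Metric.ball z r) (a : Fin n) : W.c a y = cu q Y s (t a) y := by
  obtain ⟨hHB, -⟩ := cClosed_HB (n := n) hz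
  have hyHB : y ∈ HB z r := by rw [hHB]; exact hy
  have h1 := h.c (Y y) (h.pull.diffeo.mapsY hyHB) a
  rw [h.pull.diffeo.inv2 y hyHB] at h1
  show _ = Ring.inverse (frm n q s (Y y)) (lu (𝓡∂ n) q (t a) (Y y))
  rw [h1]
  have h2 := congrArg (fun T : EndF N => T (W.c a y))
    (Ring.inverse_mul_cancel _ (h.unitY hz hy))
  exact h2.symm

theorem InM.yE_sol [T2Space M] [CompactSpace M] [BorelSpace M]
    [ConnectedSpace M] (hN : 0 < N) (hb : ((𝓡∂ n).boundary M).Nonempty)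
    (h : InM P q z r j0 W D Y s t) (hz : r ≤ z 0)
    {t' : Fin N → M → Fib N} (ht : ∀ k, ∃ f, P.Harm f (t' k)) (v : Fib N) :
    Sol W.toLD (Metric.ball z r) (fun y => yE q Y s t' y v) := by
  obtain ⟨f, hf⟩ := cClosed_harm_sum TM.fUniq hN P hb t' ht v
  have e : (fun y => yE q Y s t' y v) = cu q Y s (∑ j, v j • t' j) :=
    funext fun y => yE_apply q Y s t' y v
  rw [e]
  exact h.cu_sol hz hf

end

end Vale.Agent.P088.R2.H710
end
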