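import Vale.Agent.P088.R2.H710.S4.Hd
import Vale.Agent.P088.R2.H338.T.J

/-!
# P088, stage 4: extension by zero and the functional `E(·, T)` in a model, all ranks
-/

open Bundle Manifold MeasureTheory Set Filter Topology
open scoped ContDiff

noncomputable section

set_option linter.all false

namespace Vale.Agent.P088.R2.H710

open Vale.Agent.P088 Vale.Agent.P088.EYM
open Vale.Agent.P088.R2.H338 (thP)
open Vale.Agent.P088.R2.H338.T3 (gin GIn)

universe u

section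

variable {n N : ℕ} [NeZero n] {M : Type u} [TopologicalSpace M]
  [ChartedSpace (EuclideanHalfSpace n) M] [IsManifold (𝓡∂ n) ∞ M] [MeasurableSpace M]
  {P : One n N M} {q : M} {z : E n} {r : ℝ} {j0 : Fin N} {W : Model n N}
  {D : Set (E n)} {Y : E n → E n} {s : Fin N → M → Fib N} {t : Fin n → M → Fib N}

theorem InM.unitY (h : InM P q z r j0 W D Y s t) (hz : r ≤ z 0) {y : E n}
    (hy : y ∈ Metric.ball z r) : IsUnit (frm n q s (Y y)) := by
  obtain ⟨hHB, -⟩ := cClosed_HB (n := n) hz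
  exact h.pull.unit _ (h.pull.diffeo.mapsY (by rw [hHB]; exact hy))

theorem InM.frm_smooth (h : InM P q z r j0 W D Y s t) (hz : r ≤ z 0) :
    ContDiffOn ℝ ∞ (fun y => frm n q s (Y y)) (Metric.ball z r) := by
  obtain ⟨hHB, -⟩ := cClosed_HB (n := n) hz
  rw [← hHB]
  exact h.pull.smS.comp h.pull.diffeo.smY h.pull.diffeo.mapsY

theorem InM.cu_smooth (h : InM P q z r j0 W D Y s t) (hz : r ≤ z 0) {u : M → Fib N}
    (hu : SmS n u) : ContDiffOn ℝ ∞ (cu q Y s u) (Metric.ball z r) := by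
  obtain ⟨hHB, -⟩ := cClosed_HB (n := n) hz
  refine smooth_eval (smooth_ringInverse (h.frm_smooth hz) fun y hy => h.unitY hz hy) ?_
  rw [← hHB]
  exact (((TM.fLoc n N M).2.2.2 u hu q).mono h.sub).comp h.pull.diffeo.smY h.pull.diffeo.mapsY

theorem frm_cu (h : InM P q z r j0 W D Y s t) (hz : r ≤ z 0) {u : M → Fib N} {y : E n}
    (hy : y ∈ Metric.ball z r) : frm n q s (Y y) (cu q Y s u y) = u (thP n q Y y) := by
  have h1 := congrArg (fun T : EndF N => T (lu (𝓡∂ n) q u (Y y)))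
    (Ring.mul_inverse_cancel _ (h.unitY hz hy))
  exact h1

theorem cu_sub (p : M) (Y : E n → E n) (s : Fin N → M → Fib N) (u v : M → Fib N) :
    cu p Y s (u - v) = fun y => cu p Y s u y - cu p Y s v y := by
  funext y
  exact map_sub (Ring.inverse (frm n p s (Y y))) _ _

theorem cu_add (p : M) (Y : E n → E n) (s : Fin N → M → Fib N) (u v : M → Fib N) :
    cu p Y s (u + v) = fun y => cu p Y s u y + cu p Y s v y := by
  funext y
  exact map_add (Ring.inverse (frm n p s (Y y))) _ _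

theorem cu_sum (p : M) (Y : E n → E n) (s : Fin N → M → Fib N) {d : ℕ} (c : Fin d → ℝ)
    (u : Fin d → M → Fib N) :
    cu p Y s (∑ i, c i • u i) = fun y => ∑ i, c i • cu p Y s (u i) y := by
  funext y
  show Ring.inverse (frm n p s (Y y)) ((∑ i, c i • u i) ((xc n p).symm (Y y))) = _
  rw [Finset.sum_apply, map_sum]
  refine Finset.sum_congr rfl fun i _ => ?_
  rw [Pi.smul_apply]
  show Ring.inverse (frm n p s (Y y)) (c i • u i ((xc n p).symm (Y y))) = _
  rw [← Complex.coe_smul, map_smul, Complex.coe_smul]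
  rfl

/-- Extension by zero. -/
theorem InM.extN [T2Space M] (h : InM P q z r j0 W D Y s t) (hr : 0 < r) (hz : r ≤ z 0)
    {b : E n → Fib N} (hb : ContDiff ℝ ∞ b) (hc : HasCompactSupport b)
    (hs : tsupport b ⊆ Metric.ball z r) :
    ∃ T : M → Fib N, SmS n T ∧ (∀ y ∈ Metric.ball z r, cu q Y s T y = b y) ∧
      (∀ x, x ∉ thP n q Y '' tsupport b → T x = 0) ∧ tsupport T ⊆ thP n q Y '' tsupport b ∧
      ∀ x ∈ (𝓡∂ n).boundary M, T x = 0 := by
  have hg := gin h hr hz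
  have hF := h.frm_smooth hz
  set b' : E n → Fib N := fun y => frm n q s (Y y) (b y) with hb'
  have hb's : ContDiff ℝ ∞ b' := by
    rw [contDiff_iff_contDiffAt]
    intro y
    by_cases hy : y ∈ Metric.ball z r
    · have h1 : ContDiffOn ℝ ∞ b' (Metric.ball z r) := smooth_eval hF hb.contDiffOn
      exact h1.contDiffAt (Metric.isOpen_ball.mem_nhds hy)
    · have h1 : b =ᶠ[𝓝 y] 0 := notMem_tsupport_iff_eventuallyEq.1 fun h => hy (hs h)
      have h2 : b' =ᶠ[𝓝 y] fun _ => 0 := by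
        filter_upwards [h1] with x hx
        show frm n q s (Y x) (b x) = 0
        rw [hx]
        exact map_zero _
      exact contDiffAt_const.congr_of_eventuallyEq h2
  have hts : tsupport b' ⊆ tsupport b := by
    refine closure_mono fun y hy => ?_
    rw [Function.mem_support] at hy ⊢
    intro h0
    exact hy (by show frm n q s (Y y) (b y) = 0; rw [h0, map_zero])
  have hb'c : HasCompactSupport b' := hc.of_isClosed_subset (isClosed_tsupport _) hts
  obtain ⟨T, h1, h2, h3, h4, h5⟩ := hg.ext hb's hb'c (hts.trans hs)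
  refine ⟨T, h1, fun y hy => ?_, fun x hx => h3 x fun ⟨y, hy, e⟩ => hx ⟨y, hts hy, e⟩,
    h4.trans (image_mono hts), h5⟩
  show Ring.inverse (frm n q s (Y y)) (T (thP n q Y y)) = b y
  rw [h2 y hy]
  exact congrArg (fun T : EndF N => T (b y)) (Ring.inverse_mul_cancel _ (h.unitY hz hy))

/-- The form `h` in the model. -/
theorem InM.h_in (h : InM P q z r j0 W D Y s t) (hz : r ≤ z 0) {u : M → Fib N} (v : Fib N)
    {y : E n} (hy : y ∈ Metric.ball z r) :
    inner ℂ v (W.h y (cu q Y s u y)) = inner ℂ (frm n q s (Y y) v) (u (thP n q Y y)) := by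
  obtain ⟨hHB, -⟩ := cClosed_HB (n := n) hz
  have hyHB : y ∈ HB z r := by rw [hHB]; exact hy
  have h1 := h.pull.h_eq (Y y) (h.pull.diffeo.mapsY hyHB)
  rw [h.pull.diffeo.inv2 y hyHB] at h1
  have h2 : W.h y (cu q Y s u y) =
      ContinuousLinearMap.adjoint (frm n q s (Y y)) (u (thP n q Y y)) := by
    have h3 := congrArg (fun T : EndF N => T (cu q Y s u y)) h1
    have h4 : (P.loc q).h (Y y) = 1 := rfl
    rw [h4, mul_one] at h3
    have h5 : (ContinuousLinearMap.adjoint (frm n q s (Y y)) * frm n q s (Y y))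
        (cu q Y s u y) = ContinuousLinearMap.adjoint (frm n q s (Y y))
          (frm n q s (Y y) (cu q Y s u y)) := rfl
    rw [frm_cu h hz hy] at h5
    rw [← h5]
    exact h3.symm
  rw [h2, ContinuousLinearMap.adjoint_inner_right]

variable [T2Space M] [CompactSpace M] [BorelSpace M]

/-- The energy of an extension by zero. -/
theorem InM.energyN (h : InM P q z r j0 W D Y s t) (hr : 0 < r) (hz : r ≤ z 0) {r' : ℝ}
    (hr' : r' < r) {b : E n → Fib N} (hs : tsupport b ⊆ Metric.closedBall z r') {T : M → Fib N}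
    (hT : SmS n T) (hTb : ∀ y ∈ Metric.ball z r, cu q Y s T y = b y)
    (hTs : tsupport T ⊆ thP n q Y '' tsupport b) {φ : M → Fib N} (hφ : SmS n φ) :
    P.E T φ = -∫ y in Metric.ball z r, inner ℂ (Lop W.toLD b y) (W.h y (cu q Y s φ y)) := by
  obtain ⟨hHB, hpos⟩ := cClosed_HB (n := n) hz
  have hrel : RelOpen (HB z r) := cClosed_relOpen_HB z r
  have hsr : tsupport b ⊆ Metric.ball z r := hs.trans (Metric.closedBall_subset_ball hr')
  have h1 : P.E T φ = En (P.loc q) D (lu (𝓡∂ n) q T) (lu (𝓡∂ n) q φ) := by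
    refine (TM.fEn n N M P q D h.rel h.sub).1 T φ hT hφ (Or.inl (hTs.trans ?_))
    rintro _ ⟨y, hy, rfl⟩
    exact ⟨Y y, h.pull.diffeo.mapsY (by rw [hHB]; exact hsr hy), rfl⟩
  have hsy := bSymm n N (P.loc q) W.toLD D (HB z r) _ Y (frm n q s) h.rel hrel h.pull
  have hL : (P.loc q).Ok D := CHarm_ok_mono ((TM.fLoc n N M).2.1 P q) h.sub
  have hlu : ∀ {u : M → Fib N}, SmS n u → ContDiffOn ℝ 1 (lu (𝓡∂ n) q u) D := fun hu =>
    (((TM.fLoc n N M).2.2.2 _ hu q).mono h.sub).of_le (by simp)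
  have h2 := bEnergy n N _ _ _ _ _ _ _ hrel h.rel h.mod.ok hL hsy
    (lu (𝓡∂ n) q T) (lu (𝓡∂ n) q φ) (hlu hT) (hlu hφ)
  rw [← h1] at h2
  have hcT : ContDiffOn ℝ ∞ (cu q Y s T) (HB z r) := by rw [hHB]; exact h.cu_smooth hz hT
  have hcφ : ContDiffOn ℝ ∞ (cu q Y s φ) (HB z r) := by rw [hHB]; exact h.cu_smooth hz hφ
  set r'' := (max r' 0 + r) / 2 with hr''
  have hm : max r' 0 < r := max_lt hr' hr
  have hr1 : r' < r'' := by
    have := le_max_left r' 0
    rw [hr'']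
    linarith
  have hr2 : r'' < r := by
    rw [hr'']
    linarith
  have h5 : En W.toLD (HB z r) (cu q Y s T) (cu q Y s φ) = - ∫ x in HB z r,
      inner ℂ (Lop W.toLD (cu q Y s T) x) (W.h x (cu q Y s φ x)) := by
    refine aGreen n N _ z r hr h.mod.ok _ _
      (hcT.of_le (WithTop.coe_le_coe.2 (le_top (a := (2 : ℕ∞))))) (hcφ.of_le (by simp))
      ⟨r'', hr2, fun x hx hxn => ?_⟩ fun x hx hx0 => ?_
    · rw [hTb x (by rw [← hHB]; exact hx)]
      refine image_eq_zero_of_notMem_tsupport fun h6 => hxn ?_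
      have h7 := hs h6
      rw [Metric.mem_closedBall] at h7
      rw [Metric.mem_ball]
      exact h7.trans_lt hr1
    · exact absurd hx0 (ne_of_gt (hpos hx))
  have h6 : P.E T φ = En W.toLD (HB z r) (cu q Y s T) (cu q Y s φ) := h2.symm
  rw [h6, h5, hHB]
  congr 1
  refine setIntegral_congr_fun Metric.isOpen_ball.measurableSet fun y hy => ?_
  show inner ℂ (Lop W.toLD (cu q Y s T) y) _ = _
  rw [CRungeC_Lop_congr (L := W.toLD) (hHB ▸ hrel) (fun y hy => hTb y hy) hy]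

/-- The functional `E(·, T)`. -/
theorem InM.func (h : InM P q z r j0 W D Y s t) (hr : 0 < r) (hz : r ≤ z 0) {r' : ℝ}
    (hr' : r' < r) :
    ∃ c : ℝ, 0 ≤ c ∧ ∀ (b h₁ h₂ : E n → Fib N) (T : M → Fib N), ContDiff ℝ ∞ b →
      tsupport b ⊆ Metric.closedBall z r' → Continuous h₁ → HasCompactSupport h₁ →
      tsupport h₁ ⊆ Metric.closedBall z r' → Continuous h₂ → HasCompactSupport h₂ →
      (∀ x ∈ Metric.ball z r, Lop W.toLD b x = h₁ x + h₂ x) → SmS n T →
      (∀ y ∈ Metric.ball z r, cu q Y s T y = b y) → tsupport T ⊆ thP n q Y '' tsupport b →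
      ∃ a : ℝ, 0 ≤ a ∧ ∀ φ : M → Fib N, SmS n φ →
        ‖P.E φ T‖ ≤ a * √(∫ x in thP n q Y '' tsupport h₁, ‖φ x‖ ^ 2 ∂P.μ) +
          √(c * ∫ x, ‖h₂ x‖ ^ 2) * √(∫ x, ‖φ x‖ ^ 2 ∂P.μ) := by
  haveI := (TM.fInt n N M P).1
  obtain ⟨hHB, hpos⟩ := cClosed_HB (n := n) hz
  have hrel : RelOpen (Metric.ball z r) := hHB ▸ cClosed_relOpen_HB z r
  have hg := gin h hr hz
  set K : Set (E n) := Metric.closedBall z r' with hK
  have hKc : IsCompact K := isCompact_closedBall _ _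
  have hKB : K ⊆ Metric.ball z r := Metric.closedBall_subset_ball hr'
  have hKm : MeasurableSet K := hKc.isClosed.measurableSet
  have hFc : ContinuousOn (fun y => ‖frm n q s (Y y)‖) (Metric.ball z r) :=
    (h.frm_smooth hz).continuousOn.norm
  have hdc : ContinuousOn (fun y => √(W.g y).det) (Metric.ball z r) := hg.ds_smooth.continuousOn
  have hd0 : ∀ y ∈ Metric.ball z r, 0 < √(W.g y).det := fun y hy => hg.ds_pos hy
  obtain ⟨c, hc, hcb⟩ : ∃ c : ℝ, 0 ≤ c ∧ ∀ y ∈ K, ‖frm n q s (Y y)‖ ^ 2 / √(W.g y).det ≤ c := by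
    obtain ⟨c, hc⟩ := hKc.exists_bound_of_continuousOn
      (((hFc.pow 2).div hdc fun y hy => (hd0 y hy).ne').mono hKB)
    refine ⟨max c 0, le_max_right _ _, fun y hy => ?_⟩
    exact ((le_abs_self _).trans (hc y hy)).trans (le_max_left _ _)
  refine ⟨c, hc, fun b h₁ h₂ T hb hbs h1c h1k h1s h2c h2k hlap hT hTb hTs => ?_⟩
  set σ : E n → ℝ := fun y => ‖frm n q s (Y y)‖ with hσ
  refine ⟨√(∫ y in tsupport h₁, (σ y * ‖h₁ y‖) ^ 2 / √(W.g y).det), Real.sqrt_nonneg _,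
    fun φ hφ => ?_⟩
  have hE := h.energyN hr hz hr' hbs hT hTb hTs hφ
  have hnorm : ‖P.E φ T‖ = ‖P.E T φ‖ := by
    obtain ⟨-, -, f3, -, -⟩ := TM.fForm n N M P
    rw [f3 T φ hT hφ, RCLike.norm_conj]
  have hφc : ContinuousOn (fun y => ‖φ (thP n q Y y)‖) (Metric.ball z r) :=
    (hφ.continuous.norm).comp_continuousOn hg.contTh
  have hF2 : ∫ y in Metric.ball z r, inner ℂ (Lop W.toLD b y) (W.h y (cu q Y s φ y)) =
      ∫ y in K, inner ℂ (Lop W.toLD b y) (W.h y (cu q Y s φ y)) := by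
    refine setIntegral_eq_of_subset_of_forall_sdiff_eq_zero Metric.isOpen_ball.measurableSet hKB ?_
    intro y hy
    have hyn : y ∉ tsupport b := fun h0 => hy.2 (hbs h0)
    have h3 : Lop W.toLD b y = 0 := by
      obtain ⟨O, hO, hyO, hb0⟩ : ∃ O : Set (E n), IsOpen O ∧ y ∈ O ∧ ∀ x ∈ O, b x = 0 := by
        refine ⟨(tsupport b)ᶜ, (isClosed_tsupport b).isOpen_compl, hyn, fun x hx => ?_⟩
        exact image_eq_zero_of_notMem_tsupport hx
      have h4 : RelOpen (O ∩ Metric.ball z r) := by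
        refine ⟨O ∩ Metric.ball z r, hO.inter Metric.isOpen_ball, ?_⟩
        refine (inter_eq_left.2 fun x hx => ?_).symm
        exact le_of_lt (show 0 < x 0 from hpos (by rw [hHB]; exact hx.2))
      exact CRungeC_Lop_zero h4 (fun x hx => hb0 x hx.1) ⟨hyO, hy.1⟩
    rw [h3, inner_zero_left]
  have hi0 : ContinuousOn (fun y => σ y * ‖h₁ y + h₂ y‖ * ‖φ (thP n q Y y)‖) K :=
    ((hFc.mono hKB).mul ((h1c.add h2c).norm.continuousOn)).mul (hφc.mono hKB)
  have hi1 : ContinuousOn (fun y => |σ y * ‖h₁ y‖| * ‖φ (thP n q Y y)‖) K :=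
    ((hFc.mono hKB).mul h1c.norm.continuousOn).abs.mul (hφc.mono hKB)
  have hi2 : ContinuousOn (fun y => |σ y * ‖h₂ y‖| * ‖φ (thP n q Y y)‖) K :=
    ((hFc.mono hKB).mul h2c.norm.continuousOn).abs.mul (hφc.mono hKB)
  have b1 : ‖P.E φ T‖ ≤ ∫ y in K, σ y * ‖h₁ y + h₂ y‖ * ‖φ (thP n q Y y)‖ := by
    rw [hnorm, hE, norm_neg, hF2]
    refine norm_integral_le_of_norm_le (hi0.integrableOn_compact hKc) ?_
    filter_upwards [ae_restrict_mem hKm] with y hy
    rw [h.h_in hz _ (hKB hy)]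
    refine (norm_inner_le_norm _ _).trans (mul_le_mul_of_nonneg_right ?_ (norm_nonneg _))
    rw [hlap y (hKB hy)]
    exact (frm n q s (Y y)).le_opNorm _
  have b2 : ∫ y in K, σ y * ‖h₁ y + h₂ y‖ * ‖φ (thP n q Y y)‖ ≤
      (∫ y in tsupport h₁, |σ y * ‖h₁ y‖| * ‖φ (thP n q Y y)‖) +
        ∫ y in K, |σ y * ‖h₂ y‖| * ‖φ (thP n q Y y)‖ := by
    have e1 : ∫ y in K, |σ y * ‖h₁ y‖| * ‖φ (thP n q Y y)‖ =
        ∫ y in tsupport h₁, |σ y * ‖h₁ y‖| * ‖φ (thP n q Y y)‖ := by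
      refine setIntegral_eq_of_subset_of_forall_sdiff_eq_zero hKm h1s ?_
      intro y hy
      rw [image_eq_zero_of_notMem_tsupport hy.2, norm_zero, mul_zero, abs_zero, zero_mul]
    rw [← e1, ← integral_add (hi1.integrableOn_compact hKc) (hi2.integrableOn_compact hKc)]
    refine setIntegral_mono_on (hi0.integrableOn_compact hKc)
      ((hi1.integrableOn_compact hKc).add (hi2.integrableOn_compact hKc)) hKm fun y hy => ?_
    rw [← add_mul]
    refine mul_le_mul_of_nonneg_right ?_ (norm_nonneg _)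
    have e2 : 0 ≤ σ y := norm_nonneg _
    calc σ y * ‖h₁ y + h₂ y‖ ≤ σ y * (‖h₁ y‖ + ‖h₂ y‖) :=
          mul_le_mul_of_nonneg_left (norm_add_le _ _) e2
      _ = σ y * ‖h₁ y‖ + σ y * ‖h₂ y‖ := mul_add _ _ _
      _ ≤ _ := add_le_add (le_abs_self _) (le_abs_self _)
  have b3 := hg.cs h1k.isCompact (h1s.trans hKB) (q := fun y => σ y * ‖h₁ y‖)
    ((hFc.mono (h1s.trans hKB)).mul h1c.norm.continuousOn) hφ
  have b4 := hg.cs hKc hKB (q := fun y => σ y * ‖h₂ y‖)
    ((hFc.mono hKB).mul h2c.norm.continuousOn) hφ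
  have hc2 : Continuous fun y => ‖h₂ y‖ ^ 2 := h2c.norm.pow 2
  have hk2 : HasCompactSupport fun y => ‖h₂ y‖ ^ 2 := h2k.mono fun y hy => by
    rw [Function.mem_support] at hy ⊢
    intro h0
    exact hy (by rw [h0]; simp)
  have i3 : Integrable (fun y => ‖h₂ y‖ ^ 2) := hc2.integrable_of_hasCompactSupport hk2
  have b5 : ∫ y in K, (σ y * ‖h₂ y‖) ^ 2 / √(W.g y).det ≤ c * ∫ x, ‖h₂ x‖ ^ 2 := by
    have c3 : ContinuousOn (fun y => (σ y * ‖h₂ y‖) ^ 2 / √(W.g y).det) K :=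
      (((hFc.mono hKB).mul h2c.norm.continuousOn).pow 2).div (hdc.mono hKB)
        fun y hy => (hd0 y (hKB hy)).ne'
    have e1 : ∫ y in K, (σ y * ‖h₂ y‖) ^ 2 / √(W.g y).det ≤ ∫ y in K, c * ‖h₂ y‖ ^ 2 := by
      refine setIntegral_mono_on (c3.integrableOn_compact hKc) (i3.const_mul c).integrableOn
        hKm fun y hy => ?_
      have h4 : (σ y * ‖h₂ y‖) ^ 2 / √(W.g y).det = (σ y ^ 2 / √(W.g y).det) * ‖h₂ y‖ ^ 2 := by
        ring
      rw [h4]
      exact mul_le_mul_of_nonneg_right (hcb y hy) (sq_nonneg _)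
    rw [integral_const_mul] at e1
    exact e1.trans (mul_le_mul_of_nonneg_left
      (setIntegral_le_integral i3 (Eventually.of_forall fun y => sq_nonneg _)) hc)
  have hG : Continuous fun x => ‖φ x‖ ^ 2 := hφ.continuous.norm.pow 2
  have b6 : ∫ x in thP n q Y '' K, ‖φ x‖ ^ 2 ∂P.μ ≤ ∫ x, ‖φ x‖ ^ 2 ∂P.μ :=
    setIntegral_le_integral (integrable_of_continuous hG)
      (Eventually.of_forall fun y => sq_nonneg _)
  refine (b1.trans b2).trans (add_le_add b3 (b4.trans ?_))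
  exact mul_le_mul (Real.sqrt_le_sqrt b5) (Real.sqrt_le_sqrt b6)
    (Real.sqrt_nonneg _) (Real.sqrt_nonneg _)

end

end Vale.Agent.P088.R2.H710
end
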