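import Vale.Agent.P088.R2.H710.S4.Crd
import Vale.Agent.P088.R2.H710.LX.InM

/-!
# P088, stage 4: the interior models near a limit point of a match, all ranks, any connection
-/

open Bundle Manifold MeasureTheory Set Filter Topology
open scoped ContDiff

noncomputable section

set_option linter.all false

namespace Vale.Agent.P088.R2.H710

open Vale.Agent.P088 Vale.Agent.P088.EYM Vale.Agent.P088.R2.H509.S3
open Vale.Agent.P088.EYM.Q (IsMod)

universe u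

/-- A section in the coordinates of a model. -/
def cu {n N : ℕ} [NeZero n] {M : Type u} [TopologicalSpace M]
    [ChartedSpace (EuclideanHalfSpace n) M] [IsManifold (𝓡∂ n) ∞ M] (p : M) (Y : E n → E n)
    (s : Fin N → M → Fib N) (u : M → Fib N) (y : E n) : Fib N :=
  Ring.inverse (frm n p s (Y y)) (lu (𝓡∂ n) p u (Y y))

section

variable {n N : ℕ} [NeZero n] {M₁ M₂ : Type u}
  [TopologicalSpace M₁] [ChartedSpace (EuclideanHalfSpace n) M₁] [IsManifold (𝓡∂ n) ∞ M₁]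
  [T2Space M₁] [CompactSpace M₁] [ConnectedSpace M₁] [MeasurableSpace M₁] [BorelSpace M₁]
  [TopologicalSpace M₂] [ChartedSpace (EuclideanHalfSpace n) M₂] [IsManifold (𝓡∂ n) ∞ M₂]
  [T2Space M₂] [CompactSpace M₂] [ConnectedSpace M₂] [MeasurableSpace M₂] [BorelSpace M₂]

theorem norm_at {P : One n N M₁} {Q : One n N M₂} {G : TM.Gl M₁ M₂} {x' : M₁} {j0 : Fin N}
    {s : Fin N → (M₁ → Fib N) × (M₂ → Fib N)} {t : Fin n → Fin N → (M₁ → Fib N) × (M₂ → Fib N)}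
    {B : Matrix (Fin n) (Fin n) ℝ} {ζ : E n} {r : ℝ} {W₁ : Model n N} {D₁ : Set (E n)}
    {Y₁ : E n → E n}
    (hBg : (P.loc x').g (xc n x' x') = B.transpose * B)
    (hBJ : Jac (Xco j0 (frm n x' fun j => (s j).1) (fun a => lu (𝓡∂ n) x' (t a j0).1))
      (xc n x' x') = B)
    (hBd : ∀ a j i, pd i (lu (𝓡∂ n) x' (t a j).1) (xc n x' x') =
      (B a i : ℂ) • EuclideanSpace.single j 1)
    (hS1 : frm n x' (fun j => (s j).1) (xc n x' x') = 1)
    (hdS1 : ∀ i, pd i (frm n x' (fun j => (s j).1)) (xc n x' x') = 0)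
    (h : InM P x' ζ r j0 W₁ D₁ Y₁ (fun j => (s j).1) (fun a => (t a j0).1))
    (hζ : ζ ∈ HB ζ r) (hY : Y₁ ζ = xc n x' x') (ht : ∀ a j, t a j ∈ TM.PP P Q G)
    (hs : ∀ j, s j ∈ TM.PP P Q G) :
    W₁.g ζ = 1 ∧ W₁.h ζ = 1 ∧ ∀ a j i, pd i (cu x' Y₁ (fun j => (s j).1) (t a j).1) ζ =
      if a = i then EuclideanSpace.single j 1 else 0 := by
  set X : E n → E n := Xco j0 (frm n x' fun j => (s j).1) (fun a => lu (𝓡∂ n) x' (t a j0).1)
    with hX
  set S : E n → EndF N := frm n x' fun j => (s j).1 with hS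
  set z' := xc n x' x' with hz'
  have hz'D : z' ∈ D₁ := by rw [← hY]; exact h.pull.diffeo.mapsY hζ
  have hXz : X z' = ζ := by rw [← hY]; exact h.pull.diffeo.inv2 ζ hζ
  obtain ⟨hrel₁, hok₁, -, hsm₁'⟩ := TM.fLoc n N M₁
  have hgpos : ((P.loc x').g z').PosDef := (hok₁ P x').g_pos _ (h.sub hz'D)
  have hBdet : B.det ≠ 0 := by
    intro h0
    have h1 := hgpos.det_pos
    rw [hBg, Matrix.det_mul, h0, mul_zero] at h1
    exact lt_irrefl _ h1
  have hBu : IsUnit B.det := isUnit_iff_ne_zero.2 hBdet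
  have hBtu : IsUnit B.transpose.det := by rw [Matrix.det_transpose]; exact hBu
  have hPPs : ∀ u ∈ TM.PP P Q G, SmS n u.1 := by
    rintro u ⟨f₁, f₂, -, h1, h2⟩
    exact h1.smooth
  refine ⟨?_, ?_, fun a j i => ?_⟩
  · have e1 := h.pull.g_eq z' hz'D
    rw [← hX, hXz, hBJ, hBg] at e1
    have e2 : B.transpose * W₁.g ζ = B.transpose := by
      have e3 := congrArg (fun A => A * B⁻¹) e1
      simp only [Matrix.mul_assoc] at e3
      rw [Matrix.mul_nonsing_inv _ hBu, Matrix.mul_one, Matrix.mul_one] at e3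
      exact e3.symm
    have e4 := congrArg (fun A => B.transpose⁻¹ * A) e2
    simp only [← Matrix.mul_assoc] at e4
    rw [Matrix.nonsing_inv_mul _ hBtu, Matrix.one_mul] at e4
    exact e4
  · have e1 := h.pull.h_eq z' hz'D
    rw [← hX, ← hS, hXz, hS1] at e1
    rw [← e1]
    show ContinuousLinearMap.adjoint (1 : EndF N) * (1 : EndF N) * 1 = 1
    rw [mul_one, mul_one]
    exact ContinuousLinearMap.adjoint_id
  · have hHB : RelOpen (HB ζ r) := cClosed_relOpen_HB ζ r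
    have hSs : ContDiffOn ℝ ∞ S D₁ := h.pull.smS
    have hSu : ∀ y ∈ D₁, IsUnit (S y) := h.pull.unit
    have hR : ContDiffOn ℝ ∞ (fun y => Ring.inverse (S y)) D₁ := smooth_ringInverse hSs hSu
    have hT : ContDiffOn ℝ ∞ (lu (𝓡∂ n) x' (t a j).1) D₁ :=
      (hsm₁' _ (hPPs _ (ht a j)) _).mono h.sub
    have hf : ContDiffOn ℝ ∞ (fun y => Ring.inverse (S y) (lu (𝓡∂ n) x' (t a j).1 y)) D₁ :=
      smooth_eval hR hT
    have hdR : ∀ k, pd k (fun x => Ring.inverse (S x)) z' = 0 := by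
      intro k
      have e1 : pd k (fun y => Ring.inverse (S y) * S y) z' = 0 := by
        rw [h.rel.pd_congr (g := fun _ => (1 : EndF N))
          (fun y hy => Ring.inverse_mul_cancel _ (hSu y hy)) hz'D k, pd_const]
      rw [h.rel.pd_mul hR hSs hz'D k, hdS1 k, mul_zero, zero_add, hS1, mul_one] at e1
      exact e1
    have hpf : ∀ k, pd k (fun y => Ring.inverse (S y) (lu (𝓡∂ n) x' (t a j).1 y)) z' =
        (B a k : ℂ) • EuclideanSpace.single j 1 := by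
      intro k
      rw [h.rel.pd_eval hR hT (by simp) (by simp) hz'D k, hdR k, hS1, Ring.inverse_one,
        hBd a j k]
      simp
    have e1 : pd i (cu x' Y₁ (fun j => (s j).1) (t a j).1) ζ =
        ∑ k, pd i (fun y => Y₁ y k) ζ •
          pd k (fun y => Ring.inverse (S y) (lu (𝓡∂ n) x' (t a j).1 y)) (Y₁ ζ) :=
      hHB.pd_comp h.rel h.pull.diffeo.smY h.pull.diffeo.mapsY hf hζ i
    -- the Jacobian of the inverse
    have hJ : B * Jac Y₁ ζ = 1 := by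
      have hXs : ∀ b, ContDiffOn ℝ ∞ (fun y => X y b) D₁ := fun b =>
        contDiffOn_euclidean.1 h.pull.diffeo.smX b
      ext b c
      rw [Matrix.mul_apply]
      have e2 : pd c (fun y => (fun v => X v b) (Y₁ y)) ζ =
          ∑ k, pd c (fun y => Y₁ y k) ζ • pd k (fun v => X v b) (Y₁ ζ) :=
        hHB.pd_comp h.rel h.pull.diffeo.smY h.pull.diffeo.mapsY (hXs b) hζ c
      have e3 : pd c (fun y => (fun v => X v b) (Y₁ y)) ζ = pd c (fun y : E n => y b) ζ :=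
        hHB.pd_congr (fun y hy => congrArg (fun v : E n => v b) (h.pull.diffeo.inv2 y hy)) hζ c
      have e4 : pd c (fun y : E n => y b) ζ = (1 : Matrix (Fin n) (Fin n) ℝ) b c := by
        rw [dc_pd_coord (hHB.subset hζ), Matrix.one_apply]
        simp only [eq_comm]
      rw [← e4, ← e3, e2, hY]
      refine Finset.sum_congr rfl fun k _ => ?_
      rw [smul_eq_mul, mul_comm]
      congr 1
      rw [← hBJ]
      rfl
    rw [e1, hY]
    simp only [hpf]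
    have e5 : ∀ k, pd i (fun y => Y₁ y k) ζ • ((B a k : ℂ) • (EuclideanSpace.single j 1 : Fib N)) =
        ((B a k * Jac Y₁ ζ k i : ℝ) : ℂ) • (EuclideanSpace.single j 1 : Fib N) := by
      intro k
      rw [← Complex.coe_smul, smul_smul]
      congr 1
      rw [Complex.ofReal_mul, mul_comm]
      rfl
    simp only [e5]
    rw [← Finset.sum_smul, ← Complex.ofReal_sum]
    have e6 : ∑ k, B a k * Jac Y₁ ζ k i = if a = i then 1 else 0 := by
      have := congrFun (congrFun hJ a) i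
      rwa [Matrix.mul_apply, Matrix.one_apply] at this
    rw [e6]
    split_ifs <;> simp

/-- The models near a limit point, in the coordinates given by solutions; on the matched
part they are equal. -/
structure LimP (P : One n N M₁) (Q : One n N M₂) (G : TM.Gl M₁ M₂) (V : Set M₂) (F : M₂ → M₁)
    (x : M₂) (x' : M₁) (j0 : Fin N) (s : Fin N → (M₁ → Fib N) × (M₂ → Fib N))
    (t : Fin n → Fin N → (M₁ → Fib N) × (M₂ → Fib N)) (z : E n) (r : ℝ) (W₁ W₂ : Model n N)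
    (D₁ D₂ : Set (E n)) (Y₁ Y₂ : E n → E n) : Prop where
  r0 : 0 < r
  rz : r ≤ z 0
  int₁ : x' ∈ Mi n M₁
  int₂ : x ∈ Mi n M₂
  ms : ∀ j, s j ∈ TM.PP P Q G
  mt : ∀ a j, t a j ∈ TM.PP P Q G
  i₁ : InM P x' z r j0 W₁ D₁ Y₁ (fun j => (s j).1) (fun a => (t a j0).1)
  i₂ : InM Q x z r j0 W₂ D₂ Y₂ (fun j => (s j).2) (fun a => (t a j0).2)
  c₁ : Y₁ z = xc n x' x'
  c₂ : Y₂ z = xc n x x
  cl : x ∈ closure V
  off : ∀ y ∈ Metric.ball z r, ∀ m ∈ V, F m = (xc n x').symm (Y₁ y) →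
    (xc n x).symm (Y₂ y) = m
  F : ∀ y ∈ Metric.ball z r, (xc n x).symm (Y₂ y) ∈ V →
    F ((xc n x).symm (Y₂ y)) = (xc n x').symm (Y₁ y)
  eq : EqOnM W₁ W₂ {y ∈ Metric.ball z r | (xc n x).symm (Y₂ y) ∈ V}
  sol : ∀ u ∈ TM.PP P Q G, ∀ y ∈ Metric.ball z r, (xc n x).symm (Y₂ y) ∈ V →
    cu x' Y₁ (fun j => (s j).1) u.1 y = cu x Y₂ (fun j => (s j).2) u.2 y
  ng : W₁.g z = 1
  nh : W₁.h z = 1
  nt : ∀ a j i, pd i (cu x' Y₁ (fun j => (s j).1) (t a j).1) z =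
    if a = i then EuclideanSpace.single j 1 else 0

theorem limP (P : One n N M₁) (Q : One n N M₂) (G : TM.Gl M₁ M₂)
    (hn : 3 ≤ n) (hN : 0 < N) (hG : G.Ok n N) (hS : TM.SameD P Q G) {V : Set M₂} (hV : IsOpen V)
    {F : M₂ → M₁} {H : M₂ → EndF N} (hm : TM.WMatch P Q G V F H) {x : M₂} (hx : x ∈ Mi n M₂)
    (hcl : x ∈ closure V) :
    ∃ (x' : M₁) (j0 : Fin N) (s : Fin N → (M₁ → Fib N) × (M₂ → Fib N))
      (t : Fin n → Fin N → (M₁ → Fib N) × (M₂ → Fib N)) (z : E n) (r : ℝ) (W₁ W₂ : Model n N)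
      (D₁ D₂ : Set (E n)) (Y₁ Y₂ : E n → E n),
      LimP P Q G V F x x' j0 s t z r W₁ W₂ D₁ D₂ Y₁ Y₂ := by
  haveI : SecondCountableTopology (EuclideanHalfSpace n) := by
    unfold EuclideanHalfSpace
    infer_instance
  haveI : SecondCountableTopology M₂ :=
    ChartedSpace.secondCountable_of_sigmaCompact (EuclideanHalfSpace n) M₂
  obtain ⟨⟨hPs, hQs, -⟩, -⟩ := TM.gData n N M₁ M₂ P Q G hG hS
  obtain ⟨hMo, -, -⟩ := TM.fConn n M₂
  obtain ⟨hrel₁, -, hbd₁, -⟩ := TM.fLoc n N M₁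
  obtain ⟨hrel₂, -, hbd₂, -⟩ := TM.fLoc n N M₂
  have hb₁ := cClosed_bdry hG.rel₁ hG.ne₁
  have hb₂ := cClosed_bdry hG.rel₂ hG.ne₂
  obtain ⟨x', V₀, hx', hV₀, hFl, hHl, hrel⟩ :=
    lim_match (by omega) hN hG hPs hQs hV hm hx hcl
  -- a sequence
  have hcl' : x ∈ closure (V ∩ Mi n M₂) := by
    rw [inter_comm]
    exact hMo.inter_closure ⟨hx, hcl⟩
  obtain ⟨y, hyV, hyt⟩ := mem_closure_iff_seq_limit.1 hcl'
  have hyt' : Tendsto y atTop (𝓝[V] x) :=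
    tendsto_nhdsWithin_iff.2 ⟨hyt, Eventually.of_forall fun k => (hyV k).1⟩
  have hLM : TM.LMatch P Q G (V ∩ Mi n M₂) F H := {
    isOpen := hV.inter hMo
    sub := inter_subset_right
    maps := fun x hx => hm.int x hx.1 hx.2
    smφ := hm.smF.mono inter_subset_left
    smV := hm.smH.mono inter_subset_left
    unit := fun x hx => hm.unit x hx.1
    met := fun x hx => hm.met x hx.1
    con := fun x hx => hm.con x hx.1
    sol := fun u hu x hx => hm.sol u hu x hx.1 }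
  obtain ⟨j0, s, t, hs, ht, hS1, hdS1, ⟨B, hBg, hBJ, hBt, hBd⟩, hu1, hu2, hd1, hd2, hpos, heq⟩ :=
    coordP P Q G x x' V₀ y (fun _ => V ∩ Mi n M₂) (fun _ => F) (fun _ => H) hn hN hG hS hx
      hx' hV₀ (fun k => ⟨hLM, hyV k⟩) hyt (hFl.comp hyt') (hHl.comp hyt') hrel
  have hpos' := hpos
  rw [heq] at hpos'
  have hs1 : ∀ j, ∃ f, P.Harm f (s j).1 := fun j => by
    obtain ⟨f₁, f₂, _, h1, _⟩ := hs j; exact ⟨f₁, h1⟩
  have hs2 : ∀ j, ∃ f, Q.Harm f (s j).2 := fun j => by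
    obtain ⟨f₁, f₂, _, _, h1⟩ := hs j; exact ⟨f₂, h1⟩
  have ht1 : ∀ a, ∃ f, P.Harm f (t a j0).1 := fun a => by
    obtain ⟨f₁, f₂, _, h1, _⟩ := ht a j0; exact ⟨f₁, h1⟩
  have ht2 : ∀ a, ∃ f, Q.Harm f (t a j0).2 := fun a => by
    obtain ⟨f₁, f₂, _, _, h1⟩ := ht a j0; exact ⟨f₂, h1⟩
  obtain ⟨Y₁, W₁, r₁, hr₁, h₁⟩ := Free.modelAt TM.fHarm TM.fUniq TM.fLoc hN P hb₁ j0 hx'
    (fun j => (s j).1) (fun a => (t a j0).1) hs1 ht1 hu1 hd1 hpos
  obtain ⟨Y₂, W₂, r₂, hr₂, h₂⟩ := Free.modelAt TM.fHarm TM.fUniq TM.fLoc hN Q hb₂ j0 hx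
    (fun j => (s j).2) (fun a => (t a j0).2) hs2 ht2 hu2 hd2 hpos'
  rw [← heq] at h₂
  set ζ := Xco j0 (frm n x' fun j => (s j).1) (fun a => lu (𝓡∂ n) x' (t a j0).1)
    (xc n x' x') with hζ
  obtain ⟨r, hr, hra, hrb, hrc⟩ : ∃ r, 0 < r ∧ r ≤ r₁ ∧ r ≤ r₂ ∧ r ≤ ζ 0 :=
    ⟨min (min r₁ r₂) (ζ 0), lt_min (lt_min hr₁ hr₂) hpos,
      (min_le_left _ _).trans (min_le_left _ _), (min_le_left _ _).trans (min_le_right _ _),
      min_le_right _ _⟩
  obtain ⟨D₁, hD₁s, hD₁, hz₁, hpull₁, hmod₁, hc₁⟩ := h₁ r hr hra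
  obtain ⟨D₂, hD₂s, hD₂, hz₂, hpull₂, hmod₂, hc₂⟩ := h₂ r hr hrb
  obtain ⟨hHB, hHBpos⟩ := cClosed_HB (n := n) hrc
  have hI₁ : InM P x' ζ r j0 W₁ D₁ Y₁ (fun j => (s j).1) (fun a => (t a j0).1) :=
    ⟨hD₁, hD₁s, hpull₁, hmod₁, hc₁⟩
  have hI₂ : InM Q x ζ r j0 W₂ D₂ Y₂ (fun j => (s j).2) (fun a => (t a j0).2) :=
    ⟨hD₂, hD₂s, hpull₂, hmod₂, hc₂⟩
  have hY₁ζ : Y₁ ζ = xc n x' x' := hpull₁.diffeo.inv1 _ hz₁
  have hY₂ζ : Y₂ ζ = xc n x x := by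
    rw [heq]
    exact hpull₂.diffeo.inv1 _ hz₂
  -- the map to the manifold
  have hΘc : ContinuousOn (fun y => (xc n x).symm (Y₂ y)) (Metric.ball ζ r) := by
    rw [← hHB]
    exact (continuousOn_extChartAt_symm (I := 𝓡∂ n) x).comp hpull₂.diffeo.smY.continuousOn
      fun y hy => hD₂s (hpull₂.diffeo.mapsY hy)
  have hΘζ : (xc n x).symm (Y₂ ζ) = x := by
    rw [hY₂ζ]
    exact extChartAt_to_inv x
  -- the good neighbourhood
  obtain ⟨O₁, hO₁, hD₁e⟩ := id hD₁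
  have hev : ∀ᶠ y in 𝓝[V] x, F y ∈ (xc n x').source ∧ xc n x' (F y) ∈ D₁ := by
    have e1 : ∀ᶠ y in 𝓝[V] x, F y ∈ (xc n x').source :=
      hFl.eventually (extChartAt_source_mem_nhds (I := 𝓡∂ n) x')
    have e2 : Tendsto (fun y => xc n x' (F y)) (𝓝[V] x) (𝓝 (xc n x' x')) :=
      (continuousAt_extChartAt (I := 𝓡∂ n) x').tendsto.comp hFl
    have e3 : xc n x' x' ∈ O₁ := by
      rw [hD₁e] at hz₁
      exact hz₁.1
    filter_upwards [e1, e2.eventually (hO₁.mem_nhds e3)] with y h1 h2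
    refine ⟨h1, ?_⟩
    rw [hD₁e]
    exact ⟨h2, (hrel₁ x').subset ((xc n x').map_source h1)⟩
  rw [eventually_nhdsWithin_iff] at hev
  have hev2 : ∀ᶠ y in 𝓝 ζ, (xc n x).symm (Y₂ y) ∈ V →
      F ((xc n x).symm (Y₂ y)) ∈ (xc n x').source ∧
        xc n x' (F ((xc n x).symm (Y₂ y))) ∈ D₁ := by
    have e1 : Tendsto (fun y => (xc n x).symm (Y₂ y)) (𝓝 ζ) (𝓝 x) := by
      have := (hΘc ζ (Metric.mem_ball_self hr)).continuousAt (Metric.isOpen_ball.mem_nhds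
        (Metric.mem_ball_self hr))
      rw [ContinuousAt, hΘζ] at this
      exact this
    exact e1.eventually hev
  obtain ⟨δ, hδ, hball⟩ := Metric.eventually_nhds_iff_ball.1 hev2
  obtain ⟨ρ, hρ, hρδ, hρr⟩ : ∃ ρ, 0 < ρ ∧ ρ ≤ δ ∧ ρ ≤ r :=
    ⟨min δ r, lt_min hδ hr, min_le_left _ _, min_le_right _ _⟩
  have hsubb : Metric.ball ζ ρ ⊆ Metric.ball ζ r := Metric.ball_subset_ball hρr
  have hsub : HB ζ ρ ⊆ HB ζ r := fun y hy => ⟨hsubb hy.1, hy.2⟩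
  -- the application of `modEq`
  have key : ∀ y ∈ Metric.ball ζ ρ, (xc n x).symm (Y₂ y) ∈ V →
      F ((xc n x).symm (Y₂ y)) = (xc n x').symm (Y₁ y) ∧
      (W₁.g y = W₂.g y ∧ (∀ j, W₁.B j y = W₂.B j y) ∧ W₁.h y = W₂.h y ∧
        ∀ a, W₁.c a y = W₂.c a y) ∧
      ∀ u ∈ TM.PP P Q G,
        Ring.inverse (frm n x' (fun j => (s j).1) (Y₁ y)) (lu (𝓡∂ n) x' u.1 (Y₁ y)) =
        Ring.inverse (frm n x (fun j => (s j).2) (Y₂ y)) (lu (𝓡∂ n) x u.2 (Y₂ y)) := by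
    intro y hy hyV'
    have hyHB : y ∈ HB ζ r := by
      rw [hHB]
      exact hsubb hy
    have hYD : Y₂ y ∈ D₂ := hpull₂.diffeo.mapsY hyHB
    have hYt : Y₂ y ∈ tg n x := hD₂s hYD
    have h0 : 0 < (Y₂ y) 0 := bIntr n (HB ζ r) D₂ Y₂
      (Xco j0 (frm n x fun j => (s j).2) (fun a => lu (𝓡∂ n) x (t a j0).2))
      (cClosed_relOpen_HB ζ r) hD₂
      ⟨hpull₂.diffeo.mapsY, hpull₂.diffeo.mapsX, hpull₂.diffeo.inv2, hpull₂.diffeo.inv1,
        hpull₂.diffeo.smY, hpull₂.diffeo.smX⟩ y hyHB (hHBpos hyHB)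
    have hmi : (xc n x).symm (Y₂ y) ∈ Mi n M₂ := cCoord_int hbd₂ hYt h0
    obtain ⟨h1, h2⟩ := hball y (Metric.ball_subset_ball hρδ hy) hyV'
    obtain ⟨U, hUo, hUs, hUy, hUe, hUu, hUF⟩ := Free.modEq n N M₁ M₂ P Q G j0 s (fun a => t a j0) x' x ζ r W₁ W₂
      D₁ D₂ Y₁ Y₂ hs (fun a => ht a j0) hD₁ hD₂ hD₁s hD₂s hpull₁ hpull₂ hc₁ hc₂ (V ∩ Mi n M₂) F H hLM
      ((xc n x).symm (Y₂ y)) ⟨hyV', hmi⟩ ((xc n x).map_target hYt)
      (by rw [(xc n x).right_inv hYt]; exact hYD) h1 h2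
    rw [(xc n x).right_inv hYt, hpull₂.diffeo.inv2 y hyHB] at hUy
    obtain ⟨-, h3, h4⟩ := hUF y hUy
    refine ⟨?_, ⟨hUe.g y hUy, hUe.B y hUy, hUe.h y hUy, hUe.c y hUy⟩, fun u hu => hUu u hu y hUy⟩
    rw [← h4]
    exact ((xc n x').left_inv h3).symm
  -- the images of the other points of `V`
  have hΘ₁c : ContinuousOn (fun y => (xc n x').symm (Y₁ y)) (Metric.ball ζ r) := by
    rw [← hHB]
    exact (continuousOn_extChartAt_symm (I := 𝓡∂ n) x').comp hpull₁.diffeo.smY.continuousOn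
      fun y hy => hD₁s (hpull₁.diffeo.mapsY hy)
  have hΘ₁ζ : (xc n x').symm (Y₁ ζ) = x' := by
    rw [hY₁ζ]
    exact extChartAt_to_inv x'
  have hoff : ∀ᶠ y in 𝓝 ζ, ∀ m ∈ V, F m = (xc n x').symm (Y₁ y) →
      (xc n x).symm (Y₂ y) = m := by
    by_contra hcon
    rw [Filter.not_eventually] at hcon
    obtain ⟨b, hbt, hb⟩ := Filter.exists_seq_forall_of_frequently hcon
    have hb' : ∀ k, ∃ m ∈ V, F m = (xc n x').symm (Y₁ (b k)) ∧
        (xc n x).symm (Y₂ (b k)) ≠ m := by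
      intro k
      have := hb k
      push Not at this
      exact this
    choose m hmV hmF hmne using hb'
    have e1 : Tendsto (fun k => F (m k)) atTop (𝓝 x') := by
      have e2 := (hΘ₁c ζ (Metric.mem_ball_self hr)).continuousAt (Metric.isOpen_ball.mem_nhds
        (Metric.mem_ball_self hr))
      rw [ContinuousAt, hΘ₁ζ] at e2
      exact (e2.comp hbt).congr fun k => (hmF k).symm
    have e3 : Tendsto m atTop (𝓝 x) := lim_off (by omega) hN hG hPs hQs hm hx hx' hV₀ hrel hmV e1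
    obtain ⟨O₂, hO₂, hD₂e⟩ := id hD₂
    have e4 : Tendsto (fun k => xc n x (m k)) atTop (𝓝 (xc n x x)) :=
      (continuousAt_extChartAt (I := 𝓡∂ n) x).tendsto.comp e3
    have e5 : ∀ᶠ k in atTop, m k ∈ (xc n x).source ∧ xc n x (m k) ∈ D₂ := by
      have e6 : xc n x x ∈ O₂ := by
        rw [hD₂e] at hz₂
        exact hz₂.1
      filter_upwards [e3.eventually (extChartAt_source_mem_nhds (I := 𝓡∂ n) x),
        e4.eventually (hO₂.mem_nhds e6)] with k h1 h2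
      refine ⟨h1, ?_⟩
      rw [hD₂e]
      exact ⟨h2, (hrel₂ x).subset ((xc n x).map_source h1)⟩
    set X₂ : E n → E n := Xco j0 (frm n x fun j => (s j).2) (fun a => lu (𝓡∂ n) x (t a j0).2) with hX₂
    have hX₂z : X₂ (xc n x x) = ζ := heq.symm
    have e6 : Tendsto (fun k => X₂ (xc n x (m k))) atTop (𝓝 ζ) := by
      have e7 := hpull₂.diffeo.smX.continuousOn _ hz₂
      rw [ContinuousWithinAt, hX₂z] at e7
      refine e7.comp (tendsto_nhdsWithin_iff.2 ⟨e4, ?_⟩)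
      filter_upwards [e5] with k hk using hk.2
    have hζρ : Metric.ball ζ ρ ∈ 𝓝 ζ := Metric.ball_mem_nhds ζ hρ
    obtain ⟨k, ⟨hk1, hk2⟩, hk3, hk4⟩ :=
      (e5.and ((e6.eventually hζρ).and (hbt.eventually hζρ))).exists
    have k1 : Y₂ (X₂ (xc n x (m k))) = xc n x (m k) := hpull₂.diffeo.inv1 _ hk2
    have k2 : (xc n x).symm (Y₂ (X₂ (xc n x (m k)))) = m k := by
      rw [k1]
      exact (xc n x).left_inv hk1
    have k3 := (key _ hk3 (by rw [k2]; exact hmV k)).1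
    rw [k2, hmF k] at k3
    have k4 : b k ∈ HB ζ r := by rw [hHB]; exact hsubb hk4
    have k5 : X₂ (xc n x (m k)) ∈ HB ζ r := by rw [hHB]; exact hsubb hk3
    have k6 : Y₁ (b k) = Y₁ (X₂ (xc n x (m k))) :=
      (xc n x').symm.injOn (hD₁s (hpull₁.diffeo.mapsY k4)) (hD₁s (hpull₁.diffeo.mapsY k5)) k3
    have k7 : b k = X₂ (xc n x (m k)) := by
      rw [← hpull₁.diffeo.inv2 _ k4, k6, hpull₁.diffeo.inv2 _ k5]
    exact hmne k (by rw [k7]; exact k2)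
  obtain ⟨δ', hδ', hball'⟩ := Metric.eventually_nhds_iff_ball.1 hoff
  obtain ⟨ρ', hρ', hρδ', hρρ'⟩ : ∃ ρ', 0 < ρ' ∧ ρ' ≤ δ' ∧ ρ' ≤ ρ :=
    ⟨min δ' ρ, lt_min hδ' hρ, min_le_left _ _, min_le_right _ _⟩
  have hsubb' : Metric.ball ζ ρ' ⊆ Metric.ball ζ ρ := Metric.ball_subset_ball hρρ'
  have hsub' : HB ζ ρ' ⊆ HB ζ r := fun y hy => ⟨hsubb (hsubb' hy.1), hy.2⟩
  obtain ⟨D₁', hD₁'s, hI₁'⟩ := hI₁.restrict hsub'
  -- the normalisation
  have hζHB : ζ ∈ HB ζ r := by rw [hHB]; exact Metric.mem_ball_self hr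
  obtain ⟨hng, hnh, hnt⟩ := norm_at hBg hBJ hBd hS1 hdS1 hI₁ hζHB hY₁ζ
    (fun a j => ht a j) hs
  obtain ⟨D₂', hD₂'s, hI₂'⟩ := hI₂.restrict hsub'
  exact ⟨x', j0, s, t, ζ, ρ', W₁, W₂, D₁', D₂', Y₁, Y₂, {
    r0 := hρ'
    rz := (hρρ'.trans hρr).trans hrc
    int₁ := hx'
    int₂ := hx
    ms := hs
    mt := ht
    i₁ := hI₁'
    i₂ := hI₂'
    c₁ := hY₁ζ
    c₂ := hY₂ζ
    cl := hcl
    F := fun y hy hyV' => (key y (hsubb' hy) hyV').1
    off := fun y hy => hball' y (Metric.ball_subset_ball hρδ' hy)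
    eq := ⟨fun y hy => (key y (hsubb' hy.1) hy.2).2.1.1,
      fun y hy => (key y (hsubb' hy.1) hy.2).2.1.2.1,
      fun y hy => (key y (hsubb' hy.1) hy.2).2.1.2.2.1,
      fun y hy => (key y (hsubb' hy.1) hy.2).2.1.2.2.2⟩
    sol := fun u hu y hy hyV' => (key y (hsubb' hy) hyV').2.2 u hu
    ng := hng
    nh := hnh
    nt := hnt }⟩

end

end Vale.Agent.P088.R2.H710
end
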