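import Vale.Agent.P088.R2.H710.S4.Nrm
import Vale.Agent.P088.R2.H710.Glob
import Vale.Agent.P088.R2.H338.U.Touch

/-!
# P088, stage 4: a limit point at which the matched part contains a touching ball
-/

open Bundle Manifold MeasureTheory Set Filter Topology
open scoped ContDiff

noncomputable section

set_option linter.all false

namespace Vale.Agent.P088.R2.H710

open Vale.Agent.P088 Vale.Agent.P088.EYM Vale.Agent.P088.R2.H509.S3
open Vale.Agent.P088.EYM.Q (IsMod)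

universe u

section

variable {n : ℕ} [NeZero n]

theorem hs_nhds {y : E n} (h : 0 < y 0) : Hs n ∈ 𝓝 y :=
  Filter.mem_of_superset ((isOpen_lt continuous_const (continuous_coord 0)).mem_nhds
    (show y ∈ {y : E n | 0 < y 0} from h)) fun y hy => le_of_lt (show 0 < y 0 from hy)

theorem rel_nhds {D : Set (E n)} (hD : RelOpen D) {y : E n} (hy : y ∈ D) (h : 0 < y 0) :
    D ∈ 𝓝 y := by
  have h1 := hD.mem_nhds hy
  rwa [nhdsWithin_eq_nhds.2 (hs_nhds h)] at h1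

variable {M : Type u} [TopologicalSpace M] [ChartedSpace (EuclideanHalfSpace n) M]
  [IsManifold (𝓡∂ n) ∞ M]

theorem trans_cd {q q' : M} {X : E n → E n} {D : Set (E n)} (hD : RelOpen D)
    (hX : ContDiffOn ℝ ∞ X D) {Y : E n → E n} {y : E n} (hY : ContDiffAt ℝ ∞ Y y)
    (h1 : Y y ∈ tg n q') (h2 : 0 < (Y y) 0) (h3 : (xc n q').symm (Y y) ∈ (xc n q).source)
    (h4 : xc n q ((xc n q').symm (Y y)) ∈ D) (h5 : 0 < (xc n q ((xc n q').symm (Y y))) 0) :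
    ContDiffAt ℝ ∞ (fun y => X (xc n q ((xc n q').symm (Y y)))) y := by
  have e1 : ContDiffWithinAt ℝ ∞ (xc n q ∘ (xc n q').symm) (range (𝓡∂ n)) (Y y) :=
    contDiffWithinAt_ext_coord_change (I := 𝓡∂ n) q q' ⟨h1, h3⟩
  have hr : range (𝓡∂ n) ∈ 𝓝 (Y y) := by
    rw [range_modelWithCornersEuclideanHalfSpace]
    exact hs_nhds h2
  have e2 : ContDiffAt ℝ ∞ (xc n q ∘ (xc n q').symm) (Y y) := e1.contDiffAt hr
  have e3 : ContDiffAt ℝ ∞ X (xc n q ((xc n q').symm (Y y))) :=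
    hX.contDiffAt (rel_nhds hD h4 h5)
  exact e3.comp y (e2.comp y hY)

end

section

variable {n N : ℕ} [NeZero n] {M₁ M₂ : Type u}
  [TopologicalSpace M₁] [ChartedSpace (EuclideanHalfSpace n) M₁] [IsManifold (𝓡∂ n) ∞ M₁]
  [T2Space M₁] [CompactSpace M₁] [ConnectedSpace M₁] [MeasurableSpace M₁] [BorelSpace M₁]
  [TopologicalSpace M₂] [ChartedSpace (EuclideanHalfSpace n) M₂] [IsManifold (𝓡∂ n) ∞ M₂]
  [T2Space M₂] [CompactSpace M₂] [ConnectedSpace M₂] [MeasurableSpace M₂] [BorelSpace M₂]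
  {P : One n N M₁} {Q : One n N M₂} {G : TM.Gl M₁ M₂} {V : Set M₂} {F : M₂ → M₁}

section one

variable {x : M₂} {x' : M₁}
  {j0 : Fin N} {s : Fin N → (M₁ → Fib N) × (M₂ → Fib N)}
  {t : Fin n → Fin N → (M₁ → Fib N) × (M₂ → Fib N)} {z : E n} {r : ℝ} {W₁ W₂ : Model n N}
  {D₁ D₂ : Set (E n)} {Y₁ Y₂ : E n → E n}

/-- Near a point `y` of the ball, the point `Th y` and its chart. -/
theorem LimP.near (h : LimP P Q G V F x x' j0 s t z r W₁ W₂ D₁ D₂ Y₁ Y₂) {y : E n}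
    (hy : y ∈ Metric.ball z r) : ∀ᶠ m in 𝓝 (Th x Y₂ y), m ∈ (xc n x).source ∧ xc n x m ∈ D₂ := by
  obtain ⟨hrel₂, -, -, -⟩ := TM.fLoc n N M₂
  obtain ⟨O, hO, hDe⟩ := id h.i₂.rel
  have hyHB : y ∈ HB z r := by rw [h.hb.1]; exact hy
  have hyD : Y₂ y ∈ D₂ := h.i₂.pull.diffeo.mapsY hyHB
  have hyt : Y₂ y ∈ tg n x := h.i₂.sub hyD
  have hms : Th x Y₂ y ∈ (xc n x).source := (xc n x).map_target hyt
  have e0 : xc n x (Th x Y₂ y) = Y₂ y := (xc n x).right_inv hyt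
  have e1 : ∀ᶠ m in 𝓝 (Th x Y₂ y), m ∈ (xc n x).source := by
    have : (xc n x).source ∈ 𝓝 (Th x Y₂ y) :=
      (isOpen_extChartAt_source (I := 𝓡∂ n) x).mem_nhds hms
    exact this
  have e2 : Tendsto (fun m => xc n x m) (𝓝 (Th x Y₂ y)) (𝓝 (Y₂ y)) := by
    have := (continuousAt_extChartAt' (I := 𝓡∂ n) (x := x) (x' := Th x Y₂ y) hms).tendsto
    rwa [e0] at this
  have e3 : Y₂ y ∈ O := by
    have := hyD
    rw [hDe] at this
    exact this.1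
  filter_upwards [e1, e2.eventually (hO.mem_nhds e3)] with m h1 h2
  refine ⟨h1, ?_⟩
  rw [hDe]
  exact ⟨h2, (hrel₂ x).subset ((xc n x).map_source h1)⟩

end one

/-- A limit point with a touching ball in the matched part. -/
theorem exists_touch (hn : 3 ≤ n) (hN : 0 < N) (hG : G.Ok n N) (hS : TM.SameD P Q G)
    (hV : IsOpen V) {H : M₂ → EndF N} (hm : TM.WMatch P Q G V F H) {x : M₂} (hx : x ∈ Mi n M₂)
    (hcl : x ∈ closure V) (hxV : x ∉ V) :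
    ∃ (x : M₂) (x' : M₁) (j0 : Fin N) (s : Fin N → (M₁ → Fib N) × (M₂ → Fib N))
      (t : Fin n → Fin N → (M₁ → Fib N) × (M₂ → Fib N)) (z : E n) (r : ℝ) (W₁ W₂ : Model n N)
      (D₁ D₂ : Set (E n)) (Y₁ Y₂ : E n → E n), x ∉ V ∧
      LimP P Q G V F x x' j0 s t z r W₁ W₂ D₁ D₂ Y₁ Y₂ ∧
      ∃ (c : E n) (ρ : ℝ), 0 < ρ ∧ dist c z = ρ ∧ Metric.ball c ρ ⊆ mp V x Y₂ z r := by
  obtain ⟨-, -, hbd₂, -⟩ := TM.fLoc n N M₂
  obtain ⟨x', j0, s, t, z, r, W₁, W₂, D₁, D₂, Y₁, Y₂, hL⟩ := limP P Q G hn hN hG hS hV hm hx hcl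
  obtain ⟨c₀, y₀, hy₀, hy₀U, hc0, hcr, hcU⟩ := touching (hL.mp_open hV) hL.r0
    (fun h => hxV (by have := h.2; rwa [show (xc n x).symm (Y₂ z) = x from hL.thz] at this))
    (hL.mp_closure hcl)
  set p : M₂ := Th x Y₂ y₀ with hp
  have hy₀H : y₀ ∈ HB z r := by rw [hL.hb.1]; exact hy₀
  have hy₀D : Y₂ y₀ ∈ D₂ := hL.i₂.pull.diffeo.mapsY hy₀H
  have hy₀t : Y₂ y₀ ∈ tg n x := hL.i₂.sub hy₀D
  have hy₀p : 0 < (Y₂ y₀) 0 := hL.pos hy₀
  have hpV : p ∉ V := fun h => hy₀U ⟨hy₀, h⟩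
  have hThc : ContinuousAt (Th x Y₂) y₀ := (hL.thc y₀ hy₀).continuousAt
    (Metric.isOpen_ball.mem_nhds hy₀)
  have hpcl : p ∈ closure V := by
    have h3 : y₀ ∈ closure (Metric.ball c₀ (dist c₀ y₀)) := by
      rw [closure_ball _ hc0.ne', Metric.mem_closedBall, dist_comm]
    have h4 := hThc.continuousWithinAt.mem_closure_image h3
    refine closure_mono ?_ h4
    rintro _ ⟨y, hy, rfl⟩
    exact (hcU hy).2
  have hpi : p ∈ Mi n M₂ := cCoord_int hbd₂ hy₀t hy₀p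
  have hpx : xc n x p = Y₂ y₀ := (xc n x).right_inv hy₀t
  have hps : p ∈ (xc n x).source := (xc n x).map_target hy₀t
  obtain ⟨p', j1, s', t', z', r', W₁', W₂', D₁', D₂', Y₁', Y₂', hL'⟩ :=
    limP P Q G hn hN hG hS hV hm hpi hpcl
  have hz' : z' ∈ Metric.ball z' r' := Metric.mem_ball_self hL'.r0
  have hz'H : z' ∈ HB z' r' := by rw [hL'.hb.1]; exact hz'
  have hz'D : Y₂' z' ∈ D₂' := hL'.i₂.pull.diffeo.mapsY hz'H
  have hz't : Y₂' z' ∈ tg n p := hL'.i₂.sub hz'D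
  have hTz : (xc n p).symm (Y₂' z') = p := hL'.thz
  have hTc' : ContinuousAt (Th p Y₂') z' := (hL'.thc z' hz').continuousAt
    (Metric.isOpen_ball.mem_nhds hz')
  have hTt : Tendsto (Th p Y₂') (𝓝 z') (𝓝 p) := by
    have := hTc'.tendsto
    rwa [show Th p Y₂' z' = p from hL'.thz] at this
  set X : E n → E n := Xco j0 (frm n x fun j => (s j).2) (fun a => lu (𝓡∂ n) x (t a j0).2) with hX
  set X' : E n → E n := Xco j1 (frm n p fun j => (s' j).2)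
    (fun a => lu (𝓡∂ n) p (t' a j1).2) with hX'
  set Φ : E n → E n := fun y => X (xc n x ((xc n p).symm (Y₂' y))) with hΦ
  set Ψ : E n → E n := fun y => X' (xc n p ((xc n x).symm (Y₂ y))) with hΨ
  have cΦ : ContDiffAt ℝ ∞ Φ z' := by
    refine trans_cd hL.i₂.rel hL.i₂.pull.diffeo.smX ?_ hz't (hL'.pos hz') ?_ ?_ ?_
    · exact hL'.i₂.pull.diffeo.smY.contDiffAt (by
        rw [hL'.hb.1]
        exact Metric.isOpen_ball.mem_nhds hz')
    · rw [hTz]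
      exact hps
    · rw [hTz, hpx]
      exact hy₀D
    · rw [hTz, hpx]
      exact hy₀p
  have cΨ : ContDiffAt ℝ ∞ Ψ y₀ := by
    refine trans_cd hL'.i₂.rel hL'.i₂.pull.diffeo.smX ?_ hy₀t hy₀p ?_ ?_ ?_
    · exact hL.i₂.pull.diffeo.smY.contDiffAt (by
        rw [hL.hb.1]
        exact Metric.isOpen_ball.mem_nhds hy₀)
    · exact mem_extChartAt_source (I := 𝓡∂ n) p
    · show xc n p p ∈ D₂'
      rw [← hL'.c₂]
      exact hz'D
    · show 0 < (xc n p p) 0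
      rw [← hL'.c₂]
      exact hL'.pos hz'
  have hΦz : Φ z' = y₀ := by
    show X (xc n x ((xc n p).symm (Y₂' z'))) = y₀
    rw [hTz, hpx]
    exact hL.i₂.pull.diffeo.inv2 y₀ hy₀H
  have hΨy : Ψ y₀ = z' := by
    show X' (xc n p p) = z'
    rw [← hL'.c₂]
    exact hL'.i₂.pull.diffeo.inv2 z' hz'H
  have hnp := hL'.near hz'
  rw [show Th p Y₂' z' = p from hL'.thz] at hnp
  have hcomp : ∀ᶠ y in 𝓝 y₀, Φ (Ψ y) = y := by
    filter_upwards [hThc.tendsto.eventually hnp, Metric.isOpen_ball.mem_nhds hy₀] with y h1 h2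
    have h2H : y ∈ HB z r := by rw [hL.hb.1]; exact h2
    have k1 : Y₂' (Ψ y) = xc n p (Th x Y₂ y) := hL'.i₂.pull.diffeo.inv1 _ h1.2
    have k2 : (xc n p).symm (Y₂' (Ψ y)) = Th x Y₂ y := by
      rw [k1]
      exact (xc n p).left_inv h1.1
    have k3 : xc n x (Th x Y₂ y) = Y₂ y :=
      (xc n x).right_inv (hL.i₂.sub (hL.i₂.pull.diffeo.mapsY h2H))
    show X (xc n x ((xc n p).symm (Y₂' (Ψ y)))) = y
    rw [k2, k3]
    exact hL.i₂.pull.diffeo.inv2 y h2H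
  have hsur : Function.Surjective (fderiv ℝ Φ z') := by
    intro v
    have e1 : DifferentiableAt ℝ Ψ y₀ := cΨ.differentiableAt (by simp)
    have e2 : DifferentiableAt ℝ Φ (Ψ y₀) := by
      rw [hΨy]
      exact cΦ.differentiableAt (by simp)
    have e3 : HasFDerivAt (Φ ∘ Ψ) ((fderiv ℝ Φ (Ψ y₀)).comp (fderiv ℝ Ψ y₀)) y₀ :=
      e2.hasFDerivAt.comp y₀ e1.hasFDerivAt
    have e4 : HasFDerivAt (Φ ∘ Ψ) (ContinuousLinearMap.id ℝ (E n)) y₀ :=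
      (hasFDerivAt_id y₀).congr_of_eventuallyEq hcomp
    have e5 := e3.unique e4
    refine ⟨fderiv ℝ Ψ y₀ v, ?_⟩
    have e6 := congrArg (fun L : E n →L[ℝ] E n => L v) e5
    rw [hΨy] at e6
    exact e6
  have hO : {y | y ∈ Metric.ball z' r' ∧ Th p Y₂' y ∈ (xc n x).source ∧
      xc n x (Th p Y₂' y) ∈ D₂} ∈ 𝓝 z' := by
    filter_upwards [Metric.isOpen_ball.mem_nhds hz', hTt.eventually (hL.near hy₀)] with y h1 h2
    exact ⟨h1, h2.1, h2.2⟩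
  obtain ⟨c', ρ', hρ', hcz, hb⟩ := R2.H338.U4.touch_diffeo hc0 (cΦ.of_le (WithTop.coe_le_coe.2 (le_top : (2 : ℕ∞) ≤ ⊤)))
    hsur (c := c₀) (by rw [hΦz]) hO
  refine ⟨p, p', j1, s', t', z', r', W₁', W₂', D₁', D₂', Y₁', Y₂', hpV, hL', c', ρ', hρ', hcz,
    fun y hy => ?_⟩
  obtain ⟨⟨h1, h2, h3⟩, h4⟩ := hb y hy
  have h5 := (hcU h4).2
  have k1 : Y₂ (Φ y) = xc n x (Th p Y₂' y) := hL.i₂.pull.diffeo.inv1 _ h3
  have k2 : (xc n x).symm (Y₂ (Φ y)) = Th p Y₂' y := by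
    rw [k1]
    exact (xc n x).left_inv h2
  rw [k2] at h5
  exact ⟨h1, h5⟩

end

end Vale.Agent.P088.R2.H710
end
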