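import Vale.Agent.P088.R2.H710.S4.Fld
import Vale.Agent.P088.R2.H710.S4.Tch

/-!
# P088, stage 4: the local data on `V n` at a limit point
-/

open Bundle Manifold MeasureTheory Set Filter Topology
open scoped ContDiff Matrix

noncomputable section

set_option linter.all false

namespace Vale.Agent.P088.R2.H710

open Vale.Agent.P088 Vale.Agent.P088.EYM
open Vale.Agent.P088.LR (V MF pdm)
open Vale.Agent.P088.LR.U (MC)
open Vale.Agent.P088.PJ (TP kp)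
open Vale.Agent.P088.HY.T3 (Eb)
open Vale.Agent.P088.S4 (pdv MoV nv StpN L1 LP)
open Vale.Agent.P088.R2.H509.S3 (em me em_me me_em em_mp em_emb em_ball continuous_em Eb_open
  Eb_meas Eb_fin contDiff_me contDiff_em)
open Vale.Agent.P088.R2.H509 (HB_rel HB_meas)
open Vale.Agent.P088.R2.H850 (FW Tr TrV gE cpt ofE_app ofE_inj ofE_add ofE_sub ofE_one ofE_zero
  gE_smooth gg_sm)

universe u

theorem em0 {n : ℕ} (z : E n) : em z (0 : V n) = z := by
  show z + WithLp.toLp 2 (0 : V n) = z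
  rw [WithLp.toLp_zero, add_zero]

variable {n N : ℕ} [NeZero n] {M₁ M₂ : Type u}
  [TopologicalSpace M₁] [ChartedSpace (EuclideanHalfSpace n) M₁] [IsManifold (𝓡∂ n) ∞ M₁]
  [T2Space M₁] [CompactSpace M₁] [ConnectedSpace M₁] [MeasurableSpace M₁] [BorelSpace M₁]
  [TopologicalSpace M₂] [ChartedSpace (EuclideanHalfSpace n) M₂] [IsManifold (𝓡∂ n) ∞ M₂]
  [T2Space M₂] [CompactSpace M₂] [ConnectedSpace M₂] [MeasurableSpace M₂] [BorelSpace M₂]
  {P : One n N M₁} {Q : One n N M₂} {G : TM.Gl M₁ M₂} {Vs : Set M₂} {F : M₂ → M₁} {x : M₂}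
  {x' : M₁}
  {j0 : Fin N} {s : Fin N → (M₁ → Fib N) × (M₂ → Fib N)}
  {t : Fin n → Fin N → (M₁ → Fib N) × (M₂ → Fib N)} {z : E n} {r : ℝ} {W₁ W₂ : Model n N}
  {D₁ D₂ : Set (E n)} {Y₁ Y₂ : E n → E n}

theorem LimP.tr₁ (h : LimP P Q G Vs F x x' j0 s t z r W₁ W₂ D₁ D₂ Y₁ Y₂) {R : ℝ} (hR : 0 < R)
    (hRr : R ≤ r) (a : Fin n) :
    Tr z (Eb (0 : V n) R) (HB z R) (mE (yE x' Y₁ (fun j => (s j).1) fun k => (t a k).1) z)
      (yE x' Y₁ (fun j => (s j).1) fun k => (t a k).1) := by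
  refine trE' hR (hRr.trans h.rz) ((h.i₁.yE_smooth h.rz fun k => ?_).mono ?_)
  · obtain ⟨f₁, f₂, -, h1, h2⟩ := h.mt a k
    exact h1.smooth
  · exact inter_subset_left.trans (Metric.ball_subset_ball hRr)

theorem LimP.tr₂ (h : LimP P Q G Vs F x x' j0 s t z r W₁ W₂ D₁ D₂ Y₁ Y₂) {R : ℝ} (hR : 0 < R)
    (hRr : R ≤ r) (a : Fin n) :
    Tr z (Eb (0 : V n) R) (HB z R) (mE (yE x Y₂ (fun j => (s j).2) fun k => (t a k).2) z)
      (yE x Y₂ (fun j => (s j).2) fun k => (t a k).2) := by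
  refine trE' hR (hRr.trans h.rz) ((h.i₂.yE_smooth h.rz fun k => ?_).mono ?_)
  · obtain ⟨f₁, f₂, -, h1, h2⟩ := h.mt a k
    exact h2.smooth
  · exact inter_subset_left.trans (Metric.ball_subset_ball hRr)

theorem LimP.yeq (h : LimP P Q G Vs F x x' j0 s t z r W₁ W₂ D₁ D₂ Y₁ Y₂) {y : E n}
    (hy : y ∈ mp Vs x Y₂ z r) (a : Fin n) :
    yE x' Y₁ (fun j => (s j).1) (fun k => (t a k).1) y =
      yE x Y₂ (fun j => (s j).2) (fun k => (t a k).2) y := by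
  refine endF_ext fun k => ?_
  show yE x' Y₁ (fun j => (s j).1) (fun k => (t a k).1) y (eN N k) =
    yE x Y₂ (fun j => (s j).2) (fun k => (t a k).2) y (eN N k)
  rw [yE_eN, yE_eN]
  exact h.sol _ (h.mt a k) y hy.1 hy.2

/-- **The data of `RowCORE4`.** -/
theorem LimP.lp (h : LimP P Q G Vs F x x' j0 s t z r W₁ W₂ D₁ D₂ Y₁ Y₂) (hG : G.Ok n N)
    (hN : 0 < N) {R : ℝ} (hR : 0 < R) (hRr : R ≤ r) :
    LP (Eb (0 : V n) R) (em z ⁻¹' mp Vs x Y₂ z r)ᶜ j0 (sE W₂.toLD z) (sE W₁.toLD z)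
      (mE W₂.h z) (mE W₁.h z) (fun i => mE (gE W₂.toLD i) z) (fun i => mE (gE W₁.toLD i) z)
      (fun a => mE (yE x Y₂ (fun j => (s j).2) fun k => (t a k).2) z)
      (fun a y => mE (yE x' Y₁ (fun j => (s j).1) fun k => (t a k).1) z y -
        mE (yE x Y₂ (fun j => (s j).2) fun k => (t a k).2) z y) := by
  have hz : R ≤ z 0 := hRr.trans h.rz
  have hb₁ := cClosed_bdry hG.rel₁ hG.ne₁
  have hb₂ := cClosed_bdry hG.rel₂ hG.ne₂
  have hsub : HB z R ⊆ HB z r := CRel1_HB_mono z hRr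
  have hbb : HB z R ⊆ Metric.ball z r := inter_subset_left.trans (Metric.ball_subset_ball hRr)
  have hm := mapsE (n := n) hR hz
  have hO := Eb_open (n := n) R
  have hD := HB_rel z R
  have ok₁ : W₁.toLD.Ok (HB z R) := bmodel_ok_mono h.i₁.mod.ok hsub
  have ok₂ : W₂.toLD.Ok (HB z R) := bmodel_ok_mono h.i₂.mod.ok hsub
  have fr₁ : ∀ v : Fib N, Sol W₁.toLD (HB z R) (fun _ => v) := fun v =>
    bmodel_sol_mono (h.i₁.mod.frame v) hsub
  have fr₂ : ∀ v : Fib N, Sol W₂.toLD (HB z R) (fun _ => v) := fun v =>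
    bmodel_sol_mono (h.i₂.mod.frame v) hsub
  have F₁ := fwE hR hz ok₁
  have F₂ := fwE hR hz ok₂
  have l1 : ∀ {W : Model n N} (ok : W.toLD.Ok (HB z R)) (fr : ∀ v, Sol W.toLD (HB z R) (fun _ => v))
      (Fw : FW W.toLD z (Eb (0 : V n) R) (HB z R) (sE W.toLD z) (mE W.h z)
        (fun i => mE (gE W.toLD i) z)),
      L1 (Eb (0 : V n) R) (Eb (0 : V n) R ∩ (em z ⁻¹' mp Vs x Y₂ z r)ᶜ) (sE W.toLD z) (mE W.h z)
        (fun i => mE (gE W.toLD i) z) := fun ok fr Fw =>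
    Fw.l1 hO hD ok fr inter_subset_left (fun y hy => hm hy.1) (fun y hy => Fw.ps ok hy (hm hy))
      (fun y hy => Fw.hP ok hy (hm hy)) (fun y hy v hv => Fw.pP ok hy (hm hy) hv)
      (fun i y hy => Fw.hG ok i hy (hm hy))
  have so₁ : ∀ a, ∀ v : Fib N, Sol W₁.toLD (HB z R)
      (fun y => yE x' Y₁ (fun j => (s j).1) (fun k => (t a k).1) y v) := fun a v =>
    bmodel_sol_mono (h.i₁.yE_sol hN hb₁ h.rz (fun k => by
      obtain ⟨f₁, f₂, -, h1, h2⟩ := h.mt a k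
      exact ⟨f₁, h1⟩) v) hbb
  have so₂ : ∀ a, ∀ v : Fib N, Sol W₂.toLD (HB z R)
      (fun y => yE x Y₂ (fun j => (s j).2) (fun k => (t a k).2) y v) := fun a v =>
    bmodel_sol_mono (h.i₂.yE_sol hN hb₂ h.rz (fun k => by
      obtain ⟨f₁, f₂, -, h1, h2⟩ := h.mt a k
      exact ⟨f₂, h2⟩) v) hbb
  have hmem : ∀ y ∈ Eb (0 : V n) R, y ∉ (em z ⁻¹' mp Vs x Y₂ z r)ᶜ →
      em z y ∈ mp Vs x Y₂ z r := fun y _ hy => not_not.1 hy
  exact
    { d₁ := l1 ok₂ fr₂ F₂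
      d₂ := l1 ok₁ fr₁ F₁
      sY := fun a => (h.tr₂ hR hRr a).sm
      sD := fun a => ((h.tr₁ hR hRr a).sub (h.tr₂ hR hRr a)).sm
      os := fun y hy hyK => by
        have e := h.eq.g _ (hmem y hy hyK)
        ext i j
        show gg W₁.g i j (em z y) = gg W₂.g i j (em z y)
        unfold gg
        rw [e]
      oP := fun y hy hyK => congrArg S.ofE (h.eq.h _ (hmem y hy hyK))
      oG := fun i y hy hyK => by
        have e1 := h.eq.h _ (hmem y hy hyK)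
        have e2 := h.eq.B _ (hmem y hy hyK)
        refine congrArg S.ofE ?_
        unfold gE
        rw [e1, e2 i]
      oD := fun a y hy hyK => sub_eq_zero.2 (congrArg S.ofE (h.yeq (hmem y hy hyK) a))
      tD := fun a y hy => by
        have hy' : em z y ∈ Metric.ball z r := hbb (hm hy)
        have hyH : em z y ∈ HB z r := hsub (hm hy)
        show ((yE x' Y₁ (fun j => (s j).1) (fun k => (t a k).1) (em z y) (eN N j0)) j0 -
          (yE x Y₂ (fun j => (s j).2) (fun k => (t a k).2) (em z y) (eN N j0)) j0).re = 0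
        rw [yE_eN, yE_eN, ← h.i₁.c_cu h.rz hy' a, ← h.i₂.c_cu h.rz hy' a, Complex.sub_re,
          h.i₁.mod.re a _ hyH, h.i₂.mod.re a _ hyH, sub_self]
      hY := fun a y hy => F₂.mo hO hD ok₂ fr₂ (h.tr₂ hR hRr a) (so₂ a) hy.1 (hm hy.1)
      gi := fun a y hy => by
        simp only [add_sub_cancel]
        exact F₁.mo hO hD ok₁ fr₁ (h.tr₁ hR hRr a) (so₁ a) hy.1 (hm hy.1) }

end Vale.Agent.P088.R2.H710
end
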