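import Vale.Agent.P088.R2.H710.S4.Step4

/-!
# P088, stage 4: the normalisation on the second side, by continuity
-/

open Bundle Manifold MeasureTheory Set Filter Topology
open scoped ContDiff

noncomputable section

set_option linter.all false

namespace Vale.Agent.P088.R2.H710

open Vale.Agent.P088 Vale.Agent.P088.EYM Vale.Agent.P088.R2.H509.S3
open Vale.Agent.P088.EYM.Q (IsMod)

universe u

theorem eq_of_cl {X Y : Type*} [TopologicalSpace X] [TopologicalSpace Y] [T2Space Y]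
    {f g : X → Y} {B U : Set X} {z : X} (hB : IsOpen B) (hz : z ∈ B) (hf : ContinuousOn f B)
    (hg : ContinuousOn g B) (hcl : z ∈ closure U) (he : ∀ y ∈ U, f y = g y) : f z = g z := by
  haveI : (𝓝[U] z).NeBot := mem_closure_iff_nhdsWithin_neBot.1 hcl
  have h1 : Tendsto f (𝓝[U] z) (𝓝 (f z)) :=
    (hf.continuousAt (hB.mem_nhds hz)).tendsto.mono_left nhdsWithin_le_nhds
  have h2 : Tendsto g (𝓝[U] z) (𝓝 (g z)) :=
    (hg.continuousAt (hB.mem_nhds hz)).tendsto.mono_left nhdsWithin_le_nhds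
  refine tendsto_nhds_unique h1 (h2.congr' ?_)
  filter_upwards [self_mem_nhdsWithin] with y hy using (he y hy).symm

section

variable {n N : ℕ} [NeZero n] {M₁ M₂ : Type u}
  [TopologicalSpace M₁] [ChartedSpace (EuclideanHalfSpace n) M₁] [IsManifold (𝓡∂ n) ∞ M₁]
  [T2Space M₁] [CompactSpace M₁] [ConnectedSpace M₁] [MeasurableSpace M₁] [BorelSpace M₁]
  [TopologicalSpace M₂] [ChartedSpace (EuclideanHalfSpace n) M₂] [IsManifold (𝓡∂ n) ∞ M₂]
  [T2Space M₂] [CompactSpace M₂] [ConnectedSpace M₂] [MeasurableSpace M₂] [BorelSpace M₂]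
  {P : One n N M₁} {Q : One n N M₂} {G : TM.Gl M₁ M₂} {V : Set M₂} {F : M₂ → M₁} {x : M₂} {x' : M₁}
  {j0 : Fin N} {s : Fin N → (M₁ → Fib N) × (M₂ → Fib N)}
  {t : Fin n → Fin N → (M₁ → Fib N) × (M₂ → Fib N)} {z : E n} {r : ℝ} {W₁ W₂ : Model n N}
  {D₁ D₂ : Set (E n)} {Y₁ Y₂ : E n → E n}

theorem LimP.norm₂ (h : LimP P Q G V F x x' j0 s t z r W₁ W₂ D₁ D₂ Y₁ Y₂) (hV : IsOpen V) :
    W₂.g z = 1 ∧ W₂.h z = 1 ∧ ∀ a j i, pd i (cu x Y₂ (fun j => (s j).2) (t a j).2) z =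
      if a = i then EuclideanSpace.single j 1 else 0 := by
  obtain ⟨hHB, hpos⟩ := h.hb
  have hz : z ∈ Metric.ball z r := Metric.mem_ball_self h.r0
  have hcl := h.mp_closure h.cl
  have ho₁ : W₁.toLD.Ok (Metric.ball z r) := hHB ▸ h.i₁.mod.ok
  have ho₂ : W₂.toLD.Ok (Metric.ball z r) := hHB ▸ h.i₂.mod.ok
  refine ⟨?_, ?_, fun a j i => ?_⟩
  · rw [← h.ng]
    ext i j
    exact (eq_of_cl Metric.isOpen_ball hz (ho₁.g_smooth i j).continuousOn
      (ho₂.g_smooth i j).continuousOn hcl fun y hy =>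
        congrFun (congrFun (h.eq.g y hy) i) j).symm
  · rw [← h.nh]
    exact (eq_of_cl Metric.isOpen_ball hz ho₁.h_smooth.continuousOn ho₂.h_smooth.continuousOn hcl
      fun y hy => h.eq.h y hy).symm
  · rw [← h.nt a j i]
    obtain ⟨f₁, f₂, -, h1, h2⟩ := h.mt a j
    have hbs : Metric.ball z r ⊆ Hs n := fun y hy => le_of_lt (show 0 < y 0 from hpos hy)
    have hR : RelOpen (Metric.ball z r) :=
      ⟨Metric.ball z r, Metric.isOpen_ball, (inter_eq_left.2 hbs).symm⟩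
    have hRm : RelOpen (mp V x Y₂ z r) :=
      ⟨mp V x Y₂ z r, h.mp_open hV, (inter_eq_left.2 fun y hy => hbs hy.1).symm⟩
    have s1 := (h.i₁.cu_sol h.rz h1).1
    have s2 := (h.i₂.cu_sol h.rz h2).1
    refine (eq_of_cl Metric.isOpen_ball hz (hR.pd_smooth s1 i).continuousOn
      (hR.pd_smooth s2 i).continuousOn hcl fun y hy => ?_).symm
    exact hRm.pd_congr (fun y hy => h.sol _ (h.mt a j) y hy.1 hy.2) hy i

end

end Vale.Agent.P088.R2.H710
end
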