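import Vale.Agent.P088.R2.H710.S4.Step4

/-!
# P088, stage 4: the transfer, relaxed form
-/

open Bundle Manifold MeasureTheory Set Filter Topology
open scoped ContDiff

noncomputable section

set_option linter.all false

namespace Vale.Agent.P088.R2.H710

open Vale.Agent.P088 Vale.Agent.P088.EYM Vale.Agent.P088.EYM.O
open Vale.Agent.P088.R2.H338 (thP)

universe u

section cut

variable {X : Type*} [MetricSpace X] [ProperSpace X] [MeasurableSpace X] [BorelSpace X]
  {μ : Measure X}

/-- The integral over the complement of a compact subset is small. -/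
theorem exh {Ω : Set X} (hΩ : IsOpen Ω) (hb : Bornology.IsBounded Ω) {F : X → ℝ}
    (hF : IntegrableOn F Ω μ) {η : ℝ} (hη : 0 < η) :
    ∃ K ⊆ Ω, IsCompact K ∧ ∫ y in Ω \ K, F y ∂μ < η := by
  set T : ℕ → Set X := fun m => Metric.thickening (1 / ((m : ℝ) + 1)) Ωᶜ with hT
  have h1 : Antitone fun m => Ω ∩ T m := by
    intro a b hab
    refine inter_subset_inter_right _ (Metric.thickening_mono ?_ _)
    have : (a : ℝ) ≤ b := by exact_mod_cast hab
    exact one_div_le_one_div_of_le (by positivity) (by linarith)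
  have h2 : ⋂ m, (Ω ∩ T m) = ∅ := by
    rw [eq_empty_iff_forall_notMem]
    intro y hy
    rw [mem_iInter] at hy
    obtain ⟨ε, hε, hεs⟩ := Metric.isOpen_iff.1 hΩ y (hy 0).1
    obtain ⟨m, hm⟩ := exists_nat_one_div_lt hε
    obtain ⟨w, hw, hwd⟩ := Metric.mem_thickening_iff.1 (hy m).2
    refine hw (hεs ?_)
    rw [Metric.mem_ball, dist_comm]
    exact hwd.trans hm
  have h3 := tendsto_setIntegral_of_antitone (μ := μ) (f := F) (s := fun m => Ω ∩ T m)
    (fun m => hΩ.measurableSet.inter Metric.isOpen_thickening.measurableSet) h1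
    ⟨0, hF.mono_set inter_subset_left⟩
  rw [h2] at h3
  simp only [Measure.restrict_empty, integral_zero_measure] at h3
  obtain ⟨m, hm⟩ := (h3.eventually (gt_mem_nhds hη)).exists
  have hKΩ : (T m)ᶜ ⊆ Ω := by
    intro y hy
    by_contra h
    exact hy (Metric.self_subset_thickening (by positivity) _ h)
  refine ⟨(T m)ᶜ, hKΩ, ?_, ?_⟩
  · exact (Metric.isCompact_of_isClosed_isBounded Metric.isOpen_thickening.isClosed_compl
      (hb.subset hKΩ))
  · rw [diff_compl]
    exact hm

/-- A cut-off function. -/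
theorem exists_cut {Ω K : Set X} (hΩ : IsOpen Ω) (hb : Bornology.IsBounded Ω) (hK : IsCompact K)
    (hKΩ : K ⊆ Ω) : ∃ χ : X → ℝ, Continuous χ ∧ HasCompactSupport χ ∧ tsupport χ ⊆ Ω ∧
      (∀ y, 0 ≤ χ y) ∧ (∀ y, χ y ≤ 1) ∧ ∀ y ∈ K, χ y = 1 := by
  obtain ⟨δ, hδ, hs⟩ := hK.exists_cthickening_subset_open hΩ hKΩ
  obtain ⟨f, h0, h1, h01⟩ := exists_continuous_zero_one_of_isClosed
    (Metric.isOpen_thickening (δ := δ) (E := K)).isClosed_compl hK.isClosed (by
      rw [disjoint_left]
      intro y hy hyK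
      exact hy (Metric.self_subset_thickening hδ _ hyK))
  have h2 : tsupport f ⊆ Ω := by
    refine (closure_minimal ?_ Metric.isClosed_cthickening).trans hs
    intro y hy
    refine Metric.thickening_subset_cthickening _ _ ?_
    by_contra h
    exact hy (h0 h)
  refine ⟨f, f.continuous, ?_, h2, fun y => (h01 y).1, fun y => (h01 y).2, fun y hy => h1 hy⟩
  exact Metric.isCompact_of_isClosed_isBounded (isClosed_tsupport _) (hb.subset h2)

end cut

/-- The transfer property, relaxed. -/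
def TrI {n N : ℕ} [NeZero n] (L₁ L₂ : LD n N) (z : E n) (r₀ r : ℝ) (U : Set (E n)) : Prop :=
  ∃ C₀ : ℝ, 0 ≤ C₀ ∧ ∀ (d : ℕ) (f : Fin d → E n → Fib N), (∀ q, ContDiff ℝ ∞ (f q)) →
    (∀ q, HasCompactSupport (f q)) → (∀ q, tsupport (f q) ⊆ Metric.ball z r) → ∀ ε : ℝ, 0 < ε →
    ∃ v w : Fin d → E n → Fib N, (∀ q, Sol L₁ (Metric.ball z r₀) (v q)) ∧
      (∀ q, Sol L₂ (Metric.ball z r₀) (fun y => v q y + w q y)) ∧
      (∀ q, ∀ y ∈ U, w q y = 0) ∧ ∀ c : Fin d → ℝ,
        (∫ y in Metric.ball z r \ U, hN (fun y => ∑ q, c q • (f q y - v q y)) y) ≤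
          C₀ * (∫ y in Metric.ball z r \ U, ‖∑ q, c q • L₁.h y (Lop L₁ (f q) y)‖ ^ 2) +
            ε * (∑ q, c q ^ 2) ∧
        (∫ y in Metric.ball z r, hN (fun y => ∑ q, c q • w q y) y) ≤
          C₀ * ((∫ y in Metric.ball z r \ U, hN (fun y => ∑ q, c q • f q y) y) +
            (∫ y in Metric.ball z r \ U, ‖∑ q, c q • L₁.h y (Lop L₁ (f q) y)‖ ^ 2)) +
            ε * (∑ q, c q ^ 2)

theorem norm_comb_sq {d N : ℕ} (c : Fin d → ℝ) (v : Fin d → Fib N) :
    ‖∑ q, c q • v q‖ ^ 2 ≤ (∑ q, c q ^ 2) * ∑ q, ‖v q‖ ^ 2 := by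
  have h1 : ‖∑ q, c q • v q‖ ≤ ∑ q, |c q| * ‖v q‖ := by
    refine (norm_sum_le _ _).trans (le_of_eq (Finset.sum_congr rfl fun q _ => ?_))
    rw [norm_smul, Real.norm_eq_abs]
  have h2 := Finset.sum_mul_sq_le_sq_mul_sq Finset.univ (fun q => |c q|) (fun q => ‖v q‖)
  simp only [sq_abs] at h2
  exact (pow_le_pow_left₀ (norm_nonneg _) h1 2).trans h2

section

variable {n N : ℕ} [NeZero n] {M₁ M₂ : Type u}
  [TopologicalSpace M₁] [ChartedSpace (EuclideanHalfSpace n) M₁] [IsManifold (𝓡∂ n) ∞ M₁]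
  [T2Space M₁] [CompactSpace M₁] [ConnectedSpace M₁] [MeasurableSpace M₁] [BorelSpace M₁]
  [TopologicalSpace M₂] [ChartedSpace (EuclideanHalfSpace n) M₂] [IsManifold (𝓡∂ n) ∞ M₂]
  [T2Space M₂] [CompactSpace M₂] [ConnectedSpace M₂] [MeasurableSpace M₂] [BorelSpace M₂]
  {P : One n N M₁} {Q : One n N M₂} {G : TM.Gl M₁ M₂} {V : Set M₂} {F : M₂ → M₁} {x : M₂} {x' : M₁}
  {j0 : Fin N} {s : Fin N → (M₁ → Fib N) × (M₂ → Fib N)}
  {t : Fin n → Fin N → (M₁ → Fib N) × (M₂ → Fib N)} {z : E n} {r : ℝ} {W₁ W₂ : Model n N}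
  {D₁ D₂ : Set (E n)} {Y₁ Y₂ : E n → E n}

/-- The transfer, relaxed. -/
theorem LimP.rlx (h : LimP P Q G V F x x' j0 s t z r W₁ W₂ D₁ D₂ Y₁ Y₂) (hG : G.Ok n N)
    (hS : TM.SameD P Q G) (hV : IsOpen V) (hVc : IsPreconnected V) (hVΓ : (V ∩ G.Γ₂).Nonempty)
    {H : M₂ → EndF N} (hm : TM.WMatch P Q G V F H) {r' : ℝ} (hr' : 0 < r') (hrr : r' < r) :
    TrI W₂.toLD W₁.toLD z r r' (mp V x Y₂ z r) := by
  obtain ⟨C, hC, hst⟩ := h.step4 hG hS hV hVc hVΓ hm hr' hrr (D := Metric.ball z r')
    measurableSet_ball subset_rfl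
  obtain ⟨hHB, hpos⟩ := h.hb
  have hCB : Metric.closedBall z r' ⊆ Metric.ball z r := Metric.closedBall_subset_ball hrr
  have hBr : Metric.ball z r' ⊆ Metric.ball z r := Metric.ball_subset_ball hrr.le
  have hrel : RelOpen (Metric.ball z r) := hHB ▸ cClosed_relOpen_HB z r
  have hok : W₂.toLD.Ok (Metric.ball z r) := by rw [← hHB]; exact h.i₂.mod.ok
  obtain ⟨m, M, hm0, -, hmM⟩ := APoin_h_bd hok (isCompact_closedBall z r') hCB
  have hmp : IsOpen (mp V x Y₂ z r) := h.mp_open hV
  set U := mp V x Y₂ z r with hU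
  set Ω : Set (E n) := Metric.ball z r' ∩ U with hΩd
  have hΩ : IsOpen Ω := Metric.isOpen_ball.inter hmp
  have hΩb : Bornology.IsBounded Ω := Metric.isBounded_ball.subset inter_subset_left
  refine ⟨C * m⁻¹ ^ 2 + C, by positivity, fun d f hf hfc hfD ε hε => ?_⟩
  -- the extended operator
  set Fq : Fin d → E n → Fib N := fun q => (Metric.ball z r).indicator (Lop W₂.toLD (f q)) with hFq
  have hLz : ∀ q, ∀ y ∈ Metric.ball z r, y ∉ tsupport (f q) → Lop W₂.toLD (f q) y = 0 := by
    intro q y hy hyn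
    have h4 : RelOpen ((tsupport (f q))ᶜ ∩ Metric.ball z r) := by
      refine ⟨(tsupport (f q))ᶜ ∩ Metric.ball z r,
        (isClosed_tsupport _).isOpen_compl.inter Metric.isOpen_ball, ?_⟩
      refine (inter_eq_left.2 fun x hx => ?_).symm
      exact le_of_lt (show 0 < x 0 from hpos hx.2)
    exact CRungeC_Lop_zero h4 (fun x hx => image_eq_zero_of_notMem_tsupport hx.1) ⟨hyn, hy⟩
  have hF0 : ∀ q, ∀ y, y ∉ tsupport (f q) → Fq q y = 0 := by
    intro q y hy
    by_cases hyb : y ∈ Metric.ball z r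
    · rw [hFq]
      show (Metric.ball z r).indicator (Lop W₂.toLD (f q)) y = 0
      rw [indicator_of_mem hyb]
      exact hLz q y hyb hy
    · exact indicator_of_notMem hyb _
  have hFb : ∀ q, ∀ y ∈ Metric.ball z r, Fq q y = Lop W₂.toLD (f q) y := fun q y hy =>
    indicator_of_mem hy _
  have hFc : ∀ q, Continuous (Fq q) := by
    intro q
    rw [continuous_iff_continuousAt]
    intro y
    by_cases hy : y ∈ Metric.ball z r
    · have h1 : ContinuousOn (Lop W₂.toLD (f q)) (Metric.ball z r) :=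
        (CHarm_Lop_smooth hrel hok (hf q).contDiffOn).continuousOn
      have h2 := h1.continuousAt (Metric.isOpen_ball.mem_nhds hy)
      refine h2.congr ?_
      filter_upwards [Metric.isOpen_ball.mem_nhds hy] with x hx using (hFb q x hx).symm
    · have h1 : (tsupport (f q))ᶜ ∈ 𝓝 y :=
        (isClosed_tsupport _).isOpen_compl.mem_nhds fun h => hy (hBr (hfD q h))
      refine (continuousAt_const (y := (0 : Fib N))).congr ?_
      filter_upwards [h1] with x hx using (hF0 q x hx).symm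
  have hFts : ∀ q, tsupport (Fq q) ⊆ tsupport (f q) := fun q =>
    closure_minimal (fun y hy => by
      by_contra h1
      exact hy (hF0 q y h1)) (isClosed_tsupport _)
  have hFk : ∀ q, HasCompactSupport (Fq q) := fun q =>
    (hfc q).of_isClosed_subset (isClosed_tsupport _) (hFts q)
  -- the cut-off
  set S : E n → ℝ := fun y => ∑ q, ‖Fq q y‖ ^ 2 with hSd
  have hS0 : ∀ y, 0 ≤ S y := fun y => Finset.sum_nonneg fun q _ => sq_nonneg _
  have hSc : Continuous S := continuous_finsetSum _ fun q _ => (hFc q).norm.pow 2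
  have hSi : IntegrableOn S (Metric.ball z r') :=
    (hSc.continuousOn.integrableOn_compact (isCompact_closedBall z r')).mono_set
      Metric.ball_subset_closedBall
  obtain ⟨η, hη, hηε⟩ : ∃ η : ℝ, 0 < η ∧ C * η ≤ ε / 2 := by
    refine ⟨ε / (2 * (C + 1)), by positivity, ?_⟩
    rw [mul_div_assoc', div_le_div_iff₀ (by positivity) (by norm_num)]
    nlinarith
  obtain ⟨K, hKΩ, hK, hKη⟩ := exh hΩ hΩb (hSi.mono_set inter_subset_left) hη
  obtain ⟨χ, χc, χk, χs, χ0, χ1, χK⟩ := exists_cut hΩ hΩb hK hKΩ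
  have c1 : ∀ q, Continuous fun y => χ y • Fq q y := fun q => χc.smul (hFc q)
  have c2 : ∀ q, Continuous fun y => (1 - χ y) • Fq q y := fun q =>
    (continuous_const.sub χc).smul (hFc q)
  have s1 : ∀ q, tsupport (fun y => χ y • Fq q y) ⊆ tsupport χ := fun q =>
    closure_minimal (fun y hy => by
      refine subset_tsupport _ ?_
      rw [Function.mem_support] at hy ⊢
      intro h0
      exact hy (by rw [h0, zero_smul])) (isClosed_tsupport _)
  have s2 : ∀ q, tsupport (fun y => (1 - χ y) • Fq q y) ⊆ tsupport (Fq q) := fun q =>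
    closure_minimal (fun y hy => by
      refine subset_tsupport _ ?_
      rw [Function.mem_support] at hy ⊢
      intro h0
      exact hy (by rw [h0, smul_zero])) (isClosed_tsupport _)
  obtain ⟨v, w, hv, hvw, hw, hest⟩ := hst d f (fun q y => χ y • Fq q y)
    (fun q y => (1 - χ y) • Fq q y) hf hfc hfD c1
    (fun q => χk.of_isClosed_subset (isClosed_tsupport _) (s1 q))
    (fun q y hy => by
      have h1 := χs (s1 q hy)
      exact ⟨Metric.ball_subset_closedBall h1.1, h1.2.2⟩) c2
    (fun q => (hFk q).of_isClosed_subset (isClosed_tsupport _) (s2 q))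
    (fun q y hy => by
      rw [← add_smul, add_sub_cancel, one_smul]
      exact (hFb q y hy).symm) (ε / 2) (by positivity)
  refine ⟨v, w, hv, hvw, hw, fun c => ?_⟩
  obtain ⟨e1, e2⟩ := hest c
  set A : ℝ := ∑ q, c q ^ 2 with hA
  have hA0 : 0 ≤ A := Finset.sum_nonneg fun q _ => sq_nonneg _
  set I : ℝ := ∫ y, ‖∑ q, c q • ((1 - χ y) • Fq q y)‖ ^ 2 with hI
  set J : ℝ := ∫ y in Metric.ball z r' \ U, ‖∑ q, c q • W₂.h y (Lop W₂.toLD (f q) y)‖ ^ 2 with hJ
  have hJ0 : 0 ≤ J := integral_nonneg fun y => sq_nonneg _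
  -- the main bound
  have hIJ : I ≤ m⁻¹ ^ 2 * J + η * A := by
    set g : E n → ℝ := fun y => ‖∑ q, c q • ((1 - χ y) • Fq q y)‖ ^ 2 with hg
    have hgc : Continuous g :=
      (continuous_finsetSum _ fun q _ => (c2 q).const_smul (c q)).norm.pow 2
    have hgi : IntegrableOn g (Metric.ball z r') :=
      (hgc.continuousOn.integrableOn_compact (isCompact_closedBall z r')).mono_set
        Metric.ball_subset_closedBall
    have hI1 : I = ∫ y in Metric.ball z r', g y := by
      rw [hI]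
      refine (setIntegral_eq_integral_of_forall_compl_eq_zero fun y hy => ?_).symm
      show ‖∑ q, c q • ((1 - χ y) • Fq q y)‖ ^ 2 = 0
      have h1 : ∀ q, Fq q y = 0 := fun q => hF0 q y fun h2 => hy (hfD q h2)
      simp [h1]
    have hI2 : ∫ y in Metric.ball z r', g y =
        (∫ y in Metric.ball z r' \ U, g y) + ∫ y in Ω, g y := by
      have h1 := setIntegral_union (μ := volume) (f := g)
        (s := Metric.ball z r' \ U) (t := Ω) (by
          rw [disjoint_left]
          exact fun y hy hy' => hy.2 hy'.2) hΩ.measurableSet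
        (hgi.mono_set diff_subset) (hgi.mono_set inter_subset_left)
      rw [← h1, diff_union_inter]
    have hlin : ∀ y ∈ Metric.ball z r, ∑ q, c q • W₂.h y (Lop W₂.toLD (f q) y) =
        W₂.h y (∑ q, c q • Fq q y) := by
      intro y hy
      rw [endF_sum]
      exact Finset.sum_congr rfl fun q _ => by rw [hFb q y hy]
    have hhc : ContinuousOn (fun y => W₂.h y (∑ q, c q • Fq q y)) (Metric.ball z r) := by
      have h1 : ContinuousOn (fun y => ∑ q, c q • Lop W₂.toLD (f q) y) (Metric.ball z r) :=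
        continuousOn_finsetSum _ fun q _ =>
          ((CHarm_Lop_smooth hrel hok (hf q).contDiffOn).continuousOn).const_smul (c q)
      have h2 : ContDiffOn ℝ ∞ (fun y => ∑ q, c q • Lop W₂.toLD (f q) y) (Metric.ball z r) :=
        ContDiffOn.sum fun q _ => (CHarm_Lop_smooth hrel hok (hf q).contDiffOn).const_smul (c q)
      refine ((smooth_eval hok.h_smooth h2).continuousOn).congr fun y hy => ?_
      congr 1
      exact Finset.sum_congr rfl fun q _ => by rw [hFb q y hy]
    have b1 : ∫ y in Metric.ball z r' \ U, g y ≤ m⁻¹ ^ 2 * J := by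
      rw [hJ, ← integral_const_mul]
      refine setIntegral_mono_on (hgi.mono_set diff_subset) ?_
        (measurableSet_ball.diff hmp.measurableSet) fun y hy => ?_
      · refine Integrable.const_mul ?_ _
        have h1 : IntegrableOn (fun y => ‖W₂.h y (∑ q, c q • Fq q y)‖ ^ 2)
            (Metric.ball z r' \ U) :=
          (((hhc.mono hCB).norm.pow 2).integrableOn_compact (isCompact_closedBall z r')).mono_set
            (diff_subset.trans Metric.ball_subset_closedBall)
        refine h1.congr_fun (fun y hy => ?_) (measurableSet_ball.diff hmp.measurableSet)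
        show ‖W₂.h y (∑ q, c q • Fq q y)‖ ^ 2 = ‖∑ q, c q • W₂.h y (Lop W₂.toLD (f q) y)‖ ^ 2
        rw [hlin y (hBr hy.1)]
      · have hχ : χ y = 0 := image_eq_zero_of_notMem_tsupport fun h1 => hy.2 (χs h1).2
        rw [hlin y (hBr hy.1)]
        show ‖∑ q, c q • ((1 - χ y) • Fq q y)‖ ^ 2 ≤ _
        simp only [hχ, sub_zero, one_smul]
        set b := ∑ q, c q • Fq q y with hb
        have h1 := (hmM y (Metric.ball_subset_closedBall hy.1)).2 b
        have h2 : (inner ℂ b (W₂.h y b) : ℂ).re ≤ ‖b‖ * ‖W₂.h y b‖ :=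
          (Complex.re_le_norm _).trans (norm_inner_le_norm _ _)
        have h3 : m * ‖b‖ ≤ ‖W₂.h y b‖ := by
          rcases eq_or_lt_of_le (norm_nonneg b) with h0 | h0
          · rw [← h0, mul_zero]; exact norm_nonneg _
          · have h4 : ‖b‖ * (m * ‖b‖) ≤ ‖b‖ * ‖W₂.h y b‖ := by nlinarith
            exact le_of_mul_le_mul_left h4 h0
        have h5 : ‖b‖ ≤ m⁻¹ * ‖W₂.h y b‖ := by
          rw [← div_eq_inv_mul, le_div_iff₀ hm0, mul_comm]
          exact h3
        calc ‖b‖ ^ 2 ≤ (m⁻¹ * ‖W₂.h y b‖) ^ 2 := pow_le_pow_left₀ (norm_nonneg _) h5 2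
          _ = _ := by ring
    have b2 : ∫ y in Ω, g y ≤ η * A := by
      have h1 : ∫ y in Ω, g y ≤ ∫ y in Ω, (Ω \ K).indicator (fun y => A * S y) y := by
        refine setIntegral_mono_on (hgi.mono_set inter_subset_left) ?_ hΩ.measurableSet
          fun y hy => ?_
        · exact (((hSi.mono_set inter_subset_left).const_mul A).indicator
            (hΩ.measurableSet.diff hK.isClosed.measurableSet))
        · by_cases hyK : y ∈ K
          · rw [indicator_of_notMem fun h2 => h2.2 hyK]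
            show ‖∑ q, c q • ((1 - χ y) • Fq q y)‖ ^ 2 ≤ 0
            rw [χK y hyK]
            simp
          · rw [indicator_of_mem (show y ∈ Ω \ K from ⟨hy, hyK⟩)]
            refine (norm_comb_sq c _).trans (mul_le_mul_of_nonneg_left ?_ hA0)
            refine Finset.sum_le_sum fun q _ => ?_
            rw [norm_smul, Real.norm_eq_abs, abs_of_nonneg (sub_nonneg.2 (χ1 y))]
            refine pow_le_pow_left₀ (mul_nonneg (sub_nonneg.2 (χ1 y)) (norm_nonneg _)) ?_ 2
            refine mul_le_of_le_one_left (norm_nonneg _) ?_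
            linarith [χ0 y]
      rw [setIntegral_indicator (hΩ.measurableSet.diff hK.isClosed.measurableSet),
        inter_eq_right.2 diff_subset, integral_const_mul] at h1
      nlinarith [hKη.le]
    rw [hI1, hI2]
    linarith
  have hCI : C * I ≤ C * m⁻¹ ^ 2 * J + ε / 2 * A := by
    have h1 := mul_le_mul_of_nonneg_left hIJ hC
    have h2 : C * η * A ≤ ε / 2 * A := mul_le_mul_of_nonneg_right hηε hA0
    nlinarith
  constructor
  · refine e1.trans ?_
    have h3 : 0 ≤ C * J := mul_nonneg hC hJ0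
    nlinarith
  · refine e2.trans ?_
    set T : ℝ := ∫ y in Metric.ball z r' \ U, hN (fun y => ∑ q, c q • f q y) y with hTd
    have hT0 : 0 ≤ T := integral_nonneg fun y => hN_nonneg _ _
    have h3 : 0 ≤ C * J := mul_nonneg hC hJ0
    have h4 : 0 ≤ C * m⁻¹ ^ 2 * T := by positivity
    nlinarith

end

end Vale.Agent.P088.R2.H710
end
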