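import Vale.Agent.P088.R2.H710.S4.Fun

/-!
# P088, stage 4: the selection, all ranks
-/

open Bundle Manifold MeasureTheory Set Filter Topology
open scoped ContDiff

noncomputable section

set_option linter.all false

namespace Vale.Agent.P088.R2.H710

open Vale.Agent.P088 Vale.Agent.P088.EYM Vale.Agent.P088.EYM.O
open Vale.Agent.P088.R2.H338 (thP runQ)
open Vale.Agent.P088.R2.H338.T3 (gin GIn smSub fkB fkB_apply fkB_symm fkB_nonneg ppSub select
  partner smul_re)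

universe u

section euclid

variable {n N : ℕ} [NeZero n]

theorem tsN_sum {d : ℕ} (c : Fin d → ℝ) (f : Fin d → E n → Fib N) :
    tsupport (fun x => ∑ q, c q • f q x) ⊆ ⋃ q, tsupport (f q) := by
  refine closure_minimal (fun x hx => ?_) (isClosed_iUnion_of_finite fun q => isClosed_tsupport _)
  rw [Function.mem_support] at hx
  by_contra hn
  simp only [mem_iUnion, not_exists] at hn
  exact hx (Finset.sum_eq_zero fun q _ => by
    rw [image_eq_zero_of_notMem_tsupport (hn q), smul_zero])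

theorem csN_sum {d : ℕ} (c : Fin d → ℝ) {f : Fin d → E n → Fib N}
    (hf : ∀ q, HasCompactSupport (f q)) : HasCompactSupport (fun x => ∑ q, c q • f q x) :=
  (isCompact_iUnion fun q => (hf q).isCompact).of_isClosed_subset (isClosed_tsupport _)
    (tsN_sum c f)

theorem pdN_sum {B : Set (E n)} (hB : RelOpen B) {d : ℕ} (c : Fin d → ℝ)
    {f : Fin d → E n → Fib N} (hf : ∀ q, ContDiffOn ℝ ∞ (f q) B) (k : Fin n) {x : E n}
    (hx : x ∈ B) : pd k (fun y => ∑ q, c q • f q y) x = ∑ q, c q • pd k (f q) x := by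
  rw [hB.pd_sum _ (f := fun q y => c q • f q y) (fun q _ => (hf q).const_smul _) hx k]
  exact Finset.sum_congr rfl fun q _ => hB.pd_const_smul (c q) (hf q) hx k

theorem endF_sum (T : EndF N) {d : ℕ} (c : Fin d → ℝ) (v : Fin d → Fib N) :
    T (∑ q, c q • v q) = ∑ q, c q • T (v q) := by
  rw [map_sum]
  refine Finset.sum_congr rfl fun q _ => ?_
  rw [← Complex.coe_smul, map_smul, Complex.coe_smul]

theorem nabN_sum {L : LD n N} {B : Set (E n)} (hB : RelOpen B) {d : ℕ} (c : Fin d → ℝ)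
    {f : Fin d → E n → Fib N} (hf : ∀ q, ContDiffOn ℝ ∞ (f q) B) (k : Fin n) {x : E n}
    (hx : x ∈ B) : nab L k (fun y => ∑ q, c q • f q y) x = ∑ q, c q • nab L k (f q) x := by
  unfold nab
  rw [pdN_sum hB c hf k hx, endF_sum, ← Finset.sum_add_distrib]
  exact Finset.sum_congr rfl fun q _ => (smul_add _ _ _).symm

theorem fluxN_sum {L : LD n N} {B : Set (E n)} (hB : RelOpen B) {d : ℕ} (c : Fin d → ℝ)
    {f : Fin d → E n → Fib N} (hf : ∀ q, ContDiffOn ℝ ∞ (f q) B) (j : Fin n) {x : E n}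
    (hx : x ∈ B) : flux L j (fun y => ∑ q, c q • f q y) x = ∑ q, c q • flux L j (f q) x := by
  unfold flux
  simp only [nabN_sum hB c hf _ hx, Finset.smul_sum]
  rw [Finset.sum_comm]
  refine Finset.sum_congr rfl fun q _ => Finset.sum_congr rfl fun k _ => ?_
  rw [smul_comm]

theorem LopN_sum {L : LD n N} {B : Set (E n)} (hB : RelOpen B) (hL : L.Ok B) {d : ℕ}
    (c : Fin d → ℝ) {f : Fin d → E n → Fib N} (hf : ∀ q, ContDiffOn ℝ ∞ (f q) B) {y : E n}
    (hy : y ∈ B) : Lop L (fun y => ∑ q, c q • f q y) y = ∑ q, c q • Lop L (f q) y := by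
  unfold Lop
  have e1 : ∀ j, pd j (flux L j (fun y => ∑ q, c q • f q y)) y =
      ∑ q, c q • pd j (flux L j (f q)) y := by
    intro j
    rw [hB.pd_congr (g := fun y => ∑ q, c q • flux L j (f q) y)
      (fun x hx => fluxN_sum hB c hf j hx) hy j]
    exact pdN_sum hB c (fun q => cClosed_flux_smooth hB hL (hf q) j) j hy
  simp only [e1, fluxN_sum hB c hf _ hy, endF_sum, ← Finset.sum_add_distrib, ← smul_add]
  rw [Finset.sum_comm]
  exact Finset.sum_congr rfl fun q _ => (Finset.smul_sum ..).symm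

end euclid

section

variable {n N : ℕ} [NeZero n] {M : Type u} [TopologicalSpace M]
  [ChartedSpace (EuclideanHalfSpace n) M] [IsManifold (𝓡∂ n) ∞ M] [MeasurableSpace M]
  {P : One n N M} {q : M} {z : E n} {r : ℝ} {j0 : Fin N} {W : Model n N}
  {D : Set (E n)} {Y : E n → E n} {s : Fin N → M → Fib N} {t : Fin n → M → Fib N}
  [T2Space M] [CompactSpace M] [BorelSpace M]

/-- The combination of the sections `T`. -/
theorem InM.T_comb (h : InM P q z r j0 W D Y s t) (hr : 0 < r) (hz : r ≤ z 0) {K : Set (E n)}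
    (hKB : K ⊆ Metric.ball z r) {d : ℕ} (c : Fin d → ℝ) {f : Fin d → E n → Fib N}
    {T : Fin d → M → Fib N} (hfc : ∀ i, HasCompactSupport (f i)) (hfK : ∀ i, tsupport (f i) ⊆ K)
    (hT : ∀ i, SmS n (T i)) (hTe : ∀ i, ∀ y ∈ Metric.ball z r, cu q Y s (T i) y = f i y)
    (hT0 : ∀ i, ∀ x, x ∉ thP n q Y '' K → T i x = 0) :
    SmS n (∑ i, c i • T i) ∧
      (∀ y ∈ Metric.ball z r, cu q Y s (∑ i, c i • T i) y = ∑ i, c i • f i y) ∧
      (∀ x, x ∉ thP n q Y '' K → (∑ i, c i • T i) x = 0) ∧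
      tsupport (∑ i, c i • T i) ⊆ thP n q Y '' tsupport (fun x => ∑ i, c i • f i x) ∧
      ∀ x ∈ (𝓡∂ n).boundary M, (∑ i, c i • T i) x = 0 := by
  have hg := gin h hr hz
  have h1 : ∀ y ∈ Metric.ball z r, cu q Y s (∑ i, c i • T i) y = ∑ i, c i • f i y := by
    intro y hy
    rw [cu_sum]
    exact Finset.sum_congr rfl fun i _ => by rw [hTe i y hy]
  have h2 : ∀ x, x ∉ thP n q Y '' K → (∑ i, c i • T i) x = 0 := by
    intro x hx
    rw [Finset.sum_apply]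
    exact Finset.sum_eq_zero fun i _ => by rw [Pi.smul_apply, hT0 i x hx, smul_zero]
  refine ⟨(smSub n N M).sum_mem fun i _ => (smSub n N M).smul_mem _ (hT i), h1, h2, ?_,
    fun x hx => ?_⟩
  · have hfK' : tsupport (fun x => ∑ i, c i • f i x) ⊆ K :=
      (tsN_sum c f).trans (iUnion_subset hfK)
    have hcl : IsClosed (thP n q Y '' tsupport (fun x => ∑ i, c i • f i x)) :=
      ((csN_sum c hfc).isCompact.image_of_continuousOn
        (hg.contTh.mono (hfK'.trans hKB))).isClosed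
    refine closure_minimal ?_ hcl
    intro x hx
    rw [Function.mem_support] at hx
    by_contra hxn
    by_cases hxK : x ∈ thP n q Y '' K
    · obtain ⟨y, hy, rfl⟩ := hxK
      have h3 : y ∉ tsupport (fun x => ∑ i, c i • f i x) := fun h4 => hxn ⟨y, h4, rfl⟩
      have h4 := h1 y (hKB hy)
      have h5' : (∑ i, c i • f i y) = 0 :=
        image_eq_zero_of_notMem_tsupport (f := fun x => ∑ i, c i • f i x) h3
      rw [h5'] at h4
      have h6 := frm_cu h hz (u := ∑ i, c i • T i) (hKB hy)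
      rw [h4, map_zero] at h6
      exact hx h6.symm
    · exact hx (h2 x hxK)
  · refine h2 x ?_
    rintro ⟨y, hy, rfl⟩
    have h5 : thP n q Y y ∈ (𝓡∂ n).interior M := hg.mem_int (hKB hy)
    rw [← ModelWithCorners.compl_interior] at hx
    exact hx h5

end

section

variable {n N : ℕ} [NeZero n] {M₁ M₂ : Type u}
  [TopologicalSpace M₁] [ChartedSpace (EuclideanHalfSpace n) M₁] [IsManifold (𝓡∂ n) ∞ M₁]
  [T2Space M₁] [CompactSpace M₁] [ConnectedSpace M₁] [MeasurableSpace M₁] [BorelSpace M₁]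
  [TopologicalSpace M₂] [ChartedSpace (EuclideanHalfSpace n) M₂] [IsManifold (𝓡∂ n) ∞ M₂]
  [T2Space M₂] [CompactSpace M₂] [ConnectedSpace M₂] [MeasurableSpace M₂] [BorelSpace M₂]
  {P : One n N M₁} {Q : One n N M₂} {G : TM.Gl M₁ M₂} {V : Set M₂} {F : M₂ → M₁} {x : M₂} {x' : M₁}
  {j0 : Fin N} {s : Fin N → (M₁ → Fib N) × (M₂ → Fib N)}
  {t : Fin n → Fin N → (M₁ → Fib N) × (M₂ → Fib N)} {z : E n} {r : ℝ} {W₁ W₂ : Model n N}
  {D₁ D₂ : Set (E n)} {Y₁ Y₂ : E n → E n}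

/-- The selection. -/
theorem LimP.sel (h : LimP P Q G V F x x' j0 s t z r W₁ W₂ D₁ D₂ Y₁ Y₂) (hG : G.Ok n N)
    (hS : TM.SameD P Q G) (hO : IsOpen V) (hOc : IsPreconnected V) (hOΓ : (V ∩ G.Γ₂).Nonempty)
    {r' : ℝ} (hrr : r' < r) :
    ∃ k : ℝ, 0 ≤ k ∧ ∀ (d : ℕ) (f h₁ h₂ : Fin d → E n → Fib N) (T : Fin d → M₂ → Fib N),
      (∀ q, ContDiff ℝ ∞ (f q)) → (∀ q, HasCompactSupport (f q)) →
      (∀ q, tsupport (f q) ⊆ Metric.closedBall z r') → (∀ q, Continuous (h₁ q)) →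
      (∀ q, HasCompactSupport (h₁ q)) →
      (∀ q, tsupport (h₁ q) ⊆ {y | y ∈ Metric.closedBall z r' ∧ thP n x Y₂ y ∈ V}) →
      (∀ q, Continuous (h₂ q)) → (∀ q, HasCompactSupport (h₂ q)) →
      (∀ q, ∀ y ∈ Metric.ball z r, Lop W₂.toLD (f q) y = h₁ q y + h₂ q y) →
      (∀ q, SmS n (T q)) →
      (∀ q, ∀ y ∈ Metric.ball z r, cu x Y₂ (fun j => (s j).2) (T q) y = f q y) →
      (∀ q, ∀ m, m ∉ thP n x Y₂ '' Metric.closedBall z r' → T q m = 0) → ∀ δ : ℝ, 0 < δ →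
      ∃ (u₁ : Fin d → M₁ → Fib N) (u₂ : Fin d → M₂ → Fib N),
        (∀ q, (u₁ q, u₂ q) ∈ TM.PP P Q G) ∧ ∀ c : Fin d → ℝ,
          (FK Q Vᶜ (∑ q, c q • T q - ∑ q, c q • u₂ q)
            (∑ q, c q • T q - ∑ q, c q • u₂ q)).re ≤
            k * (∫ x, ‖∑ q, c q • h₂ q x‖ ^ 2) + δ * ∑ q, c q ^ 2 := by
  have hr := h.r0
  have hz := h.rz
  have hg := gin h.i₂ hr hz
  obtain ⟨hHB, hpos⟩ := h.hb
  have hrel : RelOpen (Metric.ball z r) := hHB ▸ cClosed_relOpen_HB z r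
  have hok : W₂.toLD.Ok (Metric.ball z r) := by rw [← hHB]; exact h.i₂.mod.ok
  have hCB : Metric.closedBall z r' ⊆ Metric.ball z r := Metric.closedBall_subset_ball hrr
  obtain ⟨⟨-, hQ, -⟩, -⟩ := TM.gData n N M₁ M₂ P Q G hG hS
  obtain ⟨k1, hk1, hrun⟩ := runQ n N M₂ Q G.Γ₂ hG.rel₂ hG.ne₂ hQ
  obtain ⟨k2, hk2, hfun⟩ := h.i₂.func hr hz hrr
  refine ⟨k1 * k2, by positivity, ?_⟩
  intro d f h₁ h₂ T hf hfc hfD h1c h1k h1s h2c h2k hlap hTs hTe hT0 δ hδ
  let U : Submodule ℝ (smSub n N M₂) :=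
    ((ppSub P Q G hG hS).map (LinearMap.snd ℝ (M₁ → Fib N) (M₂ → Fib N))).comap
      (smSub n N M₂).subtype
  have hUm : ∀ u : smSub n N M₂, u ∈ U ↔ ∃ u₁, (u₁, u.1) ∈ TM.PP P Q G := by
    intro u
    constructor
    · rintro ⟨⟨a, b⟩, hab, he⟩
      have he' : b = u.1 := he
      subst he'
      exact ⟨a, hab⟩
    · rintro ⟨u₁, hu₁⟩
      exact ⟨(u₁, u.1), hu₁, rfl⟩
  obtain ⟨u, hu, hsel⟩ := select (fkB Q Vᶜ) (fkB_symm Q Vᶜ) (fkB_nonneg Q Vᶜ) U
    (fun q => (⟨T q, hTs q⟩ : smSub n N M₂)) hδ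
  choose u₁ hu₁ using fun q => (hUm (u q)).1 (hu q)
  refine ⟨u₁, fun q => (u q).1, hu₁, fun c => ?_⟩
  obtain ⟨t1, t2, -, t4, t5⟩ := h.i₂.T_comb (T := T) hr hz hCB c hfc hfD hTs hTe hT0
  have s1 : ContDiff ℝ ∞ fun x => ∑ q, c q • f q x :=
    ContDiff.sum fun q _ => (hf q).const_smul (c q)
  have s2 : Continuous fun x => ∑ q, c q • h₁ q x :=
    continuous_finsetSum _ fun q _ => (h1c q).const_smul (c q)
  have s3 : Continuous fun x => ∑ q, c q • h₂ q x :=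
    continuous_finsetSum _ fun q _ => (h2c q).const_smul (c q)
  have s4 : tsupport (fun x => ∑ q, c q • h₁ q x) ⊆
      {y | y ∈ Metric.closedBall z r' ∧ thP n x Y₂ y ∈ V} :=
    (tsN_sum c h₁).trans (iUnion_subset h1s)
  have s5 : ∀ y ∈ Metric.ball z r, Lop W₂.toLD (fun x => ∑ q, c q • f q x) y =
      (∑ q, c q • h₁ q y) + ∑ q, c q • h₂ q y := by
    intro y hy
    rw [LopN_sum hrel hok c (fun q => (hf q).contDiffOn) hy, ← Finset.sum_add_distrib]
    exact Finset.sum_congr rfl fun q _ => by rw [hlap q y hy, smul_add]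
  obtain ⟨a, ha, hET⟩ := hfun _ _ _ _ s1 ((tsN_sum c f).trans (iUnion_subset hfD)) s2
    (csN_sum c h1k) (fun y hy => (s4 hy).1) s3 (csN_sum c h2k) s5 t1 t2 t4
  have hI0 : 0 ≤ ∫ x, ‖∑ q, c q • h₂ q x‖ ^ 2 := integral_nonneg fun x => sq_nonneg _
  have hSc : IsCompact (thP n x Y₂ '' tsupport fun x => ∑ q, c q • h₁ q x) :=
    (csN_sum c h1k).isCompact.image_of_continuousOn
      (hg.contTh.mono fun y hy => hCB (s4 hy).1)
  have hSO : (thP n x Y₂ '' tsupport fun x => ∑ q, c q • h₁ q x) ⊆ V ∩ Mi n M₂ := by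
    rintro _ ⟨y, hy, rfl⟩
    exact ⟨(s4 hy).2, hg.mem_int (hCB (s4 hy).1)⟩
  refine le_of_forall_pos_le_add fun ε hε => ?_
  obtain ⟨w, hw, hwb⟩ := hrun V _ _ a (√(k2 * ∫ x, ‖∑ q, c q • h₂ q x‖ ^ 2)) hO hOc hOΓ t1 t5
    hSc hSO ha (Real.sqrt_nonneg _) (fun φ hφ _ => hET φ hφ) ε hε
  rw [Real.sq_sqrt (by positivity)] at hwb
  obtain ⟨w₁, hw₁⟩ := partner hG hS hw
  have hws : SmS n w := by
    obtain ⟨f₂, -, hf₂⟩ := hw
    exact hf₂.smooth
  have h6 := hsel c ⟨w, hws⟩ ((hUm ⟨w, hws⟩).2 ⟨w₁, hw₁⟩)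
  have e2 : (∑ q, c q • ((⟨T q, hTs q⟩ : smSub n N M₂) - u q) : smSub n N M₂).1 =
      ∑ q, c q • T q - ∑ q, c q • (u q).1 := by
    rw [← Finset.sum_sub_distrib]
    simp only [AddSubmonoidClass.coe_finset_sum, Submodule.coe_smul, AddSubgroupClass.coe_sub,
      smul_sub]
  have e3 : (∑ q, c q • (⟨T q, hTs q⟩ : smSub n N M₂) - ⟨w, hws⟩ : smSub n N M₂).1 =
      ∑ q, c q • T q - w := by
    simp only [AddSubmonoidClass.coe_finset_sum, Submodule.coe_smul, AddSubgroupClass.coe_sub]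
  rw [fkB_apply, fkB_apply, e2, e3] at h6
  linarith

end

end Vale.Agent.P088.R2.H710
end
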