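import Vale.Agent.P088.R2.H710.S4.Sel
import Vale.Agent.P088.R2.H338.U.WQ

/-!
# P088, stage 4: the transfer of finite families in the models
-/

open Bundle Manifold MeasureTheory Set Filter Topology
open scoped ContDiff

noncomputable section

set_option linter.all false

namespace Vale.Agent.P088.R2.H710

open Vale.Agent.P088 Vale.Agent.P088.EYM Vale.Agent.P088.EYM.O
open Vale.Agent.P088.R2.H338 (thP)
open Vale.Agent.P088.R2.H338.T3 (gin GIn smSub ppSub partner)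
open Vale.Agent.P088.R2.H338.U4 (fk_mono limP_wEst)
open Vale.Agent.P088.R2.H509.S4 (c4)

universe u

theorem InM.cu_sol {n N : ℕ} [NeZero n] {M : Type u} [TopologicalSpace M]
    [ChartedSpace (EuclideanHalfSpace n) M] [IsManifold (𝓡∂ n) ∞ M] [T2Space M] [CompactSpace M]
    [MeasurableSpace M] [BorelSpace M]
    {P : One n N M} {q : M} {z : E n} {r : ℝ} {j0 : Fin N} {W : Model n N}
    {D : Set (E n)} {Y : E n → E n} {s : Fin N → M → Fib N} {t : Fin n → M → Fib N}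
    (h : InM P q z r j0 W D Y s t) (hz : r ≤ z 0) {f u : M → Fib N} (hu : P.Harm f u) :
    Sol W.toLD (Metric.ball z r) (cu q Y s u) := by
  obtain ⟨hHB, -⟩ := cClosed_HB (n := n) hz
  have a1 : Sol (P.loc q) D (lu (𝓡∂ n) q u) := bmodel_sol_mono (TM.fHarm n N M P f u hu q) h.sub
  have hL : (P.loc q).Ok D := bmodel_ok_mono ((TM.fLoc n N M).2.1 P q) h.sub
  have b1 := cClosed_tr bSol h.rel (cClosed_relOpen_HB z r) hL h.mod.ok h.pull a1
  rw [hHB] at b1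
  exact b1

theorem hN_nonneg {n N : ℕ} [NeZero n] (c : E n → Fib N) (y : E n) : 0 ≤ hN c y :=
  add_nonneg (sq_nonneg _) (Finset.sum_nonneg fun _ _ => sq_nonneg _)

section

variable {n N : ℕ} [NeZero n] {M₁ M₂ : Type u}
  [TopologicalSpace M₁] [ChartedSpace (EuclideanHalfSpace n) M₁] [IsManifold (𝓡∂ n) ∞ M₁]
  [T2Space M₁] [CompactSpace M₁] [ConnectedSpace M₁] [MeasurableSpace M₁] [BorelSpace M₁]
  [TopologicalSpace M₂] [ChartedSpace (EuclideanHalfSpace n) M₂] [IsManifold (𝓡∂ n) ∞ M₂]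
  [T2Space M₂] [CompactSpace M₂] [ConnectedSpace M₂] [MeasurableSpace M₂] [BorelSpace M₂]
  {P : One n N M₁} {Q : One n N M₂} {G : TM.Gl M₁ M₂} {V : Set M₂} {F : M₂ → M₁} {x : M₂} {x' : M₁}
  {j0 : Fin N} {s : Fin N → (M₁ → Fib N) × (M₂ → Fib N)}
  {t : Fin n → Fin N → (M₁ → Fib N) × (M₂ → Fib N)} {z : E n} {r : ℝ} {W₁ W₂ : Model n N}
  {D₁ D₂ : Set (E n)} {Y₁ Y₂ : E n → E n}

/-- The transfer. -/
theorem LimP.step4 (h : LimP P Q G V F x x' j0 s t z r W₁ W₂ D₁ D₂ Y₁ Y₂) (hG : G.Ok n N)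
    (hS : TM.SameD P Q G) (hV : IsOpen V) (hVc : IsPreconnected V) (hVΓ : (V ∩ G.Γ₂).Nonempty)
    {H : M₂ → EndF N} (hm : TM.WMatch P Q G V F H) {r' : ℝ} (hr' : 0 < r') (hrr : r' < r)
    {D : Set (E n)} (hD : MeasurableSet D) (hDB : D ⊆ Metric.ball z r') :
    ∃ C₀ : ℝ, 0 ≤ C₀ ∧ ∀ (d : ℕ) (f h₁ h₂ : Fin d → E n → Fib N), (∀ q, ContDiff ℝ ∞ (f q)) →
      (∀ q, HasCompactSupport (f q)) → (∀ q, tsupport (f q) ⊆ D) → (∀ q, Continuous (h₁ q)) →
      (∀ q, HasCompactSupport (h₁ q)) →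
      (∀ q, tsupport (h₁ q) ⊆ {y | y ∈ Metric.closedBall z r' ∧ thP n x Y₂ y ∈ V}) →
      (∀ q, Continuous (h₂ q)) → (∀ q, HasCompactSupport (h₂ q)) →
      (∀ q, ∀ y ∈ Metric.ball z r, Lop W₂.toLD (f q) y = h₁ q y + h₂ q y) → ∀ ε : ℝ, 0 < ε →
      ∃ v w : Fin d → E n → Fib N, (∀ q, Sol W₂.toLD (Metric.ball z r) (v q)) ∧
        (∀ q, Sol W₁.toLD (Metric.ball z r) (fun y => v q y + w q y)) ∧
        (∀ q, ∀ y ∈ mp V x Y₂ z r, w q y = 0) ∧ ∀ c : Fin d → ℝ,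
          (∫ y in Metric.ball z r' \ mp V x Y₂ z r,
            hN (fun y => ∑ q, c q • (f q y - v q y)) y) ≤
            C₀ * (∫ y, ‖∑ q, c q • h₂ q y‖ ^ 2) + ε * (∑ q, c q ^ 2) ∧
          (∫ y in Metric.ball z r', hN (fun y => ∑ q, c q • w q y) y) ≤
            C₀ * ((∫ y in D \ mp V x Y₂ z r, hN (fun y => ∑ q, c q • f q y) y) +
              (∫ y, ‖∑ q, c q • h₂ q y‖ ^ 2)) + ε * (∑ q, c q ^ 2) := by
  have hr := h.r0
  have hz := h.rz
  have hg := gin h.i₂ hr hz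
  obtain ⟨hHB, hpos⟩ := h.hb
  have hRel : RelOpen (HB z r) := APoin_rel_HB z r
  have hCB : Metric.closedBall z r' ⊆ Metric.ball z r := Metric.closedBall_subset_ball hrr
  have hK : IsCompact (Metric.closedBall z r') := isCompact_closedBall _ _
  have hKD : Metric.closedBall z r' ⊆ HB z r := by rw [hHB]; exact hCB
  obtain ⟨k, hk, hsel⟩ := h.sel hG hS hV hVc hVΓ hrr
  obtain ⟨k3, hk3, hc4⟩ := c4 Q x h.i₂.rel hRel h.i₂.sub h.i₂.mod.ok h.i₂.pull hK hKD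
  obtain ⟨k4, hk4, hw⟩ := limP_wEst hG hS hV hm h hr' hrr hD hDB
  refine ⟨(k3 + k4) * k + k4, by positivity, ?_⟩
  intro d f h₁ h₂ hf hfc hfD h1c h1k h1s h2c h2k hlap ε hε
  have hfC : ∀ q, tsupport (f q) ⊆ Metric.closedBall z r' := fun q =>
    (hfD q).trans (hDB.trans Metric.ball_subset_closedBall)
  have hT : ∀ q, ∃ T : M₂ → Fib N, SmS n T ∧
      (∀ y ∈ Metric.ball z r, cu x Y₂ (fun j => (s j).2) T y = f q y) ∧
      (∀ m, m ∉ thP n x Y₂ '' Metric.closedBall z r' → T m = 0) := by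
    intro q
    obtain ⟨T, hT, hTe, hT0, -, -⟩ := h.i₂.extN hr hz (hf q) (hfc q) ((hfC q).trans hCB)
    exact ⟨T, hT, hTe, fun m hm => hT0 m fun ⟨y, hy, e⟩ => hm ⟨y, hfC q hy, e⟩⟩
  choose T hTs hTe hT0 using hT
  obtain ⟨δ, hδ, hδ3, hδ4⟩ : ∃ δ : ℝ, 0 < δ ∧ k3 * δ ≤ ε ∧ k4 * δ ≤ ε := by
    refine ⟨ε / (k3 + k4 + 1), by positivity, ?_, ?_⟩
    · rw [mul_div_assoc', div_le_iff₀ (by positivity)]
      nlinarith
    · rw [mul_div_assoc', div_le_iff₀ (by positivity)]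
      nlinarith
  obtain ⟨u₁, u₂, hu, hub⟩ := hsel d f h₁ h₂ T hf hfc hfC h1c h1k h1s h2c h2k hlap hTs hTe
    hT0 δ hδ
  choose f₁ f₂ hf₁₂ hh₁ hh₂ using hu
  have hu' : ∀ q, (u₁ q, u₂ q) ∈ TM.PP P Q G := fun q => ⟨f₁ q, f₂ q, hf₁₂ q, hh₁ q, hh₂ q⟩
  set V₁ : Fin d → E n → Fib N := fun q => cu x' Y₁ (fun j => (s j).1) (u₁ q) with hV₁
  set V₂ : Fin d → E n → Fib N := fun q => cu x Y₂ (fun j => (s j).2) (u₂ q) with hV₂
  have q2 : ∀ q, Sol W₂.toLD (Metric.ball z r) (V₂ q) := fun q => h.i₂.cu_sol hz (hh₂ q)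
  have q1 : ∀ q, Sol W₁.toLD (Metric.ball z r) (V₁ q) := fun q => h.i₁.cu_sol hz (hh₁ q)
  refine ⟨V₂, fun q y => V₁ q y - V₂ q y, q2, fun q => ?_, fun q y hy => ?_, fun c => ?_⟩
  · have e1 : (fun y => V₂ q y + (V₁ q y - V₂ q y)) = V₁ q := by
      funext y
      abel
    rw [e1]
    exact q1 q
  · exact sub_eq_zero.2 (h.sol _ (hu' q) y hy.1 hy.2)
  · have hpc : (∑ q, c q • u₁ q, ∑ q, c q • u₂ q) ∈ TM.PP P Q G := by
      have h1 := (ppSub P Q G hG hS).sum_mem (t := Finset.univ)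
        (fun q _ => (ppSub P Q G hG hS).smul_mem (c q) (hu' q))
      have e : ∑ q, c q • ((u₁ q, u₂ q) : (M₁ → Fib N) × (M₂ → Fib N)) =
          (∑ q, c q • u₁ q, ∑ q, c q • u₂ q) := by
        rw [Prod.ext_iff, Prod.fst_sum, Prod.snd_sum]
        exact ⟨rfl, rfl⟩
      rw [e] at h1
      exact h1
    obtain ⟨t1, t2, -, t4, -⟩ := h.i₂.T_comb (T := T) hr hz hCB c hfc hfC hTs hTe hT0
    have hu2s : SmS n (∑ q, c q • u₂ q) :=
      (smSub n N M₂).sum_mem fun q _ => (smSub n N M₂).smul_mem _ (hh₂ q).smooth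
    have hTu : SmS n (∑ q, c q • T q - ∑ q, c q • u₂ q) := t1.sub hu2s
    have hb := hub c
    have hfD' : tsupport (fun y => ∑ q, c q • f q y) ⊆ D := (tsN_sum c f).trans
      (iUnion_subset hfD)
    have hGo : IsOpen (mp V x Y₂ z r) := h.mp_open hV
    have hSm : MeasurableSet (Metric.ball z r' \ mp V x Y₂ z r) :=
      measurableSet_ball.diff hGo.measurableSet
    have hSK : Metric.ball z r' \ mp V x Y₂ z r ⊆ Metric.closedBall z r' :=
      diff_subset.trans Metric.ball_subset_closedBall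
    have him2 : (fun y => (xc n x).symm (Y₂ y)) '' (Metric.ball z r' \ mp V x Y₂ z r) ⊆ Vᶜ := by
      rintro _ ⟨y, hy, rfl⟩ hyO
      exact hy.2 ⟨Metric.ball_subset_ball hrr.le hy.1, hyO⟩
    obtain ⟨-, -, b1, -⟩ := hc4 _ hTu _ hSm hSK
    have b2 := hw _ _ (∑ q, c q • u₁ q, ∑ q, c q • u₂ q) hfD' t1 t2 t4 hpc
    have b3 := fk_mono Q him2 hTu
    -- the first integral
    have e0 : ∀ y ∈ Metric.ball z r,
        cu x Y₂ (fun j => (s j).2) (∑ q, c q • T q - ∑ q, c q • u₂ q) y =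
          ∑ q, c q • (f q y - V₂ q y) := by
      intro y hy
      rw [cu_sub]
      beta_reduce
      rw [t2 y hy, cu_sum]
      beta_reduce
      rw [← Finset.sum_sub_distrib]
      exact Finset.sum_congr rfl fun q _ => (smul_sub _ _ _).symm
    have e3 : (∫ y in Metric.ball z r' \ mp V x Y₂ z r,
        hN (fun y => ∑ q, c q • (f q y - V₂ q y)) y) =
        ∫ y in Metric.ball z r' \ mp V x Y₂ z r,
          hN (cu x Y₂ (fun j => (s j).2) (∑ q, c q • T q - ∑ q, c q • u₂ q)) y := by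
      refine setIntegral_congr_fun hSm fun y hy => ?_
      have hyb : y ∈ Metric.ball z r := hCB (hSK hy)
      have hyH : y ∈ HB z r := by rw [hHB]; exact hyb
      unfold hN
      rw [e0 y hyb]
      congr 1
      refine Finset.sum_congr rfl fun j _ => ?_
      rw [hRel.pd_congr (fun y hy => e0 y (by rw [← hHB]; exact hy)) hyH j]
    have e4 : (fun y => ∑ q, c q • (V₁ q y - V₂ q y)) =
        fun y => cu x' Y₁ (fun j => (s j).1) (∑ q, c q • u₁ q) y -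
          cu x Y₂ (fun j => (s j).2) (∑ q, c q • u₂ q) y := by
      funext y
      rw [cu_sum, cu_sum]
      beta_reduce
      rw [← Finset.sum_sub_distrib]
      exact Finset.sum_congr rfl fun q _ => smul_sub _ _ _
    set I := ∫ y, ‖∑ q, c q • h₂ q y‖ ^ 2 with hI
    set S := ∑ q, c q ^ 2 with hSd
    have hI0 : 0 ≤ I := integral_nonneg fun x => sq_nonneg _
    have hS0 : 0 ≤ S := Finset.sum_nonneg fun q _ => sq_nonneg _
    have j1 : k3 * δ * S ≤ ε * S := mul_le_mul_of_nonneg_right hδ3 hS0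
    have j2 : k4 * δ * S ≤ ε * S := mul_le_mul_of_nonneg_right hδ4 hS0
    constructor
    · rw [e3]
      have b4 := (b1.trans (mul_le_mul_of_nonneg_left b3 hk3.le)).trans
        (mul_le_mul_of_nonneg_left hb hk3.le)
      refine b4.trans ?_
      nlinarith [mul_nonneg (mul_nonneg hk4 hk) hI0, mul_nonneg hk4 hI0]
    · rw [e4]
      set J := ∫ y in D \ mp V x Y₂ z r, hN (fun y => ∑ q, c q • f q y) y with hJ
      have hJ0 : 0 ≤ J := integral_nonneg fun y => hN_nonneg _ _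
      refine (b2.trans (mul_le_mul_of_nonneg_left (add_le_add hb le_rfl) hk4)).trans ?_
      nlinarith [mul_nonneg (mul_nonneg hk3.le hk) hI0, mul_nonneg hk4 hI0,
        mul_nonneg (mul_nonneg hk3.le hk) hJ0, mul_nonneg (mul_nonneg hk4 hk) hJ0]

end

end Vale.Agent.P088.R2.H710
end
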