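import Vale.Agent.P088.R2.H710.S4.Rlx
import Vale.Agent.P088.R2.H509.S4.N5
import Vale.Agent.P088.R2.H850.TrN

/-!
# P088, stage 4: the transfer of finite families at an interior point, on `V n`
-/

open Bundle Manifold MeasureTheory Set Filter Topology
open scoped ContDiff Matrix

noncomputable section

set_option linter.all false

namespace Vale.Agent.P088.R2.H710

open Vale.Agent.P088 Vale.Agent.P088.EYM
open Vale.Agent.P088.LR (V MF)
open Vale.Agent.P088.LR.U (MC)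
open Vale.Agent.P088.PJ (TP kp)
open Vale.Agent.P088.HY.T3 (Eb)
open Vale.Agent.P088.S4 (pdv MoV nv StpN)
open Vale.Agent.P088.R2.H509.S3 (em me em_me me_em em_mp em_emb em_ball continuous_em Eb_open
  Eb_meas Eb_fin contDiff_me contDiff_em)
open Vale.Agent.P088.R2.H509 (HB_rel HB_meas KB KB_compact HB_sub_KB KB_sub')
open Vale.Agent.P088.R2.H509.S4 (kW fW Ko fW_smooth kW_smooth h_lop bl bl_add bl_sub bl_sum bl_cont
  bl_smooth pd_bl sm_comp intHB TstF cE cE_smooth pd_cE nv_ofLp tstF_cE)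
open Vale.Agent.P088.R2.H850 (FW Tr TrV gE cpt ofE_app)

variable {n N : ℕ} [NeZero n]

/-- The weak equation. -/
theorem weakI {L₁ L₂ : LD n N} {z : E n} {r r₀ : ℝ} (hz : r₀ ≤ z 0) (hrr : r < r₀)
    (ok₁ : L₁.Ok (HB z r₀)) (ok₂ : L₂.Ok (HB z r₀))
    (cs₁ : ∀ v : Fib N, Sol L₁ (HB z r₀) (fun _ => v))
    (cs₂ : ∀ v : Fib N, Sol L₂ (HB z r₀) (fun _ => v)) {v w φ : E n → Fib N}
    (hv : Sol L₁ (HB z r₀) v) (hvw : Sol L₂ (HB z r₀) (fun y => v y + w y))
    (hφ : TstF z r φ) :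
    ∫ x in HB z r, ((∑ j, bl (pd j φ x) (fW L₂ j w x)) - ∑ j, bl (φ x) (kW L₂ j x (pd j w x))) =
      ∫ x in HB z r, ((∑ j, bl (pd j φ x) (fW L₁ j v x - fW L₂ j v x)) -
        ∑ j, bl (φ x) (kW L₁ j x (pd j v x) - kW L₂ j x (pd j v x))) := by
  have hsub : HB z r ⊆ HB z r₀ := CRel1_HB_mono z hrr.le
  have hrel := HB_rel z r₀
  obtain ⟨hHB, hpos⟩ := cClosed_HB (n := n) hz
  have s₁ := hv.1
  have s₂ := hvw.1
  have hφs : ContDiffOn ℝ ∞ φ (HB z r₀) := hφ.sm.contDiffOn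
  have hw : ContDiffOn ℝ ∞ w (HB z r₀) := by
    refine (s₂.sub s₁).congr fun y _ => ?_
    show w y = v y + w y - v y
    abel
  obtain ⟨r', hr', hφ0⟩ := hφ.sp
  set w₂ : E n → Fib N := fun y => v y + w y with hw₂
  set U : Fin n → E n → Fib N := fun j y => fW L₂ j w₂ y - fW L₁ j v y with hU
  have hUs : ∀ j, ContDiffOn ℝ ∞ (U j) (HB z r₀) := fun j =>
    (fW_smooth hrel ok₂ s₂ j).sub (fW_smooth hrel ok₁ s₁ j)
  have hUd : ∀ x ∈ HB z r₀, ∑ j, pd j (U j) x =
      ∑ j, kW L₁ j x (pd j v x) - ∑ j, kW L₂ j x (pd j w₂ x) := by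
    intro x hx
    have e1 : ∀ j, pd j (U j) x = pd j (fW L₂ j w₂) x - pd j (fW L₁ j v) x :=
      fun j => hrel.pd_sub (fW_smooth hrel ok₂ s₂ j) (fW_smooth hrel ok₁ s₁ j) hx j
    simp only [e1, Finset.sum_sub_distrib]
    have e2 := h_lop hrel ok₁ hx (fun v => (cs₁ v).2 x hx) s₁
    have e3 := h_lop hrel ok₂ hx (fun v => (cs₂ v).2 x hx) s₂
    rw [hv.2 x hx, map_zero] at e2
    rw [hvw.2 x hx, map_zero] at e3
    unfold Ko at e2 e3
    rw [eq_neg_of_add_eq_zero_left e2.symm, eq_neg_of_add_eq_zero_left e3.symm]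
    abel
  have hint : ∀ j, ∫ x in HB z r, pd j (fun y => bl (φ y) (U j y)) x = 0 := by
    intro j
    refine AGreen_int hr' (((bl_smooth hφs (hUs j)).mono hsub).of_le (by norm_cast))
      (fun x hx hxb => by simp [bl, hφ0 x hxb]) j ?_
    by_cases hj : j = 0
    · refine Or.inr fun x hx hx0 => ?_
      exact absurd hx0 (ne_of_gt (hpos (hsub hx)))
    · exact Or.inl hj
  have hI : ∀ j, IntegrableOn (fun x => pd j (fun y => bl (φ y) (U j y)) x) (HB z r) := fun j =>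
    intHB hrr (hrel.pd_smooth (bl_smooth hφs (hUs j)) j).continuousOn
  have hsum : ∫ x in HB z r, ∑ j, pd j (fun y => bl (φ y) (U j y)) x = 0 := by
    rw [integral_finsetSum _ fun j _ => hI j]
    exact Finset.sum_eq_zero fun j _ => hint j
  have ck : ∀ (L : LD n N), L.Ok (HB z r₀) → ∀ (c : E n → Fib N), ContDiffOn ℝ ∞ c (HB z r₀) →
      ∀ j, ContinuousOn (fun x => kW L j x (pd j c x)) (HB z r₀) := fun L hL c hc j =>
    (smooth_eval (kW_smooth hrel hL j) (hrel.pd_smooth hc j)).continuousOn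
  have cf : ∀ (L : LD n N), L.Ok (HB z r₀) → ∀ (c : E n → Fib N), ContDiffOn ℝ ∞ c (HB z r₀) →
      ∀ j, ContinuousOn (fW L j c) (HB z r₀) := fun L hL c hc j =>
    (fW_smooth hrel hL hc j).continuousOn
  have c1 : IntegrableOn (fun x => (∑ j, bl (pd j φ x) (fW L₂ j w x)) -
        ∑ j, bl (φ x) (kW L₂ j x (pd j w x))) (HB z r) :=
    intHB hrr ((continuousOn_finsetSum _ fun j _ =>
      bl_cont (hrel.pd_smooth hφs j).continuousOn (cf L₂ ok₂ _ hw j)).sub
      (continuousOn_finsetSum _ fun j _ => bl_cont hφs.continuousOn (ck L₂ ok₂ _ hw j)))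
  have c2 : IntegrableOn (fun x => (∑ j, bl (pd j φ x) (fW L₁ j v x - fW L₂ j v x)) -
        ∑ j, bl (φ x) (kW L₁ j x (pd j v x) - kW L₂ j x (pd j v x))) (HB z r) :=
    intHB hrr ((continuousOn_finsetSum _ fun j _ =>
      bl_cont (hrel.pd_smooth hφs j).continuousOn
        ((cf L₁ ok₁ _ s₁ j).sub (cf L₂ ok₂ _ s₁ j))).sub
      (continuousOn_finsetSum _ fun j _ => bl_cont hφs.continuousOn
        ((ck L₁ ok₁ _ s₁ j).sub (ck L₂ ok₂ _ s₁ j))))
  rw [← sub_eq_zero, ← integral_sub c1 c2, ← hsum]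
  refine setIntegral_congr_fun (HB_meas z r) fun x hx => ?_
  have hx' := hsub hx
  have e1 : ∀ j, pd j (fun y => bl (φ y) (U j y)) x =
      bl (pd j φ x) (U j x) + bl (φ x) (pd j (U j) x) := fun j => pd_bl hrel hφs (hUs j) hx' j
  have e2 : ∑ j, bl (φ x) (pd j (U j) x) =
      ∑ j, bl (φ x) (kW L₁ j x (pd j v x)) - ∑ j, bl (φ x) (kW L₂ j x (pd j w₂ x)) := by
    rw [← bl_sum, hUd x hx', bl_sub, bl_sum, bl_sum]
  have hpd : ∀ j, pd j w₂ x = pd j v x + pd j w x := fun j => hrel.pd_add s₁ hw hx' j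
  have e3 : ∀ j, fW L₂ j w₂ x = fW L₂ j v x + fW L₂ j w x := by
    intro j
    simp only [fW, hpd, map_add, smul_add, Finset.sum_add_distrib]
  have e4 : ∑ j, pd j (fun y => bl (φ y) (U j y)) x =
      ∑ j, bl (pd j φ x) (U j x) + (∑ j, bl (φ x) (kW L₁ j x (pd j v x)) -
        ∑ j, bl (φ x) (kW L₂ j x (pd j w₂ x))) := by
    rw [← e2, ← Finset.sum_add_distrib]
    exact Finset.sum_congr rfl fun j _ => e1 j
  show _ = ∑ j, pd j (fun y => bl (φ y) (U j y)) x
  rw [e4]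
  simp only [e3, hpd, hU, bl_sub, bl_add, map_add, Finset.sum_sub_distrib,
    Finset.sum_add_distrib]
  ring

/-! ### Pointwise formulas -/

section

variable {L : LD n N} {z : E n} {O : Set (V n)} {D : Set (E n)} {s : MF n} {P : MC n N}
  {G : Fin n → MC n N}

theorem FW_T (h : FW L z O D s P G) {x : V n} (hx : x ∈ O) (hxD : em z x ∈ D) (i j : Fin n)
    (v : Fin N → ℂ) : TP s P i j x *ᵥ v =
      WithLp.ofLp (gg L.g i j (em z x) • L.h (em z x) (WithLp.toLp 2 v)) := by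
  show ((s x i j : ℂ) • P x) *ᵥ v = _
  rw [Matrix.smul_mulVec, h.s x hx hxD i j, h.P x hx hxD]
  funext a
  have h1 := ofE_app (L.h (em z x)) (WithLp.toLp 2 v) a
  rw [Pi.smul_apply, WithLp.ofLp_smul, Pi.smul_apply]
  show _ = gg L.g i j (em z x) • (L.h (em z x) (WithLp.toLp 2 v)) a
  rw [h1, smul_eq_mul, Complex.real_smul]

theorem FW_K (h : FW L z O D s P G) {x : V n} (hx : x ∈ O) (hxD : em z x ∈ D) (i : Fin n)
    (v : Fin N → ℂ) : kp s G i x *ᵥ v =
      WithLp.ofLp (kW L i (em z x) (WithLp.toLp 2 v)) := by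
  have e : kp s G i x = S.ofE (kW L i (em z x)) := by
    show ∑ j, (s x i j : ℂ) • G j x = _
    unfold kW
    rw [R2.H850.ofE_sum]
    refine Finset.sum_congr rfl fun j _ => ?_
    rw [R2.H850.ofE_rsmul, h.s x hx hxD i j, h.G j x hx hxD]
    rfl
  rw [e]
  funext a
  exact (ofE_app (kW L i (em z x)) (WithLp.toLp 2 v) a).symm

end

theorem pdv_cEI {z : E n} {f : V n → Fin N → ℂ} (hf : ContDiff ℝ ∞ f) {x : V n}
    (hx : em z x ∈ Hs n) (i : Fin n) : pdv i f x = WithLp.ofLp (pd i (cE z f) (em z x)) := by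
  rw [pd_cE hf hx i, me_em]

/-- Functions on the ball, on `V n`. -/
theorem trV {z : E n} {r₀ : ℝ} (hr₀ : 0 < r₀) (hz : r₀ ≤ z 0) {c : E n → Fib N}
    (hc : ContDiffOn ℝ ∞ c (HB z r₀)) :
    TrV z (Eb (0 : V n) r₀) (HB z r₀) (fun x => WithLp.ofLp (c (em z x))) c := by
  obtain ⟨hHB, -⟩ := cClosed_HB (n := n) hz
  refine ⟨fun a => ?_, hc, fun x _ _ => rfl⟩
  have h1 : MapsTo (em z) (Eb (0 : V n) r₀) (HB z r₀) := fun x hx => by
    rw [hHB]
    exact (em_ball hr₀ x).2 hx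
  exact (sm_comp hc a).comp (contDiff_em z).contDiffOn h1

theorem pre_diff {z : E n} {r : ℝ} (hr : 0 < r) (U : Set (E n)) :
    em z ⁻¹' (Metric.ball z r \ U) = Eb (0 : V n) r \ em z ⁻¹' U := by
  ext x
  exact and_congr (em_ball hr x) Iff.rfl

theorem int_em1 {F : Type*} [NormedAddCommGroup F] [NormedSpace ℝ F] {z : E n} {r : ℝ}
    (hr : 0 < r) (U : Set (E n)) (g : E n → F) :
    ∫ x in Eb (0 : V n) r \ em z ⁻¹' U, g (em z x) = ∫ y in Metric.ball z r \ U, g y := by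
  rw [← (em_mp z).setIntegral_preimage_emb (em_emb z) g, pre_diff hr]

theorem int_em2 {F : Type*} [NormedAddCommGroup F] [NormedSpace ℝ F] {z : E n} {r : ℝ}
    (hr : 0 < r) (g : E n → F) :
    ∫ x in Eb (0 : V n) r, g (em z x) = ∫ y in Metric.ball z r, g y := by
  rw [← (em_mp z).setIntegral_preimage_emb (em_emb z) g]
  congr 2
  ext x
  exact (em_ball hr x).symm

theorem memLp_em {F : Type*} [NormedAddCommGroup F] {z : E n} {r r₀ : ℝ} (hr : 0 < r)
    (hrr : r < r₀) {g : E n → F} (hg : ContinuousOn g (Metric.ball z r₀)) {S : Set (V n)}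
    (hS : MeasurableSet S) (hSE : S ⊆ Eb (0 : V n) r) :
    MemLp (fun x => g (em z x)) 2 (volume.restrict S) := by
  haveI : IsFiniteMeasure (volume.restrict S) :=
    ⟨by rw [Measure.restrict_apply_univ]; exact (measure_mono hSE).trans_lt (Eb_fin hr)⟩
  have hK : IsCompact (Metric.closedBall z r) := isCompact_closedBall _ _
  obtain ⟨B, hB⟩ := hK.exists_bound_of_continuousOn
    (hg.mono (Metric.closedBall_subset_ball hrr))
  have hmap : MapsTo (em z) S (Metric.ball z r₀) := fun x hx =>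
    Metric.ball_subset_ball hrr.le ((em_ball hr x).2 (hSE hx))
  refine MemLp.of_bound ?_ B ?_
  · exact (hg.comp (continuous_em z).continuousOn hmap).aestronglyMeasurable hS
  · filter_upwards [ae_restrict_mem hS] with x hx
    exact hB _ (Metric.ball_subset_closedBall ((em_ball hr x).2 (hSE hx)))

end Vale.Agent.P088.R2.H710
end
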