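import Vale.Agent.P088.R2.H710.S4.StpI

/-!
# P088, stage 4: the transfer property at an interior point
-/

open Bundle Manifold MeasureTheory Set Filter Topology
open scoped ContDiff Matrix

noncomputable section

set_option linter.all false

namespace Vale.Agent.P088.R2.H710

open Vale.Agent.P088 Vale.Agent.P088.EYM
open Vale.Agent.P088.LR (V MF)
open Vale.Agent.P088.LR.U (MC)
open Vale.Agent.P088.PJ (TP kp)
open Vale.Agent.P088.HY.T3 (Eb)
open Vale.Agent.P088.S4 (pdv MoV nv StpN)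
open Vale.Agent.P088.R2.H509.S3 (em me em_me me_em em_mp em_emb em_ball continuous_em Eb_open
  Eb_meas Eb_fin contDiff_me contDiff_em)
open Vale.Agent.P088.R2.H509 (HB_rel HB_meas KB KB_compact HB_sub_KB KB_sub')
open Vale.Agent.P088.R2.H509.S4 (kW fW Ko fW_smooth kW_smooth h_lop bl bl_add bl_sub bl_sum bl_cont
  bl_smooth pd_bl sm_comp intHB TstF cE cE_smooth pd_cE nv_ofLp tstF_cE)
open Vale.Agent.P088.R2.H850 (FW Tr TrV gE cpt ofE_app)

variable {n N : ℕ} [NeZero n]

theorem ofs {d : ℕ} (c : Fin d → ℝ) (v : Fin d → Fib N) :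
    ∑ q, (c q : ℂ) • (WithLp.ofLp (v q) : Fin N → ℂ) = WithLp.ofLp (∑ q, c q • v q) := by
  rw [WithLp.ofLp_sum]
  refine Finset.sum_congr rfl fun q _ => ?_
  rw [← Complex.coe_smul]
  rfl

theorem hN_cont {D : Set (E n)} (hD : RelOpen D) {c : E n → Fib N} (hc : ContDiffOn ℝ ∞ c D) :
    ContinuousOn (hN c) D :=
  (hc.continuousOn.norm.pow 2).add (continuousOn_finsetSum _ fun j _ =>
    (hD.pd_smooth hc j).continuousOn.norm.pow 2)

/-- The transfer property. -/
theorem stpI {L₁ L₂ : LD n N} {z : E n} {r r₀ : ℝ} (hz : r₀ ≤ z 0) (hr : 0 < r) (hrr : r < r₀)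
    (ok₁ : L₁.Ok (HB z r₀)) (ok₂ : L₂.Ok (HB z r₀))
    (cs₁ : ∀ v : Fib N, Sol L₁ (HB z r₀) (fun _ => v))
    (cs₂ : ∀ v : Fib N, Sol L₂ (HB z r₀) (fun _ => v)) {U : Set (E n)} (hU : IsOpen U)
    (hUs : U ⊆ Metric.ball z r₀) (hg : ∀ y ∈ U, L₁.g y = L₂.g y)
    (hB : ∀ y ∈ U, ∀ j, L₁.B j y = L₂.B j y) (hh : ∀ y ∈ U, L₁.h y = L₂.h y)
    (hT : TrI L₁ L₂ z r₀ r U) {s₁ s₂ : MF n} {P₁ P₂ : MC n N} {G₁ G₂ : Fin n → MC n N}
    (F₁ : FW L₁ z (Eb (0 : V n) r₀) (HB z r₀) s₁ P₁ G₁)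
    (F₂ : FW L₂ z (Eb (0 : V n) r₀) (HB z r₀) s₂ P₂ G₂) :
    StpN (Eb (0 : V n) r) (em z ⁻¹' U) (TP s₁ P₁) (kp s₁ G₁) (TP s₂ P₂) (kp s₂ G₂) := by
  have hr₀ : 0 < r₀ := hr.trans hrr
  obtain ⟨hHB, hpos⟩ := cClosed_HB (n := n) hz
  have hHB' : HB z r = Metric.ball z r := (cClosed_HB (n := n) (hrr.le.trans hz)).1
  have hrel := HB_rel z r₀
  have hsub : HB z r ⊆ HB z r₀ := CRel1_HB_mono z hrr.le
  have hbb : Metric.ball z r ⊆ HB z r₀ := hHB' ▸ hsub
  have hCB : Metric.closedBall z r ⊆ HB z r₀ := by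
    rw [hHB]
    exact Metric.closedBall_subset_ball hrr
  have hK : IsCompact (Metric.closedBall z r) := isCompact_closedBall _ _
  have hEr : ∀ {x : V n}, x ∈ Eb (0 : V n) r → em z x ∈ Metric.ball z r := fun hx =>
    (em_ball hr _).2 hx
  have hED : ∀ {x : V n}, x ∈ Eb (0 : V n) r → em z x ∈ HB z r₀ := fun hx => hbb (hEr hx)
  have hEH : ∀ {x : V n}, x ∈ Eb (0 : V n) r → em z x ∈ Hs n := fun hx => (hED hx).2
  have hE0 : ∀ {x : V n}, x ∈ Eb (0 : V n) r → x ∈ Eb (0 : V n) r₀ := fun hx =>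
    (em_ball hr₀ _).1 (Metric.ball_subset_ball hrr.le (hEr hx))
  have hms : MeasurableSet (Eb (0 : V n) r \ em z ⁻¹' U) :=
    (Eb_meas r).diff (hU.preimage (continuous_em z)).measurableSet
  obtain ⟨C₀, hC₀, hst⟩ := hT
  refine ⟨C₀, hC₀, fun d f hf hfc hft ε hε => ?_⟩
  set f' : Fin d → E n → Fib N := fun q => cE z (f q) with hf'
  have hf's : ∀ q, ContDiff ℝ ∞ (f' q) := fun q => cE_smooth (hf q)
  have hfts : ∀ q, tsupport (f' q) ⊆ em z '' tsupport (f q) := fun q => by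
    have hc : IsClosed (em z '' tsupport (f q)) :=
      ((hfc q).isCompact.image (continuous_em z)).isClosed
    refine closure_minimal (fun y hy => ?_) hc
    refine ⟨me z y, subset_tsupport _ ?_, em_me z y⟩
    rw [Function.mem_support] at hy ⊢
    intro h0
    exact hy (by
      show WithLp.toLp 2 (f q (me z y)) = 0
      rw [h0]
      rfl)
  obtain ⟨v, w, hv, hvw, hw0, hest⟩ := hst d f' hf's
    (fun q => (((hfc q).isCompact.image (continuous_em z))).of_isClosed_subset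
      (isClosed_tsupport _) (hfts q))
    (fun q y hy => by
      obtain ⟨x, hx, rfl⟩ := hfts q hy
      exact hEr (hft q hx)) ε hε
  rw [← hHB] at hv hvw
  have hvs : ∀ q, ContDiffOn ℝ ∞ (v q) (HB z r₀) := fun q => (hv q).1
  have hws : ∀ q, ContDiffOn ℝ ∞ (w q) (HB z r₀) := fun q => by
    refine ((hvw q).1.sub (hv q).1).congr fun y _ => ?_
    show w q y = v q y + w q y - v q y
    abel
  have tw : ∀ q, TrV z (Eb (0 : V n) r₀) (HB z r₀) (fun x => WithLp.ofLp (w q (em z x))) (w q) :=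
    fun q => trV hr₀ hz (hws q)
  have tf : ∀ q, TrV z (Eb (0 : V n) r₀) (HB z r₀) (f q) (f' q) := fun q =>
    ⟨fun a => (contDiff_pi.1 (hf q) a).contDiffOn, (hf's q).contDiffOn, fun x _ _ => by
      show f q x = f q (me z (em z x))
      rw [me_em]⟩
  have ew : ∀ q i, ∀ x ∈ Eb (0 : V n) r, pdv i (fun x => WithLp.ofLp (w q (em z x))) x =
      WithLp.ofLp (pd i (w q) (em z x)) := fun q i x hx =>
    ((tw q).pdv (Eb_open r₀) hrel i).eq x (hE0 hx) (hED hx)
  have ef : ∀ q i, ∀ x ∈ Eb (0 : V n) r, pdv i (f q) x = WithLp.ofLp (pd i (f' q) (em z x)) :=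
    fun q i x hx => pdv_cEI (hf q) (hEH hx) i
  have hcball : ∀ {c : E n → Fib N}, ContDiffOn ℝ ∞ c (HB z r₀) → ∀ a,
      ContinuousOn (fun y => c y a) (Metric.ball z r₀) := fun hc a => by
    rw [← hHB]
    exact (sm_comp hc a).continuousOn
  refine ⟨fun q x => WithLp.ofLp (w q (em z x)), fun q i x => WithLp.ofLp (pd i (v q) (em z x)),
    fun q => ?_, fun q x hx => ?_, fun q a => ?_, fun q i a => ?_, fun q i a => ?_,
    fun q φ hφ hφc hφt => ?_, fun c => ?_⟩
  · refine contDiffOn_pi.2 fun a => ?_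
    exact (((tw q).sm a).mono fun x hx => hE0 hx).of_le (by norm_cast)
  · show WithLp.ofLp (w q (em z x)) = 0
    rw [hw0 q _ hx.1]
    rfl
  · exact memLp_em hr hrr (g := fun y => w q y a) (hcball (hws q) a) (Eb_meas r) subset_rfl
  · have h1 : MemLp (fun x => pd i (w q) (em z x) a) 2 (volume.restrict (Eb (0 : V n) r)) :=
      memLp_em hr hrr (g := fun y => pd i (w q) y a) (hcball (hrel.pd_smooth (hws q) i) a)
        (Eb_meas r) subset_rfl
    refine (memLp_congr_ae ?_).1 h1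
    filter_upwards [ae_restrict_mem (Eb_meas r)] with x hx
    rw [ew q i x hx]
  · exact memLp_em hr hrr (g := fun y => pd i (v q) y a) (hcball (hrel.pd_smooth (hvs q) i) a)
      hms diff_subset
  · -- the weak equation
    have hφT : TstF z r (cE z φ) := tstF_cE hr hφ hφc hφt
    have hwk := weakI hz hrr ok₁ ok₂ cs₁ cs₂ (hv q) (hvw q) hφT
    have hsw : ∀ (a : Fin n → Fib N) (b : Fin n → Fin n → Fib N),
        ∑ i, ∑ j, (WithLp.ofLp (a j)) ⬝ᵥ (WithLp.ofLp (b j i)) = ∑ j, bl (a j) (∑ i, b j i) := by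
      intro a b
      rw [Finset.sum_comm]
      refine Finset.sum_congr rfl fun j _ => ?_
      rw [bl_sum]
      rfl
    have hφ0 : ∀ x, φ x = WithLp.ofLp (cE z φ (em z x)) := fun x => by
      unfold cE
      rw [me_em]
    have eφ : ∀ i, ∀ x ∈ Eb (0 : V n) r, pdv i φ x = WithLp.ofLp (pd i (cE z φ) (em z x)) :=
      fun i x hx => pdv_cEI hφ (hEH hx) i
    have hL : (∫ x in Eb (0 : V n) r,
        ((∑ i, ∑ j, pdv j φ x ⬝ᵥ (TP s₂ P₂ j i x *ᵥ pdv i (fun x => WithLp.ofLp (w q (em z x))) x)) -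
            ∑ i, φ x ⬝ᵥ (kp s₂ G₂ i x *ᵥ pdv i (fun x => WithLp.ofLp (w q (em z x))) x))) =
        ∫ x in HB z r, ((∑ j, bl (pd j (cE z φ) x) (fW L₂ j (w q) x)) -
          ∑ j, bl (cE z φ x) (kW L₂ j x (pd j (w q) x))) := by
      rw [hHB', ← int_em2 hr]
      refine setIntegral_congr_fun (Eb_meas r) fun x hx => ?_
      show (∑ i, ∑ j, pdv j φ x ⬝ᵥ (TP s₂ P₂ j i x *ᵥ
          pdv i (fun x => WithLp.ofLp (w q (em z x))) x)) -
            ∑ i, φ x ⬝ᵥ (kp s₂ G₂ i x *ᵥ pdv i (fun x => WithLp.ofLp (w q (em z x))) x) = _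
      simp only [ew q _ x hx, FW_T F₂ (hE0 hx) (hED hx), FW_K F₂ (hE0 hx) (hED hx), eφ _ x hx]
      rw [hsw (fun j => pd j (cE z φ) (em z x))
        (fun j i => gg L₂.g j i (em z x) • L₂.h (em z x) (pd i (w q) (em z x))), hφ0 x]
      rfl
    have hR : (∫ x in Eb (0 : V n) r \ em z ⁻¹' U, ((∑ i, ∑ j, pdv j φ x ⬝ᵥ
          ((TP s₁ P₁ j i x - TP s₂ P₂ j i x) *ᵥ
            (WithLp.ofLp (pd i (v q) (em z x)) : Fin N → ℂ))) -
            ∑ i, φ x ⬝ᵥ ((kp s₁ G₁ i x - kp s₂ G₂ i x) *ᵥ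
              (WithLp.ofLp (pd i (v q) (em z x)) : Fin N → ℂ)))) =
        ∫ x in HB z r, ((∑ j, bl (pd j (cE z φ) x)
            (fW L₁ j (v q) x - fW L₂ j (v q) x)) -
          ∑ j, bl (cE z φ x) (kW L₁ j x (pd j (v q) x) -
            kW L₂ j x (pd j (v q) x))) := by
      have h0 : (∫ x in HB z r, ((∑ j, bl (pd j (cE z φ) x)
            (fW L₁ j (v q) x - fW L₂ j (v q) x)) -
          ∑ j, bl (cE z φ x) (kW L₁ j x (pd j (v q) x) -
            kW L₂ j x (pd j (v q) x)))) = ∫ x in Metric.ball z r \ U, ((∑ j, bl (pd j (cE z φ) x)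
            (fW L₁ j (v q) x - fW L₂ j (v q) x)) -
          ∑ j, bl (cE z φ x) (kW L₁ j x (pd j (v q) x) -
            kW L₂ j x (pd j (v q) x))) := by
        rw [hHB']
        refine setIntegral_eq_of_subset_of_forall_sdiff_eq_zero measurableSet_ball diff_subset
          fun y hy => ?_
        have hyU : y ∈ U := by
          by_contra hn
          exact hy.2 ⟨hy.1, hn⟩
        have e1 : ∀ j, fW L₁ j (v q) y = fW L₂ j (v q) y := fun j => by
          unfold fW gg
          rw [hg y hyU, hh y hyU]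
        have e2 : ∀ j, kW L₁ j y = kW L₂ j y := fun j => by
          unfold kW gg
          rw [hg y hyU, hh y hyU]
          exact Finset.sum_congr rfl fun k _ => by rw [hB y hyU k]
        simp only [e1, e2, sub_self]
        simp [bl]
      rw [h0, ← int_em1 hr]
      refine setIntegral_congr_fun hms fun x hx => ?_
      have hx1 := hx.1
      have e1 : ∀ j i, (TP s₁ P₁ j i x - TP s₂ P₂ j i x) *ᵥ
            (WithLp.ofLp (pd i (v q) (em z x)) : Fin N → ℂ) =
          WithLp.ofLp (gg L₁.g j i (em z x) • L₁.h (em z x) (pd i (v q) (em z x)) -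
            gg L₂.g j i (em z x) • L₂.h (em z x) (pd i (v q) (em z x))) := fun j i => by
        rw [Matrix.sub_mulVec, FW_T F₁ (hE0 hx1) (hED hx1), FW_T F₂ (hE0 hx1) (hED hx1),
          WithLp.ofLp_sub]
      have e2 : ∀ i, (kp s₁ G₁ i x - kp s₂ G₂ i x) *ᵥ
            (WithLp.ofLp (pd i (v q) (em z x)) : Fin N → ℂ) =
          WithLp.ofLp (kW L₁ i (em z x) (pd i (v q) (em z x)) -
            kW L₂ i (em z x) (pd i (v q) (em z x))) := fun i => by
        rw [Matrix.sub_mulVec, FW_K F₁ (hE0 hx1) (hED hx1), FW_K F₂ (hE0 hx1) (hED hx1),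
          WithLp.ofLp_sub]
      show (∑ i, ∑ j, pdv j φ x ⬝ᵥ ((TP s₁ P₁ j i x - TP s₂ P₂ j i x) *ᵥ
            (WithLp.ofLp (pd i (v q) (em z x)) : Fin N → ℂ))) -
            ∑ i, φ x ⬝ᵥ ((kp s₁ G₁ i x - kp s₂ G₂ i x) *ᵥ
              (WithLp.ofLp (pd i (v q) (em z x)) : Fin N → ℂ)) = _
      simp only [e1, e2, eφ _ x hx1]
      rw [hsw (fun j => pd j (cE z φ) (em z x)) (fun j i =>
        gg L₁.g j i (em z x) • L₁.h (em z x) (pd i (v q) (em z x)) -
            gg L₂.g j i (em z x) • L₂.h (em z x) (pd i (v q) (em z x))), hφ0 x]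
      simp only [Finset.sum_sub_distrib]
      rfl
    rw [hL, hR]
    exact hwk
  · -- the estimates
    obtain ⟨e1, e2⟩ := hest c
    have hMo : ∫ x in Eb (0 : V n) r \ em z ⁻¹' U,
        nv (∑ q, (c q : ℂ) • MoV (TP s₁ P₁) (kp s₁ G₁) (f q) x) =
        ∫ y in Metric.ball z r \ U, ‖∑ q, c q • L₁.h y (Lop L₁ (f' q) y)‖ ^ 2 := by
      rw [← int_em1 hr]
      refine setIntegral_congr_fun hms fun x hx => ?_
      have h1 : ∀ q, MoV (TP s₁ P₁) (kp s₁ G₁) (f q) x =
          WithLp.ofLp (L₁.h (em z x) (Lop L₁ (f' q) (em z x))) := fun q =>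
        F₁.mov (Eb_open r₀) hrel ok₁ cs₁ (tf q) (hE0 hx.1) (hED hx.1)
      simp only [h1]
      rw [ofs, nv_ofLp]
    have hfvs : ∀ q, ContDiffOn ℝ ∞ (fun y => f' q y - v q y) (HB z r₀) := fun q =>
      (hf's q).contDiffOn.sub (hvs q)
    constructor
    · have h1 : ∫ x in Eb (0 : V n) r \ em z ⁻¹' U, ∑ i, nv (∑ q, (c q : ℂ) •
          ((WithLp.ofLp (pd i (v q) (em z x)) : Fin N → ℂ) - pdv i (f q) x)) =
          ∫ y in Metric.ball z r \ U,
            ∑ i, ‖pd i (fun y => ∑ q, c q • (f' q y - v q y)) y‖ ^ 2 := by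
        rw [← int_em1 hr]
        refine setIntegral_congr_fun hms fun x hx => ?_
        refine Finset.sum_congr rfl fun i _ => ?_
        have k1 : ∀ q, (WithLp.ofLp (pd i (v q) (em z x)) : Fin N → ℂ) - pdv i (f q) x =
            WithLp.ofLp (pd i (v q) (em z x) - pd i (f' q) (em z x)) := fun q => by
          rw [WithLp.ofLp_sub, ef q i x hx.1]
        simp only [k1]
        rw [ofs, nv_ofLp, pdN_sum hrel c hfvs i (hED hx.1), ← norm_neg, ← Finset.sum_neg_distrib]
        congr 2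
        refine Finset.sum_congr rfl fun q _ => ?_
        rw [hrel.pd_sub (hf's q).contDiffOn (hvs q) (hED hx.1) i, ← smul_neg, neg_sub]
      rw [h1, hMo]
      refine le_trans ?_ e1
      have hss : ContDiffOn ℝ ∞ (fun y => ∑ q, c q • (f' q y - v q y)) (HB z r₀) :=
        ContDiffOn.sum fun q _ => (hfvs q).const_smul (c q)
      have i1 : IntegrableOn (hN fun y => ∑ q, c q • (f' q y - v q y)) (Metric.ball z r \ U) :=
        (((hN_cont hrel hss).mono hCB).integrableOn_compact hK).mono_set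
          (diff_subset.trans Metric.ball_subset_closedBall)
      have i2 : IntegrableOn (fun y => ∑ i, ‖pd i (fun y => ∑ q, c q • (f' q y - v q y)) y‖ ^ 2)
          (Metric.ball z r \ U) := by
        have h2 : ContinuousOn (fun y => ∑ i, ‖pd i (fun y => ∑ q, c q • (f' q y - v q y)) y‖ ^ 2)
            (HB z r₀) := continuousOn_finsetSum _ fun i _ =>
          (hrel.pd_smooth hss i).continuousOn.norm.pow 2
        exact ((h2.mono hCB).integrableOn_compact hK).mono_set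
          (diff_subset.trans Metric.ball_subset_closedBall)
      exact setIntegral_mono_on i2 i1 (measurableSet_ball.diff hU.measurableSet) fun y _ =>
        le_add_of_nonneg_left (sq_nonneg _)
    · have h1 : ∫ x in Eb (0 : V n) r,
          (nv (∑ q, (c q : ℂ) • (WithLp.ofLp (w q (em z x)) : Fin N → ℂ)) +
            ∑ i, nv (∑ q, (c q : ℂ) • pdv i (fun x => WithLp.ofLp (w q (em z x))) x)) =
          ∫ y in Metric.ball z r, hN (fun y => ∑ q, c q • w q y) y := by
        rw [← int_em2 hr]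
        refine setIntegral_congr_fun (Eb_meas r) fun x hx => ?_
        simp only [ew _ _ x hx]
        unfold hN
        congr 1
        · rw [ofs, nv_ofLp]
        · refine Finset.sum_congr rfl fun i _ => ?_
          rw [ofs, nv_ofLp, pdN_sum hrel c hws i (hED hx)]
      have h2 : ∫ x in Eb (0 : V n) r \ em z ⁻¹' U,
          (nv (∑ q, (c q : ℂ) • f q x) + ∑ i, nv (∑ q, (c q : ℂ) • pdv i (f q) x)) =
          ∫ y in Metric.ball z r \ U, hN (fun y => ∑ q, c q • f' q y) y := by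
        rw [← int_em1 hr]
        refine setIntegral_congr_fun hms fun x hx => ?_
        have k1 : ∀ q, f q x = WithLp.ofLp (f' q (em z x)) := fun q => by
          show f q x = f q (me z (em z x))
          rw [me_em]
        simp only [ef _ _ x hx.1]
        unfold hN
        congr 1
        · simp only [k1]
          rw [ofs, nv_ofLp]
        · refine Finset.sum_congr rfl fun i _ => ?_
          rw [ofs, nv_ofLp, pdN_sum hrel c (fun q => (hf's q).contDiffOn) i (hED hx.1)]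
      rw [h1, h2, hMo]
      exact e2

end Vale.Agent.P088.R2.H710
end
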